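import Vale.Agent.P193.Orig

/-! Stack letters and the abstract action of the generators on them. -/

namespace Vale.Agent.P193

open Sgn

universe u

section basic

section wdl

variable {α A : Type*}

@[simp] theorem wd_nil [Monoid A] (f : α → A) : wd f [] = 1 := rfl

@[simp] theorem wd_cons [Monoid A] (f : α → A) (a : α) (μ : List α) :
    wd f (a :: μ) = f a * wd f μ := by simp [wd]

@[simp] theorem wd_append [Monoid A] (f : α → A) (μ ν : List α) :
    wd f (μ ++ ν) = wd f μ * wd f ν := by simp [wd]

theorem wd_map [Monoid A] {β : Type*} (f : α → A) (h : β → α) (μ : List β) :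
    wd f (μ.map h) = wd (fun b => f (h b)) μ := by simp [wd, Function.comp_def]

@[simp] theorem wd_replicate [Monoid A] (f : α → A) (m : ℕ) (a : α) :
    wd f (List.replicate m a) = f a ^ m := by simp [wd]

theorem wd_flatMap [Monoid A] {β : Type*} (f : α → A) (h : β → List α) (μ : List β) :
    wd f (μ.flatMap h) = wd (fun b => wd f (h b)) μ := by
  induction μ with
  | nil => rfl
  | cons a μ ih => simp [ih]

theorem map_wd {B F : Type*} [Monoid A] [Monoid B] [FunLike F A B] [MonoidHomClass F A B] (h : F)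
    (f : α → A) (μ : List α) : h (wd f μ) = wd (fun a => h (f a)) μ := by
  induction μ with
  | nil => simp
  | cons a μ ih => simp [ih]

end wdl

variable {α : Type} {A : Type*}

@[simp] theorem evP_nil [Semiring A] (f : α → A) : evP f [] = 0 := rfl

@[simp] theorem evP_cons [Semiring A] (f : α → A) (μ : List α) (P : Poly α) :
    evP f (μ :: P) = wd f μ + evP f P := by simp [evP]

@[simp] theorem evP_append [Semiring A] (f : α → A) (P Q : Poly α) :
    evP f (P ++ Q) = evP f P + evP f Q := by simp [evP]

theorem map_evP {B F : Type*} [Semiring A] [Semiring B] [FunLike F A B] [RingHomClass F A B] (h : F)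
    (f : α → A) (P : Poly α) : h (evP f P) = evP (fun a => h (f a)) P := by
  induction P with
  | nil => simp
  | cons a P ih => simp [ih, map_wd]

theorem evP_map_append [Semiring A] (f : α → A) (P : Poly α) (ν : List α) :
    evP f (P.map fun μ => μ ++ ν) = evP f P * wd f ν := by
  induction P with
  | nil => simp
  | cons a P ih => simp [ih, add_mul]

theorem evP_map_pre [Semiring A] (f : α → A) (P : Poly α) (ν : List α) :
    evP f (P.map fun μ => ν ++ μ) = wd f ν * evP f P := by
  induction P with
  | nil => simp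
  | cons a P ih => simp [ih, mul_add]

theorem evP_map_map [Semiring A] {β : Type} (f : α → A) (h : β → α) (P : Poly β) :
    evP f (P.map fun μ => μ.map h) = evP (fun b => f (h b)) P := by
  induction P with
  | nil => simp
  | cons a P ih => simp [ih, wd_map]

def mulP (P Q : Poly α) : Poly α := P.flatMap fun μ => Q.map fun ν => μ ++ ν

theorem evP_mulP [Semiring A] (f : α → A) (P Q : Poly α) :
    evP f (mulP P Q) = evP f P * evP f Q := by
  induction P with
  | nil => simp [mulP]
  | cons a P ih =>
    unfold mulP at ih ⊢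
    rw [List.flatMap_cons, evP_append, ih, evP_map_pre, evP_cons, add_mul]

end basic

/-- stack letters -/
inductive Lt (D : Sgn) (G : Type u) : Type u
  | ray (m : ℕ)
  | conf (s : D.St)
  | dis (g : G) (s : D.St)

variable {D : Sgn} {n : ℕ} {G : Type u}

def Lt.isRay : Lt D G → Bool
  | .ray _ => true
  | _ => false

def Lt.sz : Lt D G → ℕ
  | .ray _ => 0
  | .conf s => tot s
  | .dis _ s => tot s

def wz : Z D n → ℕ
  | .push _ _ => 1
  | .T _ => 1
  | _ => 0

def wtW (μ : List (L D n)) : ℕ := (μ.map fun ζ => wz ζ.2).sum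

@[simp] theorem wtW_nil : wtW ([] : List (L D n)) = 0 := rfl

@[simp] theorem wtW_cons (ζ : L D n) (μ) : wtW (ζ :: μ) = wz ζ.2 + wtW μ := by simp [wtW]

@[simp] theorem wtW_append (μ ν : List (L D n)) : wtW (μ ++ ν) = wtW μ + wtW ν := by simp [wtW]

@[simp] theorem wtW_sh (j : ℕ) (μ : List (L D n)) : wtW (sh j μ) = wtW μ := by
  simp [wtW, sh, Function.comp_def]

def isTop : Z D n → Bool
  | .x0 | .vC | .y0 | .aD | .T _ => false
  | _ => true

variable [Group G]

def gv (gen : Fin n → G) (s : Fin n × Bool) : G := cond s.2 (gen s.1) (gen s.1)⁻¹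

def gw (gen : Fin n → G) (w : List (Fin n × Bool)) : G := (w.map (gv gen)).prod

open Classical in
/-- action of the generators on the top letter -/
noncomputable def tf (gen : Fin n → G) : Z D n → Lt D G → Option (Lt D G)
  | .one, c => some c
  | .x1, .ray m => some (.ray (m + 1))
  | .x1, c => some c
  | .y1, .ray 0 => none
  | .y1, .ray (m + 1) => some (.ray m)
  | .y1, c => some c
  | .pC, .conf s => some (.conf s)
  | .pD, .dis g s => some (.dis g s)
  | .lam a, .dis g s => some (.dis (gv gen a * g) s)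
  | .push i a, .conf s => some (.conf (Function.update s i (a :: s i)))
  | .pop i a, .dis g s =>
      if (s i).head? = some a then some (.dis g (Function.update s i (s i).tail)) else none
  | .dl, .conf s => some (.dis 1 s)
  | _, _ => none

open Classical in
/-- value of an input string -/
noncomputable def ev : List D.Sg → Poly (L D n)
  | [] => [[(0, Z.one)]]
  | a :: l => if h : ∃ i, a = D.inI i then mulP ((mI h.choose).map l0) (ev l)
      else if a = D.th then shP 1 (ev l) else [[(0, Z.one)]]

open Classical in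
/-- value of the evaluator on a configuration -/
noncomputable def val (e : ℕ) (q : D.Q) (s : D.St) : Poly (L D n) :=
  if (orig e (q, s)).1 = D.q0 then ev ((orig e (q, s)).2 D.inp)
  else if D.Reach e (orig e (q, s)) then []
  else [l0 (Z.aD :: popW (encO (orig e (q, s)).1 (orig e (q, s)).2))]

noncomputable def vT (e : ℕ) (q : D.Q) : Lt D G → Poly (L D n)
  | .conf s => val e q s
  | _ => []

theorem ev_inI (hD : D.Good) (i : Fin 8) (l : List D.Sg) :
    (ev (D.inI i :: l) : Poly (L D n)) = mulP ((mI i).map l0) (ev l) := by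
  have h : ∃ j, D.inI i = D.inI j := ⟨i, rfl⟩
  rw [ev, dif_pos h, ← hD.inI_inj h.choose_spec]

theorem ev_th (hD : D.Good) (l : List D.Sg) :
    (ev (D.th :: l) : Poly (L D n)) = shP 1 (ev l) := by
  rw [ev, dif_neg, if_pos rfl]
  rintro ⟨i, hi⟩
  exact hD.inI_th i hi.symm

theorem ev_other {o : D.Sg} (h1 : o ≠ D.th) (h2 : ∀ i, o ≠ D.inI i) (l : List D.Sg) :
    (ev (o :: l) : Poly (L D n)) = [[(0, Z.one)]] := by
  rw [ev, dif_neg, if_neg h1]
  rintro ⟨i, hi⟩
  exact h2 i hi

theorem wtW_l0_le (μ : List (Z D n)) (w : ℕ) (h : (μ.map wz).sum ≤ w) : wtW (l0 μ) ≤ w := by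
  simpa [wtW, l0, Function.comp_def] using h

theorem wz_le (z : Z D n) : wz z ≤ 1 := by cases z <;> simp [wz]

theorem mI_wt (i : Fin 8) : ∀ μ ∈ (mI i : Poly (Z D n)), (μ.map wz).sum ≤ 1 ∧ μ ≠ [] := by
  have hD : ∀ P : Poly (Z D n), (∀ μ ∈ P, (μ.map wz).sum ≤ 1) →
      ∀ μ ∈ mD P, (μ.map wz).sum ≤ 1 ∧ μ ≠ [] := by
    intro P hP μ hμ
    simp only [mD, List.mem_cons, List.mem_map] at hμ
    rcases hμ with rfl | rfl | ⟨ν, hν, rfl⟩
    · simp [wz]
    · simp [wz]
    · simpa [wz] using hP ν hν
  fin_cases i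
  · exact hD _ (by simp [wz])
  · exact hD _ (by simp [wz])
  · exact hD _ (by simp [wz])
  · exact hD _ (by simp [wz])
  · refine hD _ ?_
    intro μ hμ
    simp only [polyW, List.mem_map] at hμ
    obtain ⟨z, -, rfl⟩ := hμ
    simpa [wz] using wz_le z
  · simp [mI, wz]
  · simp [mI, wz]
  · simp [mI, wz]

theorem ev_wt (l : List D.Sg) : ∀ μ ∈ (ev l : Poly (L D n)), wtW μ ≤ l.length ∧ μ ≠ [] := by
  induction l with
  | nil => simp [ev, wz]
  | cons a l ih =>
    intro μ hμ
    rw [ev] at hμ
    split_ifs at hμ with h1 h2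
    · simp only [mulP, List.mem_flatMap, List.mem_map] at hμ
      obtain ⟨_, ⟨ν, hν, rfl⟩, ν', hν', rfl⟩ := hμ
      have := wtW_l0_le ν 1 (mI_wt _ ν hν).1
      have := ih ν' hν'
      refine ⟨by simp only [wtW_append, List.length_cons]; omega, by simp [this.2]⟩
    · simp only [shP, List.mem_map] at hμ
      obtain ⟨ν, hν, rfl⟩ := hμ
      have := ih ν hν
      refine ⟨by simp only [wtW_sh, List.length_cons]; omega, by simpa [sh] using this.2⟩
    · simp only [List.mem_singleton] at hμ
      subst hμ
      simp [wz]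

theorem popW_wt (t : D.St) : wtW (l0 (popW t) : List (L D n)) = 0 := by
  unfold wtW
  apply List.sum_eq_zero
  intro x hx
  simp only [l0, popW, List.mem_map, List.mem_flatMap] at hx
  obtain ⟨_, ⟨_, ⟨i, -, a, -, rfl⟩, rfl⟩, rfl⟩ := hx
  rfl

omit [Group G] in
theorem vT_wt (hD : D.Good) (e : ℕ) (q : D.Q) (c : Lt D G) :
    ∀ μ ∈ (vT e q c : Poly (L D n)), wtW μ ≤ c.sz := by
  intro μ hμ
  cases c with
  | ray m => simp [vT] at hμ
  | dis g s => simp [vT] at hμ
  | conf s =>
    simp only [vT, val] at hμ
    split_ifs at hμ with h1 h2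
    · exact le_trans (ev_wt _ μ hμ).1 (orig_size hD (q, s))
    · simp at hμ
    · simp only [List.mem_singleton] at hμ
      subst hμ
      have := popW_wt (n := n) (encO (orig e (q, s)).1 (orig e (q, s)).2)
      simp only [l0, List.map_cons, wtW_cons, wz] at this ⊢
      omega

open Classical in
/-- abstract action of the generators on creation operators -/
structure Act (gen : Fin n → G) (e : ℕ) {A : Type*} [Ring A] (g : L D n → A) (S : Lt D G → A)
    (θ : A →ₙ+* A) : Prop where
  two : (1 + 1 : A) = 0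
  one : g (0, .one) = 1
  th_g : ∀ j z, θ (g (j, z)) = g (j + 1, z)
  top : ∀ z c, isTop z = true → g (0, z) * S c = (tf gen z c).elim 0 S
  cre0 : g (0, .x0) = S (.ray 0)
  creC : g (0, .vC) = S (.conf nil)
  ann0 : ∀ c, g (0, .y0) * S c = if c = .ray 0 then 1 else 0
  annD : ∀ c, g (0, .aD) * S c = if c = .dis 1 nil then 1 else 0
  th_S : ∀ r c, θ r * S c = if c.isRay then S c * r else 0
  T_S : ∀ q c, g (0, .T q) * S c = evP g (vT e q c)

end Vale.Agent.P193
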