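import Vale.Agent.P193.Code

/-! Consequences of the abstract action. -/

namespace Vale.Agent.P193

open Sgn

universe u

variable {D : Sgn} {n : ℕ} {G : Type u} [Group G]

theorem wd_l0 {A : Type*} [Monoid A] (g : L D n → A) (μ : List (Z D n)) :
    wd g (l0 μ) = wd (fun z => g (0, z)) μ := wd_map _ _ _

theorem evP_l0 {A : Type*} [Semiring A] (g : L D n → A) (P : Poly (Z D n)) :
    evP g (P.map l0) = evP (fun z => g (0, z)) P := evP_map_map _ _ _

@[simp] theorem gw_nil (gen : Fin n → G) : gw gen [] = 1 := rfl

@[simp] theorem gw_cons (gen : Fin n → G) (a) (w) : gw gen (a :: w) = gv gen a * gw gen w := by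
  simp [gw]

@[simp] theorem gw_append (gen : Fin n → G) (w w') : gw gen (w ++ w') = gw gen w * gw gen w' := by
  simp [gw]

open Classical in
noncomputable def wOf (gen : Fin n → G) (x : G) : List (Fin n × Bool) :=
  if h : ∃ w, gw gen w = x then h.choose else []

theorem gw_wOf {gen : Fin n → G} (hs : Function.Surjective (gw gen)) (x : G) :
    gw gen (wOf gen x) = x := by
  unfold wOf
  rw [dif_pos (hs x)]
  exact (hs x).choose_spec

/-- creation words -/
noncomputable def SW (gen : Fin n → G) : Lt D G → List (Z D n)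
  | .ray m => List.replicate m Z.x1 ++ [Z.x0]
  | .conf s => pushW s ++ [Z.vC]
  | .dis x s => lamW (wOf gen x) ++ Z.dl :: pushW s ++ [Z.vC]

/-- annihilation words -/
noncomputable def SstW (gen : Fin n → G) : Lt D G → List (Z D n)
  | .ray m => Z.y0 :: List.replicate m Z.y1
  | .conf s => Z.aD :: popW s ++ [Z.dl]
  | .dis x s => Z.aD :: popW s ++ lamW (wOf gen x⁻¹)

noncomputable def Sst (gen : Fin n → G) {A : Type*} [Monoid A] (g : L D n → A) (c : Lt D G) : A :=
  wd (fun z => g (0, z)) (SstW gen c)

noncomputable def SSt (gen : Fin n → G) {A : Type*} [Monoid A] (g : L D n → A) :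
    List (Lt D G) → A
  | [] => 1
  | c :: β => SSt gen g β * Sst gen g c

section th

variable {A : Type*} [Ring A] {g : L D n → A} {θ : A →ₙ+* A}
  (hθ : ∀ j z, θ (g (j, z)) = g (j + 1, z))
include hθ

theorem th_wd' (μ : List (L D n)) (hμ : μ ≠ []) : θ (wd g μ) = wd g (sh 1 μ) := by
  induction μ with
  | nil => exact absurd rfl hμ
  | cons ζ μ ih =>
    by_cases h2 : μ = []
    · subst h2
      simp [sh, hθ ζ.1 ζ.2]
    · have := ih h2
      simp only [sh, wd_cons, map_mul, List.map_cons] at this ⊢
      rw [this, hθ ζ.1 ζ.2]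

theorem th_evP' (P : Poly (L D n)) (hP : ∀ μ ∈ P, μ ≠ []) : θ (evP g P) = evP g (shP 1 P) := by
  induction P with
  | nil => simp [shP]
  | cons μ P ih =>
    have := ih fun ν hν => hP ν (List.mem_cons_of_mem _ hν)
    simp only [shP, evP_cons, map_add, List.map_cons] at this ⊢
    rw [this, th_wd' hθ μ (hP μ List.mem_cons_self)]

theorem iter_evP' (j : ℕ) (P : Poly (L D n)) (hP : ∀ μ ∈ P, μ ≠ []) :
    θ^[j] (evP g P) = evP g (shP j P) := by
  induction j with
  | zero =>
    have : shP 0 P = P := by simp [shP, show (sh 0 : List (L D n) → _) = id from by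
      funext μ; simp [sh]]
    simp [this]
  | succ j ih =>
    rw [Function.iterate_succ_apply', ih, th_evP' hθ]
    · congr 1
      simp [shP, sh, Function.comp_def, add_assoc]
    · intro μ hμ
      simp only [shP, List.mem_map] at hμ
      obtain ⟨ν, hν, rfl⟩ := hμ
      simpa [sh] using hP ν hν

theorem iter_g' (j : ℕ) (z : Z D n) : θ^[j] (g (0, z)) = g (j, z) := by
  induction j with
  | zero => rfl
  | succ j ih => rw [Function.iterate_succ_apply', ih, hθ]

end th

namespace Act

variable {gen : Fin n → G} {e : ℕ} {A : Type*} [Ring A] {g : L D n → A} {S : Lt D G → A}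
  {θ : A →ₙ+* A} (h : Act gen e g S θ)
include h

theorem add_self (r : A) : r + r = 0 := by
  calc r + r = (1 + 1) * r := by rw [add_mul, one_mul]
    _ = 0 := by rw [h.two, zero_mul]

theorem eq_of_add {a b : A} (hab : a + b = 0) : a = b := by
  have := h.add_self b
  calc a = a + (b + b) := by rw [this, add_zero]
    _ = b := by rw [← add_assoc, hab, zero_add]

theorem th_wd (μ : List (L D n)) (hμ : μ ≠ []) : θ (wd g μ) = wd g (sh 1 μ) := th_wd' h.th_g μ hμ

theorem th_evP (P : Poly (L D n)) (hP : ∀ μ ∈ P, μ ≠ []) : θ (evP g P) = evP g (shP 1 P) :=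
  th_evP' h.th_g P hP

theorem iter_evP (j : ℕ) (P : Poly (L D n)) (hP : ∀ μ ∈ P, μ ≠ []) :
    θ^[j] (evP g P) = evP g (shP j P) := iter_evP' h.th_g j P hP

theorem iter_g (j : ℕ) (z : Z D n) : θ^[j] (g (0, z)) = g (j, z) := iter_g' h.th_g j z

theorem iter_one (j : ℕ) : θ^[j] 1 = g (j, .one) := by rw [← h.iter_g, h.one]

omit h in
theorem iter_mul (j : ℕ) (a b : A) : θ^[j] (a * b) = θ^[j] a * θ^[j] b := by
  induction j with
  | zero => rfl
  | succ j ih => simp only [Function.iterate_succ_apply', ih, map_mul]

omit h in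
theorem iter_add (j : ℕ) (a b : A) : θ^[j] (a + b) = θ^[j] a + θ^[j] b := by
  induction j with
  | zero => rfl
  | succ j ih => simp only [Function.iterate_succ_apply', ih, map_add]

omit h in
theorem iter_zero (j : ℕ) : θ^[j] (0 : A) = 0 := by
  induction j with
  | zero => rfl
  | succ j ih => simp only [Function.iterate_succ_apply', ih, map_zero]

theorem push_conf (i) (a) (s : D.St) :
    g (0, .push i a) * S (.conf s) = S (.conf (Function.update s i (a :: s i))) := by
  rw [h.top _ _ rfl]; rfl

theorem push1 (i) (l : List D.Sg) (t : D.St) :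
    wd (fun z => g (0, z)) (l.map (Z.push i)) * S (.conf t)
      = S (.conf (Function.update t i (l ++ t i))) := by
  induction l with
  | nil => simp
  | cons a l ih => simp [mul_assoc, ih, h.push_conf]

theorem pushW_conf (s t : D.St) :
    wd (fun z => g (0, z)) (pushW s) * S (.conf t) = S (.conf (app s t)) := by
  have key : ∀ I : List (Fin D.k), I.Nodup →
      wd (fun z => g (0, z)) (I.flatMap fun i => (s i).map (Z.push i)) * S (.conf t)
        = S (.conf fun i => if i ∈ I then s i ++ t i else t i) := by
    intro I hI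
    induction I with
    | nil => simp
    | cons i I ih =>
      rw [List.nodup_cons] at hI
      rw [List.flatMap_cons, wd_append, mul_assoc, ih hI.2, h.push1]
      congr 2
      funext j
      by_cases hj : j = i
      · subst hj; simp [hI.1]
      · simp [hj]
  rw [pushW, key _ (List.nodup_finRange _)]
  simp only [List.mem_finRange, if_true]
  rfl

/-- words of top letters that kill `c` -/
theorem kill (μ : List (Z D n)) (c : Lt D G) (hμ : ∀ z ∈ μ, isTop z = true ∧ tf gen z c = none)
    (r : A) (hr : r * S c = 0) : r * wd (fun z => g (0, z)) μ * S c = 0 := by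
  induction μ using List.reverseRecOn with
  | nil => simpa using hr
  | append_singleton μ z _ =>
    have := hμ z (by simp)
    simp [mul_assoc, h.top z c this.1, this.2]

omit h in
theorem pushW_mem {s : D.St} {z : Z D n} (hz : z ∈ pushW s) : ∃ i a, z = .push i a := by
  simp only [pushW, List.mem_flatMap, List.mem_map] at hz
  obtain ⟨i, -, a, -, rfl⟩ := hz
  exact ⟨i, a, rfl⟩

omit h in
theorem popW_mem {s : D.St} {z : Z D n} (hz : z ∈ popW s) : ∃ i a, z = .pop i a := by
  simp only [popW, List.mem_flatMap, List.mem_map] at hz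
  obtain ⟨i, -, a, -, rfl⟩ := hz
  exact ⟨i, a, rfl⟩

open Classical in
theorem pop1 (i) (l : List D.Sg) (x : G) (t : D.St) :
    wd (fun z => g (0, z)) (l.reverse.map (Z.pop i)) * S (.dis x t)
      = if l <+: t i then S (.dis x (Function.update t i ((t i).drop l.length))) else 0 := by
  induction l generalizing t with
  | nil => simp
  | cons a l ih =>
    simp only [List.reverse_cons, List.map_append, wd_append, List.map_cons, List.map_nil, wd_cons,
      wd_nil, mul_one, mul_assoc]
    rw [h.top _ _ rfl]
    simp only [tf]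
    rcases ht : t i with _ | ⟨b, l'⟩
    · simp
    · by_cases hab : b = a
      · subst hab
        have := ih (Function.update t i l')
        simp only [List.head?_cons, if_true, Option.elim_some, List.tail_cons, this]
        simp [List.cons_prefix_cons]
      · simp [hab, List.cons_prefix_cons, Ne.symm hab]

open Classical in
theorem popW_dis (s : D.St) (x : G) (t : D.St) :
    wd (fun z => g (0, z)) (popW s) * S (.dis x t)
      = if ∀ i, s i <+: t i then S (.dis x fun i => (t i).drop (s i).length) else 0 := by
  have key : ∀ I : List (Fin D.k), I.Nodup →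
      wd (fun z => g (0, z)) (I.flatMap fun i => (s i).reverse.map (Z.pop i)) * S (.dis x t)
        = if ∀ i ∈ I, s i <+: t i then
          S (.dis x fun i => if i ∈ I then (t i).drop (s i).length else t i) else 0 := by
    intro I hI
    induction I with
    | nil => simp
    | cons i I ih =>
      rw [List.nodup_cons] at hI
      rw [List.flatMap_cons, wd_append, mul_assoc, ih hI.2]
      by_cases h1 : ∀ i ∈ I, s i <+: t i
      · rw [if_pos h1, h.pop1]
        simp only [hI.1, if_false, List.mem_cons, forall_eq_or_imp]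
        by_cases h2 : s i <+: t i
        · rw [if_pos h2, if_pos ⟨h2, h1⟩]
          congr 2
          funext j
          by_cases hj : j = i
          · subst hj; simp
          · simp [hj]
        · rw [if_neg h2, if_neg fun hh => h2 hh.1]
      · rw [if_neg h1, if_neg, mul_zero]
        exact fun hh => h1 fun j hj => hh j (List.mem_cons_of_mem _ hj)
  rw [popW, key _ (List.nodup_finRange _)]
  simp

theorem popW_app (s : D.St) (x : G) (t : D.St) :
    wd (fun z => g (0, z)) (popW s) * S (.dis x (app s t)) = S (.dis x t) := by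
  rw [h.popW_dis, if_pos]
  · simp [app]
  · intro i; simp [app]

theorem lamW_dis (w) (x : G) (t : D.St) :
    wd (fun z => g (0, z)) (lamW w) * S (.dis x t) = S (.dis (gw gen w * x) t) := by
  induction w with
  | nil => simp [lamW]
  | cons a w ih =>
    simp only [lamW, List.map_cons, wd_cons, mul_assoc] at ih ⊢
    rw [ih, h.top _ _ rfl]
    simp [tf, mul_assoc]

theorem dl_conf (s : D.St) : g (0, .dl) * S (.conf s) = S (.dis 1 s) := by
  rw [h.top _ _ rfl]; rfl

theorem x1_pow (m k : ℕ) : g (0, .x1) ^ m * S (.ray k) = S (.ray (k + m)) := by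
  induction m with
  | zero => simp
  | succ m ih => rw [pow_succ', mul_assoc, ih, h.top _ _ rfl]; rfl

theorem SW_eq (hs : Function.Surjective (gw gen)) (c : Lt D G) :
    wd (fun z => g (0, z)) (SW gen c) = S c := by
  cases c with
  | ray m => simp [SW, h.cre0, h.x1_pow]
  | conf s => simp [SW, h.creC, h.pushW_conf]
  | dis x s => simp [SW, h.creC, h.pushW_conf, h.dl_conf, h.lamW_dis, gw_wOf hs]

open Classical in
theorem aD_popW (s : D.St) (c : Lt D G) :
    g (0, .aD) * wd (fun z => g (0, z)) (popW s) * S c = if c = .dis 1 s then 1 else 0 := by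
  cases c with
  | dis x t =>
    rw [mul_assoc, h.popW_dis]
    by_cases h1 : ∀ i, s i <+: t i
    · rw [if_pos h1, h.annD]
      congr 1
      apply propext
      simp only [Lt.dis.injEq, and_congr_right_iff]
      intro _
      constructor
      · intro h2
        funext i
        obtain ⟨u, hu⟩ := h1 i
        have := congrFun h2 i
        simp only [← hu, List.drop_left, nil] at this
        rw [← hu, this, List.append_nil]
      · rintro rfl
        funext i; simp [nil]
    · rw [if_neg h1, mul_zero, if_neg]
      intro h2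
      simp only [Lt.dis.injEq] at h2
      exact h1 fun i => by rw [h2.2]
  | ray m =>
    rw [if_neg (by simp)]
    apply h.kill
    · intro z hz; obtain ⟨i, a, rfl⟩ := popW_mem hz; exact ⟨rfl, rfl⟩
    · simp [h.annD]
  | conf t =>
    rw [if_neg (by simp)]
    apply h.kill
    · intro z hz; obtain ⟨i, a, rfl⟩ := popW_mem hz; exact ⟨rfl, rfl⟩
    · simp [h.annD]

open Classical in
theorem y0_pow (m : ℕ) (c : Lt D G) :
    g (0, .y0) * g (0, .y1) ^ m * S c = if c = .ray m then 1 else 0 := by
  induction m generalizing c with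
  | zero => simp [h.ann0]
  | succ m ih =>
    rw [pow_succ, ← mul_assoc, mul_assoc _ _ (S c), h.top _ _ rfl]
    rcases c with (_ | k) | s | ⟨x, s⟩ <;> simp [tf, ih]

open Classical in
theorem Sst_S (hs : Function.Surjective (gw gen)) (c c' : Lt D G) :
    Sst gen g c * S c' = if c' = c then 1 else 0 := by
  cases c with
  | ray m => simp [Sst, SstW, h.y0_pow]
  | conf s =>
    simp only [Sst, SstW, List.cons_append, wd_cons, wd_append, wd_nil, mul_one]
    rw [← mul_assoc, mul_assoc _ _ (S c'), h.top _ _ rfl]
    cases c' <;> simp [tf, h.aD_popW]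
  | dis x s =>
    simp only [Sst, SstW, List.cons_append, wd_cons, wd_append]
    rw [← mul_assoc]
    cases c' with
    | dis y t =>
      rw [mul_assoc _ _ (S _), h.lamW_dis, h.aD_popW, gw_wOf hs]
      simp [inv_mul_eq_one, eq_comm]
    | ray m =>
      rw [if_neg (by simp)]
      apply h.kill
      · intro z hz; obtain ⟨a, -, rfl⟩ := List.mem_map.1 hz; exact ⟨rfl, rfl⟩
      · simp [h.aD_popW]
    | conf t =>
      rw [if_neg (by simp)]
      apply h.kill
      · intro z hz; obtain ⟨a, -, rfl⟩ := List.mem_map.1 hz; exact ⟨rfl, rfl⟩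
      · simp [h.aD_popW]

theorem SSt_self (hs : Function.Surjective (gw gen)) (β : List (Lt D G)) :
    SSt gen g β * wd S β = 1 := by
  induction β with
  | nil => simp [SSt]
  | cons c β ih =>
    rw [SSt, wd_cons, mul_assoc, ← mul_assoc (Sst _ _ _), h.Sst_S hs, if_pos rfl, one_mul, ih]

theorem SSt_incomp (hs : Function.Surjective (gw gen)) (β γ : List (Lt D G)) (h1 : ¬ β <+: γ)
    (h2 : ¬ γ <+: β) : SSt gen g β * wd S γ = 0 := by
  induction β generalizing γ with
  | nil => simp at h1
  | cons c β ih =>
    cases γ with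
    | nil => simp at h2
    | cons d γ =>
      rw [SSt, wd_cons, mul_assoc, ← mul_assoc (Sst _ _ _), h.Sst_S hs]
      split_ifs with hd
      · subst hd
        rw [one_mul]
        exact ih γ (fun hh => h1 (by simpa using hh)) (fun hh => h2 (by simpa using hh))
      · simp

theorem T_nonconf (q) (c : Lt D G) (hc : ∀ s, c ≠ .conf s) : g (0, .T q) * S c = 0 := by
  rw [h.T_S]
  cases c with
  | conf s => exact absurd rfl (hc s)
  | _ => rfl

variable (hD : D.Good)
include hD

omit h in
theorem val_q0 (s : D.St) : (val e D.q0 s : Poly (L D n)) = ev (s D.inp) := by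
  have : orig e (D.q0, s) = (D.q0, s) := orig_eq hD .refl (isOrig_q0 hD s)
  simp [val, this]

theorem ev_ths (j : ℕ) (l : List D.Sg) :
    evP g (ev (List.replicate j D.th ++ l)) = θ^[j] (evP g (ev l)) := by
  induction j with
  | zero => rfl
  | succ j ih =>
    rw [List.replicate_succ, List.cons_append, ev_th hD, ← h.th_evP _ fun μ hμ => (ev_wt _ μ hμ).2,
      ih, Function.iterate_succ_apply']

omit h in
theorem ev_in (l : List (Fin 8)) (r : List D.Sg) :
    evP g (ev (l.map D.inI ++ r)) = wd (Lv.mv fun z => g (0, z)) l * evP g (ev r) := by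
  induction l with
  | nil => simp
  | cons i l ih =>
    rw [List.map_cons, List.cons_append, ev_inI hD, evP_mulP, ih, evP_l0, wd_cons, mul_assoc]
    rfl

theorem T0_inW (l : List D.Sg) (s : D.St) :
    g (0, .T D.q0) * wd (fun z => g (0, z)) (inW l) * S (.conf s) = evP g (ev (l ++ s D.inp)) := by
  rw [mul_assoc, inW, h.push1, h.T_S, vT, val_q0 hD, Function.update_self]

theorem tj_conf (j : ℕ) (s : D.St) : wd g (tj j) * S (.conf s) = θ^[j] (evP g (ev (s D.inp))) := by
  rw [tj, wd_l0, wd_cons, h.T0_inW hD, h.ev_ths hD]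

omit hD in
theorem tj_nonconf (j : ℕ) (c : Lt D G) (hc : ∀ s, c ≠ .conf s) : wd g (tj j) * S c = 0 := by
  rw [tj, wd_l0, wd_cons]
  apply h.kill
  · intro z hz
    obtain ⟨a, -, rfl⟩ := List.mem_map.1 hz
    cases c with
    | conf s => exact absurd rfl (hc s)
    | _ => exact ⟨rfl, rfl⟩
  · exact h.T_nonconf _ _ hc

theorem phi_val (hl : Lv fun z => g (0, z)) (ζ : L D n) :
    wd (fun z => g (0, z)) (phi ζ) = g ζ := by
  obtain ⟨j, z⟩ := ζ
  unfold phi
  split_ifs with hj
  · simp only at hj
    subst hj; simp
  · simp only [List.cons_append, wd_cons, wd_append, wd_nil, mul_one]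
    rw [h.creC, ← mul_assoc, h.T0_inW hD, List.append_assoc, h.ev_ths hD, ev_in hD, hl.code_val]
    simp [nil, ev, h.one, h.iter_g]

theorem phiP_val (hl : Lv fun z => g (0, z)) (P : Poly (L D n)) :
    evP (fun z => g (0, z)) (phiP P) = evP g P := by
  induction P with
  | nil => rfl
  | cons μ P ih =>
    simp only [phiP, List.map_cons, evP_cons] at ih ⊢
    rw [ih, wd_flatMap]
    simp only [h.phi_val hD hl]

end Act

end Vale.Agent.P193
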