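import Vale.Agent.P193.Act

/-! The input code of a polynomial evaluates to the polynomial. -/

namespace Vale.Agent.P193

variable {D : Sgn} {n : ℕ} {A : Type*} [Ring A]

structure Lv (f : Z D n → A) : Prop where
  y0x0 : f .y0 * f .x0 = 1
  y0x1 : f .y0 * f .x1 = 0
  y1x0 : f .y1 * f .x0 = 0
  y1x1 : f .y1 * f .x1 = 1

namespace Lv

variable {f : Z D n → A} (h : Lv f)
include h

theorem y0x0' (r : A) : f .y0 * (f .x0 * r) = r := by rw [← mul_assoc, h.y0x0, one_mul]
theorem y0x1' (r : A) : f .y0 * (f .x1 * r) = 0 := by rw [← mul_assoc, h.y0x1, zero_mul]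
theorem y1x0' (r : A) : f .y1 * (f .x0 * r) = 0 := by rw [← mul_assoc, h.y1x0, zero_mul]
theorem y1x1' (r : A) : f .y1 * (f .x1 * r) = r := by rw [← mul_assoc, h.y1x1, one_mul]

omit h in
/-- the vector with accumulator `a` and current value `c` -/
def vec (f : Z D n → A) (a c : A) : A := f .x0 * a + f .x1 * (f .x0 * c) + f .x1 * f .x1

theorem mD_vec (P : Poly (Z D n)) (a c : A) :
    evP f (mD P) * vec f a c = vec f a (evP f P * c) := by
  have h1 : evP f (P.map fun μ => [Z.x1, Z.x0] ++ μ ++ [Z.y0, Z.y1])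
      = f .x1 * f .x0 * evP f P * (f .y0 * f .y1) := by
    induction P with
    | nil => simp
    | cons μ P ih => simp only [List.map_cons, evP_cons, ih]; simp [mul_add, add_mul, mul_assoc]
  simp only [mD, evP_cons, h1, vec, wd_cons, wd_nil, mul_one, add_mul, mul_add, mul_assoc,
    h.y0x0', h.y0x1', h.y1x0', h.y1x1', h.y0x1, h.y1x1, mul_zero, add_zero, zero_add]

theorem orth (a b : ℕ) (r : A) :
    f .y0 * (f .y1 ^ a * (f .x1 ^ b * (f .x0 * r))) = if a = b then r else 0 := by
  induction a generalizing b with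
  | zero =>
    cases b with
    | zero => simp [h.y0x0']
    | succ b => simp [pow_succ', mul_assoc, h.y0x1']
  | succ a ih =>
    cases b with
    | zero => simp [pow_succ, mul_assoc, h.y1x0']
    | succ b =>
      rw [pow_succ, pow_succ', mul_assoc, mul_assoc, h.y1x1', ih]
      simp

theorem polyW_sel (z : Z D n) :
    f .y0 * (f .y1 ^ idx z * (evP f polyW * (f .x1 ^ idx z * f .x0))) = f z := by
  classical
  have key : ∀ l : List (Z D n), l.Nodup →
      f .y0 * (f .y1 ^ idx z * (evP f (l.map fun z => List.replicate (idx z) Z.x1 ++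
        [Z.x0, z, Z.y0] ++ List.replicate (idx z) Z.y1) * (f .x1 ^ idx z * f .x0)))
        = if z ∈ l then f z else 0 := by
    intro l hl
    induction l with
    | nil => simp
    | cons z' l ih =>
      rw [List.nodup_cons] at hl
      simp only [List.map_cons, evP_cons, add_mul, mul_add, ih hl.2, wd_append, wd_replicate,
        wd_cons, wd_nil, mul_one, mul_assoc, h.orth]
      have h2 := h.orth (idx z') (idx z) 1
      rw [mul_one] at h2
      rw [h2]
      by_cases hz : z = z'
      · subst hz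
        simp [hl.1]
      · have : idx z ≠ idx z' := fun hh => hz ((Finite.equivFin _).injective (Fin.ext hh))
        simp [this, hz]
  have h1 : (allZ : List (Z D n)).Nodup :=
    (List.nodup_finRange _).map (Finite.equivFin (Z D n)).symm.injective
  have h2 : z ∈ (allZ : List (Z D n)) :=
    List.mem_map.2 ⟨Finite.equivFin _ z, List.mem_finRange _, by simp⟩
  rw [polyW, key _ h1, if_pos h2]

omit h in
/-- values of the input letters -/
noncomputable def mv (f : Z D n → A) (i : Fin 8) : A := evP f (mI i)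

theorem pow_vec (z : Z D n) (m : ℕ) (a c : A) :
    evP f (mD [[z]]) ^ m * vec f a c = vec f a (f z ^ m * c) := by
  induction m with
  | zero => simp
  | succ m ih => rw [pow_succ', mul_assoc, ih, h.mD_vec]; simp [pow_succ', mul_assoc]

theorem cz_vec (z : Z D n) (a c : A) : wd (mv f) (cz z) * vec f a c = vec f a (f z * c) := by
  have e0 : mv f 0 = evP f (mD [[Z.x0]]) := rfl
  have e1 : mv f 1 = evP f (mD [[Z.x1]]) := rfl
  have e2 : mv f 2 = evP f (mD [[Z.y0]]) := rfl
  have e3 : mv f 3 = evP f (mD [[Z.y1]]) := rfl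
  have e4 : mv f 4 = evP f (mD polyW) := rfl
  simp only [cz, wd_cons, wd_append, wd_replicate, wd_nil, mul_one, mul_assoc, e0, e1, e2, e3, e4,
    h.mD_vec, h.pow_vec, evP_cons, evP_nil, add_zero]
  rw [← h.polyW_sel z]
  simp only [mul_assoc]

theorem word_vec (μ : List (Z D n)) (a c : A) :
    wd (mv f) (μ.flatMap cz) * vec f a c = vec f a (wd f μ * c) := by
  induction μ with
  | nil => simp
  | cons z μ ih => simp [mul_assoc, ih, h.cz_vec]

theorem plus_vec (a c : A) : mv f 5 * vec f a c = vec f (a + c) 1 := by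
  have e5 : mv f 5 = evP f [[Z.x0, Z.y0], [Z.x0, Z.y0, Z.y1], [Z.x1, Z.x0, Z.y1, Z.y1],
    [Z.x1, Z.x1, Z.y1, Z.y1]] := rfl
  simp only [e5, evP_cons, evP_nil, vec, wd_cons, wd_nil, mul_one, add_mul, mul_add, mul_assoc,
    h.y0x0', h.y0x1', h.y1x0', h.y1x1', h.y0x1, h.y1x1, mul_zero, add_zero, zero_add]
  abel

theorem code_val (P : Poly (Z D n)) : wd (mv f) (code P) = evP f P := by
  have e6 : mv f 6 = vec f 0 1 := by
    show evP f [[Z.x1, Z.x0], [Z.x1, Z.x1]] = _
    simp [vec]
  have e7 : mv f 7 = f .y0 := by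
    show evP f [[Z.y0]] = _
    simp
  have key : wd (mv f) (P.flatMap fun μ => 5 :: μ.flatMap cz) * vec f 0 1 = vec f (evP f P) 1 := by
    induction P with
    | nil => simp
    | cons μ P ih =>
      simp only [List.flatMap_cons, wd_append, wd_cons, mul_assoc, ih, h.word_vec, h.plus_vec,
        evP_cons, mul_one]
      rw [add_comm]
  simp only [code, wd_cons, wd_append, wd_nil, mul_one, e6, e7, mul_assoc, key]
  simp [vec, mul_add, h.y0x0', h.y0x1']

end Lv

end Vale.Agent.P193
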