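import Vale.Agent.P193.CompB

/-! The language of basic relations is uniformly enumerable; the recursion theorem applies. -/

namespace Vale.Agent.P193

open Sgn

theorem enc_injective : Function.Injective enc := enc_injective'

section

variable {D : Sgn} {n : ℕ}

theorem p_rhs (hr : ∀ ρ i, Primrec fun e => D.rhs e ρ i) {α : Type} [Primcodable α] {e : α → ℕ}
    {ρ : α → D.Rl} (he : Primrec e) (hρ : Primrec ρ) : Primrec fun a => D.rhs (e a) (ρ a) :=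
  (p_finite (f := fun e ρ => D.rhs e ρ) fun ρ => p_fin (hr ρ)).comp (he.pair hρ)

theorem p_run (hr : ∀ ρ i, Primrec fun e => D.rhs e ρ i) :
    Primrec fun x : (ℕ × D.Cfg) × List D.Rl => x.2.foldl (nxt x.1.1) x.1.2 := by
  refine p_foldl (h := fun x : (ℕ × D.Cfg) × List D.Rl => nxt x.1.1) (by fun_prop) (by fun_prop) ?_
  have h1 : Primrec fun p : ((ℕ × D.Cfg) × List D.Rl) × D.Cfg × D.Rl => D.src p.2.2 :=
    p_dom _ (by fun_prop)
  have h2 : Primrec fun p : ((ℕ × D.Cfg) × List D.Rl) × D.Cfg × D.Rl => D.dst p.2.2 :=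
    p_dom _ (by fun_prop)
  have h3 : Primrec fun p : ((ℕ × D.Cfg) × List D.Rl) × D.Cfg × D.Rl => D.lhs p.2.2 :=
    p_dom _ (by fun_prop)
  have h4 : Primrec fun p : ((ℕ × D.Cfg) × List D.Rl) × D.Cfg × D.Rl => D.rhs p.1.1.1 p.2.2 :=
    p_rhs hr (by fun_prop) (by fun_prop)
  have h5 : Primrec fun p : ((ℕ × D.Cfg) × List D.Rl) × D.Cfg × D.Rl => p.2.1.2 := by fun_prop
  unfold nxt
  classical
  exact p_ite (by fun_prop) (p_pair h1 (p_appSt h3 (p_drp h3 h5)))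
    (p_pair h2 (p_appSt h4 (p_drp h3 h5))) (by fun_prop)

theorem sig_gen (hD : D.Good) (hr : ∀ ρ i, Primrec fun e => D.rhs e ρ i) :
    Sig fun x : ℕ × D.Cfg => D.Gen x.1 x.2 := by
  have h1 : PrimrecPred fun x : ℕ × D.Cfg => D.IsOrig x.1 x.2 := by
    refine (p_forall (p := fun (x : ℕ × D.Cfg) ρ =>
      ¬ x.2 = (D.dst ρ, app (D.rhs x.1 ρ) (drp (D.rhs x.1 ρ) x.2.2))) fun ρ => ?_).of_eq
      fun x => orig_iff.symm
    have h4 : Primrec fun x : ℕ × D.Cfg => D.rhs x.1 ρ := p_rhs hr Primrec.fst (Primrec.const ρ)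
    exact (p_eq Primrec.snd (p_pair (Primrec.const _) (p_appSt h4 (p_drp h4 (by fun_prop))))).not
  have h2 : PrimrecPred fun x : ℕ × D.Cfg => ¬ x.2.1 = D.q0 :=
    (p_eq (by fun_prop) (Primrec.const _)).not
  have h3 : PrimrecPred fun c : D.Cfg => Term c :=
    p_forall (p := fun (c : D.Cfg) ρ => ¬ c = (D.src ρ, app (D.lhs ρ) (drp (D.lhs ρ) c.2)))
      fun ρ => (p_eq Primrec.id (by fun_prop)).not
  have h4 : PrimrecPred fun c : D.Cfg => ¬ c.1 = D.acc :=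
    (p_eq Primrec.fst (Primrec.const _)).not
  have h5 : Sig fun x : ℕ × D.Cfg => ¬ D.Reach x.1 x.2 :=
    (Sig.ex (p := fun (x : ℕ × D.Cfg) (R : List D.Rl) => Term (R.foldl (nxt x.1) x.2) ∧
      ¬ (R.foldl (nxt x.1) x.2).1 = D.acc)
      ((Sig.of_pp (h3.and h4)).comp (p_run hr))).of_eq fun x => (not_reach_iff hD).symm
  exact (Sig.of_pp h1).and ((Sig.of_pp h2).and h5)

theorem base_iff (Sm : Set (Poly (L D n))) (triv : List (Fin n × Bool) → Prop) (e : ℕ)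
    (P : Poly (L D n)) : Base Sm triv e P ↔ P ∈ Sm ∨
    (∃ ρ : D.Rl, P =
      [l0 (Z.T (D.src ρ) :: pushW (D.lhs ρ)), l0 (Z.T (D.dst ρ) :: pushW (D.rhs e ρ))]) ∨
    (∃ w : ℕ × Fin 8, P = ((tj w.1 ++ [(0, Z.push D.inp (D.inI w.2))]) ::
      (shP w.1 ((mI w.2).map l0)).map fun μ => μ ++ tj w.1)) ∨
    (∃ w : ℕ × D.Sg, (w.2 ≠ D.th ∧ ∀ i, w.2 ≠ D.inI i) ∧ P =
      [tj w.1 ++ [(0, Z.push D.inp w.2)], (w.1, Z.one) :: l0 [Z.T D.q0, Z.push D.inp D.hash]]) ∨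
    (∃ j : ℕ, P = [tj j, (j, Z.one) :: tj j]) ∨
    (∃ j : ℕ, P = [tj j ++ [(0, Z.vC)], [(j, Z.one)]]) ∨
    (∃ ζ : L D n, P =
      [[(ζ.1 + 1, ζ.2)], [(0, Z.x0), ζ, (0, Z.y0)], [(0, Z.x1), (ζ.1 + 1, ζ.2), (0, Z.y1)]]) ∨
    (∃ ζ : L D n, P = [[(ζ.1 + 1, ζ.2), (1, Z.one)], [(ζ.1 + 1, ζ.2)]]) ∨
    (∃ ζ : L D n, P = [[(1, Z.one), (ζ.1 + 1, ζ.2)], [(ζ.1 + 1, ζ.2)]]) ∨
    (∃ w, triv w ∧ P = [l0 (lamW w ++ [Z.pD]), l0 [Z.pD]]) ∨
    (∃ w : List (Fin n × Bool) × D.St, ¬ triv w.1 ∧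
      P = [l0 (Z.aD :: lamW w.1 ++ popW w.2 ++ [Z.dl])]) ∨
    (∃ w : D.St × Fin D.k × D.Sg, w.1 w.2.1 = [] ∧
      P = [l0 (Z.aD :: popW w.1 ++ [Z.dl, Z.push w.2.1 w.2.2])]) ∨
    (∃ w : D.St × Fin D.k × D.Sg, w.1 w.2.1 = [] ∧
      P = [l0 (Z.pop w.2.1 w.2.2 :: Z.dl :: pushW w.1 ++ [Z.vC])]) ∨
    (∃ w : D.Cfg, D.Gen e w ∧
      P = [l0 (Z.T w.1 :: pushW w.2 ++ [Z.vC]), l0 (Z.aD :: popW (encO w.1 w.2))]) := by
  constructor
  · intro h
    cases h with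
    | small P h => exact .inl h
    | rule ρ => exact .inr (.inl ⟨ρ, rfl⟩)
    | e1 j i => exact .inr (.inr (.inl ⟨(j, i), rfl⟩))
    | e2 j o h1 h2 => exact .inr (.inr (.inr (.inl ⟨(j, o), ⟨h1, h2⟩, rfl⟩)))
    | e3 j => exact .inr (.inr (.inr (.inr (.inl ⟨j, rfl⟩))))
    | e4 j => exact .inr (.inr (.inr (.inr (.inr (.inl ⟨j, rfl⟩)))))
    | h0 ζ => exact .inr (.inr (.inr (.inr (.inr (.inr (.inl ⟨ζ, rfl⟩))))))
    | h5 ζ => exact .inr (.inr (.inr (.inr (.inr (.inr (.inr (.inl ⟨ζ, rfl⟩)))))))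
    | h6 ζ => exact .inr (.inr (.inr (.inr (.inr (.inr (.inr (.inr (.inl ⟨ζ, rfl⟩))))))))
    | d1 w h =>
      exact .inr (.inr (.inr (.inr (.inr (.inr (.inr (.inr (.inr (.inl ⟨w, h, rfl⟩)))))))))
    | d2 w t h =>
      exact .inr (.inr (.inr (.inr (.inr (.inr (.inr (.inr (.inr (.inr (.inl
        ⟨(w, t), h, rfl⟩))))))))))
    | d3 t i a h =>
      exact .inr (.inr (.inr (.inr (.inr (.inr (.inr (.inr (.inr (.inr (.inr (.inl
        ⟨(t, i, a), h, rfl⟩)))))))))))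
    | d4 t i a h =>
      exact .inr (.inr (.inr (.inr (.inr (.inr (.inr (.inr (.inr (.inr (.inr (.inr (.inl
        ⟨(t, i, a), h, rfl⟩))))))))))))
    | b4 q u h =>
      exact .inr (.inr (.inr (.inr (.inr (.inr (.inr (.inr (.inr (.inr (.inr (.inr (.inr
        ⟨(q, u), h, rfl⟩))))))))))))
  · rintro (h | ⟨ρ, rfl⟩ | ⟨w, rfl⟩ | ⟨w, ⟨h1, h2⟩, rfl⟩ | ⟨j, rfl⟩ | ⟨j, rfl⟩ | ⟨ζ, rfl⟩ |
      ⟨ζ, rfl⟩ | ⟨ζ, rfl⟩ | ⟨w, h, rfl⟩ | ⟨w, h, rfl⟩ | ⟨w, h, rfl⟩ | ⟨w, h, rfl⟩ | ⟨w, h, rfl⟩)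
    exacts [.small _ h, .rule ρ, .e1 _ _, .e2 _ _ h1 h2, .e3 j, .e4 j, .h0 ζ, .h5 ζ, .h6 ζ,
      .d1 w h, .d2 _ _ h, .d3 _ _ _ h, .d4 _ _ _ h, .b4 _ _ h]

theorem p_push {α : Type} [Primcodable α] {i : α → Fin D.k} {a : α → D.Sg} (hi : Primrec i)
    (ha : Primrec a) : Primrec fun x => (Z.push (i x) (a x) : Z D n) :=
  p_dom (fun y : Fin D.k × D.Sg => (Z.push y.1 y.2 : Z D n)) (hi.pair ha)

theorem p_pop {α : Type} [Primcodable α] {i : α → Fin D.k} {a : α → D.Sg} (hi : Primrec i)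
    (ha : Primrec a) : Primrec fun x => (Z.pop (i x) (a x) : Z D n) :=
  p_dom (fun y : Fin D.k × D.Sg => (Z.pop y.1 y.2 : Z D n)) (hi.pair ha)

theorem sig_base (hD : D.Good) (hr : ∀ ρ i, Primrec fun e => D.rhs e ρ i)
    (Sm : Set (Poly (L D n))) (hSm : Sm.Finite) (triv : List (Fin n × Bool) → Prop)
    (ht : ComputablePred triv) : Sig fun x : ℕ × Poly (L D n) => Base Sm triv x.1 x.2 := by
  refine Sig.of_eq ?_ fun x => (base_iff Sm triv x.1 x.2).symm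
  have hs : Primrec fun x : ℕ × Poly (L D n) => x.2 := Primrec.snd
  refine .or ((Sig.of_pp (p_mem hSm)).comp hs) <| .or (Sig.range' hs ?_) <|
    .or (Sig.range' hs ?_) <| .or (Sig.range ?_ hs ?_) <| .or (Sig.range' hs ?_) <|
    .or (Sig.range' hs ?_) <| .or (Sig.range' hs ?_) <| .or (Sig.range' hs ?_) <|
    .or (Sig.range' hs ?_) <| .or (Sig.range ?_ hs ?_) <| .or (Sig.range ?_ hs ?_) <|
    .or (Sig.range ?_ hs ?_) <| .or (Sig.range ?_ hs ?_) (Sig.range ?_ hs ?_)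
  · have h1 : Primrec fun x : (ℕ × Poly (L D n)) × D.Rl =>
        (l0 (Z.T (D.src x.2) :: pushW (D.lhs x.2)) : List (L D n)) :=
      p_dom (fun ρ => l0 (Z.T (D.src ρ) :: pushW (D.lhs ρ))) Primrec.snd
    have h2 : Primrec fun x : (ℕ × Poly (L D n)) × D.Rl => (Z.T (D.dst x.2) : Z D n) :=
      p_dom (fun ρ => Z.T (D.dst ρ)) Primrec.snd
    exact p_cons h1 (p_cons (p_l0 (p_cons h2 (p_pushW (p_rhs hr (p_fst Primrec.fst)
      Primrec.snd)))) (Primrec.const _))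
  · have h1 : Primrec fun x : (ℕ × Poly (L D n)) × ℕ × Fin 8 =>
        ([(0, Z.push D.inp (D.inI x.2.2))] : List (L D n)) :=
      p_dom (fun i => [(0, Z.push D.inp (D.inI i))]) (p_snd Primrec.snd)
    have h2 : Primrec fun x : (ℕ × Poly (L D n)) × ℕ × Fin 8 =>
        ((mI x.2.2).map l0 : Poly (L D n)) := p_dom (fun i => (mI i).map l0) (p_snd Primrec.snd)
    exact p_cons (p_append (p_tj (p_fst Primrec.snd)) h1)
      (p_map (g := fun (x : (ℕ × Poly (L D n)) × ℕ × Fin 8) μ =>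
      μ ++ tj x.2.1) (p_shP (p_fst Primrec.snd) h2) (by fun_prop))
  · exact (Sig.of_pp (p_mem (Set.toFinite {o | o ≠ D.th ∧ ∀ i, o ≠ D.inI i}))).comp
      (p_snd Primrec.snd)
  · have h1 : Primrec fun x : (ℕ × Poly (L D n)) × ℕ × D.Sg => (Z.push D.inp x.2.2 : Z D n) :=
      p_push (Primrec.const _) (p_snd Primrec.snd)
    exact p_cons (p_append (by fun_prop) (p_cons (p_pair (Primrec.const _) h1) (Primrec.const _)))
      (by fun_prop)
  · fun_prop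
  · fun_prop
  · fun_prop
  · fun_prop
  · fun_prop
  · exact (Sig.of_cp ht).comp Primrec.snd
  · fun_prop
  · exact (Sig.of_cp ht.not).comp (p_fst Primrec.snd)
  · fun_prop
  · exact Sig.of_pp (p_eq (p_app (p_fst Primrec.snd) (p_fst (p_snd Primrec.snd)))
      (Primrec.const _))
  · exact p_cons (p_l0 (p_append (by fun_prop) (p_cons (Primrec.const _)
      (p_cons (p_push (by fun_prop) (by fun_prop)) (Primrec.const _))))) (Primrec.const _)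
  · exact Sig.of_pp (p_eq (p_app (p_fst Primrec.snd) (p_fst (p_snd Primrec.snd)))
      (Primrec.const _))
  · exact p_cons (p_l0 (p_append (p_cons (p_pop (by fun_prop) (by fun_prop)) (by fun_prop))
      (Primrec.const _))) (Primrec.const _)
  · exact (sig_gen hD hr).comp (p_pair (p_fst Primrec.fst) Primrec.snd)
  · exact p_cons (p_l0 (p_append (p_cons (p_dom Z.T (by fun_prop)) (by fun_prop))
      (Primrec.const _))) (by fun_prop)

end

/-- the recursion theorem gives a program accepting exactly its own language -/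
theorem exists_fixed (D : Sgn) (hD : D.Good) (hr : ∀ ρ i, Primrec fun e => D.rhs e ρ i) {n : ℕ}
    (Sm : Set (Poly (L D n))) (hSm : Sm.Finite) (triv : List (Fin n × Bool) → Prop)
    (ht : ComputablePred triv) :
    ∃ e, ∀ N, ((Denumerable.ofNat Nat.Partrec.Code e).eval N).Dom ↔ Lang Sm triv e N := by
  refine Sig.fixed (Sig.of_eq (Sig.range
    (s := fun (x : ℕ × ℕ) (w : ℕ × Poly (L D n)) => Base Sm triv x.1 w.2)
    (F := fun _ w => enc (code (phiP (shP w.1 w.2))))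
    ((sig_base hD hr Sm hSm triv ht).comp (p_pair (p_fst Primrec.fst) (p_snd Primrec.snd)))
    Primrec.snd (by fun_prop)) fun x => ?_)
  exact ⟨fun ⟨w, h⟩ => ⟨w.1, w.2, h⟩, fun ⟨j, P, h⟩ => ⟨(j, P), h⟩⟩

end Vale.Agent.P193
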