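import Vale.Agent.P193.Defs

/-! Automation for primitive recursive functions and enumerable predicates. -/

namespace Vale.Agent.P193

attribute [fun_prop] Primrec

section
variable {α β γ : Type} [Primcodable α] [Primcodable β] [Primcodable γ]

@[fun_prop] theorem p_id : Primrec fun x : α => x := Primrec.id
@[fun_prop] theorem p_const (b : β) : Primrec fun _ : α => b := Primrec.const b
@[fun_prop] theorem p_comp {f : β → γ} {g : α → β} (hf : Primrec f) (hg : Primrec g) :
    Primrec fun x => f (g x) := hf.comp hg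
@[fun_prop] theorem p_pair {f : α → β} {g : α → γ} (hf : Primrec f) (hg : Primrec g) :
    Primrec fun x => (f x, g x) := hf.pair hg
@[fun_prop] theorem p_fst {f : α → β × γ} (hf : Primrec f) : Primrec fun x => (f x).1 :=
  Primrec.fst.comp hf
@[fun_prop] theorem p_snd {f : α → β × γ} (hf : Primrec f) : Primrec fun x => (f x).2 :=
  Primrec.snd.comp hf
@[fun_prop] theorem p_add {f g : α → ℕ} (hf : Primrec f) (hg : Primrec g) :
    Primrec fun x => f x + g x := Primrec.nat_add.comp hf hg
@[fun_prop] theorem p_mul {f g : α → ℕ} (hf : Primrec f) (hg : Primrec g) :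
    Primrec fun x => f x * g x := Primrec.nat_mul.comp hf hg
@[fun_prop] theorem p_cons {f : α → β} {g : α → List β} (hf : Primrec f) (hg : Primrec g) :
    Primrec fun x => f x :: g x := Primrec.list_cons.comp hf hg
@[fun_prop] theorem p_append {f g : α → List β} (hf : Primrec f) (hg : Primrec g) :
    Primrec fun x => f x ++ g x := Primrec.list_append.comp hf hg
@[fun_prop] theorem p_length {f : α → List β} (hf : Primrec f) :
    Primrec fun x => (f x).length := Primrec.list_length.comp hf
@[fun_prop] theorem p_reverse {f : α → List β} (hf : Primrec f) :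
    Primrec fun x => (f x).reverse := Primrec.list_reverse.comp hf
@[fun_prop] theorem p_drop {n : α → ℕ} {f : α → List β} (hn : Primrec n) (hf : Primrec f) :
    Primrec fun x => (f x).drop (n x) := Primrec.list_drop.comp hn hf
@[fun_prop] theorem p_map {f : α → List β} {g : α → β → γ} (hf : Primrec f)
    (hg : Primrec fun p : α × β => g p.1 p.2) : Primrec fun x => (f x).map (g x) :=
  Primrec.list_map hf hg
@[fun_prop] theorem p_flatMap {f : α → List β} {g : α → β → List γ} (hf : Primrec f)
    (hg : Primrec fun p : α × β => g p.1 p.2) : Primrec fun x => (f x).flatMap (g x) :=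
  Primrec.list_flatMap hf hg
@[fun_prop] theorem p_replicate {n : α → ℕ} {f : α → β} (hn : Primrec n) (hf : Primrec f) :
    Primrec fun x => List.replicate (n x) (f x) :=
  (Primrec.list_map (g := fun x _ => f x) (Primrec.list_range.comp hn)
    (hf.comp Primrec.fst)).of_eq fun x => by simp
theorem p_foldl {f : α → List β} {g : α → γ} {h : α → γ → β → γ} (hf : Primrec f)
    (hg : Primrec g) (hh : Primrec fun p : α × γ × β => h p.1 p.2.1 p.2.2) :
    Primrec fun x => (f x).foldl (h x) (g x) :=
  Primrec.list_foldl (h := fun a p => h a p.1 p.2) hf hg hh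

theorem p_fin {n : ℕ} {f : α → Fin n → β} (h : ∀ i, Primrec fun a => f a i) : Primrec f :=
  Primrec.fin_curry.2 (Primrec.fin_curry₁.2 h).swap

theorem p_app {n : ℕ} {f : α → Fin n → β} {g : α → Fin n} (hf : Primrec f) (hg : Primrec g) :
    Primrec fun a => f a (g a) := Primrec.fin_app.comp hf hg

theorem p_finite [Finite β] {f : α → β → γ} (h : ∀ b, Primrec fun a => f a b) :
    Primrec fun p : α × β => f p.1 p.2 :=
  (p_app (f := fun (p : α × β) i => f p.1 ((Finite.equivFin β).symm i))
    (g := fun p => Finite.equivFin β p.2) (p_fin fun _ => (h _).comp Primrec.fst)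
    ((Primrec.dom_finite _).comp Primrec.snd)).of_eq fun p => by simp

theorem p_eq {f g : α → β} (hf : Primrec f) (hg : Primrec g) : PrimrecPred fun a => f a = g a := by
  classical
  exact Primrec.eq.comp hf hg

theorem p_ite {f g : α → β} {u v : α → γ} [∀ a, Decidable (f a = g a)] (hf : Primrec f)
    (hg : Primrec g) (hu : Primrec u) (hv : Primrec v) :
    Primrec fun a => if f a = g a then u a else v a :=
  Primrec.ite (p_eq hf hg) hu hv

theorem p_forall {ι : Type} [Finite ι] {p : α → ι → Prop} (h : ∀ i, PrimrecPred fun a => p a i) :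
    PrimrecPred fun a => ∀ i, p a i := by
  classical
  have := Fintype.ofFinite ι
  have key : ∀ s : Finset ι, PrimrecPred fun a => ∀ i ∈ s, p a i := by
    intro s
    induction s using Finset.induction_on with
    | empty => exact (p_eq (Primrec.const ()) (Primrec.const ())).of_eq (by simp)
    | insert j s _ ih => exact ((h j).and ih).of_eq (by simp)
  exact (key Finset.univ).of_eq (by simp)

theorem p_mem {S : Set α} (hS : S.Finite) : PrimrecPred fun a => a ∈ S := by
  induction S, hS using Set.Finite.induction_on with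
  | empty => exact (p_eq (Primrec.const true) (Primrec.const false)).of_eq (by simp)
  | @insert j s _ _ ih => exact ((p_eq Primrec.id (Primrec.const j)).or ih).of_eq (by simp)

/-- projections of computable predicates -/
def Sig (p : α → Prop) : Prop := ∃ c : α × ℕ → Bool, Computable c ∧ ∀ a, p a ↔ ∃ k, c (a, k) = true

theorem Sig.of_eq {p q : α → Prop} (hp : Sig p) (h : ∀ a, p a ↔ q a) : Sig q :=
  (funext fun a => propext (h a) : p = q) ▸ hp

theorem Sig.of_cp {p : α → Prop} (hp : ComputablePred p) : Sig p := by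
  obtain ⟨f, hf, rfl⟩ := ComputablePred.computable_iff.1 hp
  exact ⟨fun x => f x.1, hf.comp Computable.fst, fun a => by simp⟩

theorem Sig.of_pp {p : α → Prop} (hp : PrimrecPred p) : Sig p := Sig.of_cp hp.computablePred

theorem Sig.comp {p : β → Prop} (hp : Sig p) {f : α → β} (hf : Primrec f) :
    Sig fun a => p (f a) := by
  obtain ⟨c, hc, h⟩ := hp
  exact ⟨fun x => c (f x.1, x.2), hc.comp (Primrec.to_comp (by fun_prop)), fun a => h _⟩

theorem Sig.or {p q : α → Prop} (hp : Sig p) (hq : Sig q) : Sig fun a => p a ∨ q a := by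
  obtain ⟨c, hc, h⟩ := hp
  obtain ⟨d, hd, h'⟩ := hq
  refine ⟨fun x => c x || d x, Primrec.or.to_comp.comp hc hd, fun a => ?_⟩
  simp only [h, h', Bool.or_eq_true, exists_or]

theorem Sig.and {p q : α → Prop} (hp : Sig p) (hq : Sig q) : Sig fun a => p a ∧ q a := by
  obtain ⟨c, hc, h⟩ := hp
  obtain ⟨d, hd, h'⟩ := hq
  refine ⟨fun x => c (x.1, x.2.unpair.1) && d (x.1, x.2.unpair.2), Primrec.and.to_comp.comp
    (hc.comp (Computable.fst.pair (Computable.fst.comp (Computable.unpair.comp Computable.snd))))
    (hd.comp (Computable.fst.pair (Computable.snd.comp (Computable.unpair.comp Computable.snd)))),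
    fun a => ?_⟩
  simp only [h, h', Bool.and_eq_true]
  constructor
  · rintro ⟨⟨k, hk⟩, l, hl⟩
    exact ⟨Nat.pair k l, by simpa using hk, by simpa using hl⟩
  · rintro ⟨k, h1, h2⟩
    exact ⟨⟨_, h1⟩, _, h2⟩

theorem ex_surj (δ : Type) [Primcodable δ] (d : δ) :
    ∃ g : ℕ → δ, Primrec g ∧ Function.Surjective g :=
  ⟨fun k => (Encodable.decode k).getD d, Primrec.option_getD.comp Primrec.decode (Primrec.const d),
    fun y => ⟨Encodable.encode y, by simp⟩⟩

theorem Sig.ex {p : α → β → Prop} (hp : Sig fun x : α × β => p x.1 x.2) :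
    Sig fun a => ∃ b, p a b := by
  obtain ⟨c, hc, h⟩ := hp
  rcases isEmpty_or_nonempty β with hb | ⟨⟨b0⟩⟩
  · exact ⟨fun _ => false, Computable.const _, fun a => by simp⟩
  obtain ⟨g, hg, hs⟩ := ex_surj (β × ℕ) (b0, 0)
  refine ⟨fun x => c ((x.1, (g x.2).1), (g x.2).2),
    hc.comp (g := fun x : α × ℕ => ((x.1, (g x.2).1), (g x.2).2)) (Primrec.to_comp (by fun_prop)),
    fun a => ⟨?_, ?_⟩⟩
  · rintro ⟨b, hb⟩
    obtain ⟨k, hk⟩ := (h (a, b)).1 hb
    obtain ⟨m, hm⟩ := hs (b, k)
    exact ⟨m, by simp only [hm]; exact hk⟩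
  · rintro ⟨k, hk⟩
    exact ⟨_, (h (a, _)).2 ⟨_, hk⟩⟩

theorem Sig.range {s : α → γ → Prop} {u : α → β} {F : α → γ → β}
    (hs : Sig fun x : α × γ => s x.1 x.2) (hu : Primrec u)
    (hF : Primrec fun x : α × γ => F x.1 x.2) : Sig fun a => ∃ w, s a w ∧ u a = F a w :=
  Sig.ex (p := fun a w => s a w ∧ u a = F a w)
    (hs.and (Sig.of_pp (p_eq (hu.comp Primrec.fst) hF)))

theorem Sig.range' {u : α → β} {F : α → γ → β} (hu : Primrec u)
    (hF : Primrec fun x : α × γ => F x.1 x.2) : Sig fun a => ∃ w, u a = F a w :=
  Sig.ex (p := fun a w => u a = F a w) (Sig.of_pp (p_eq (hu.comp Primrec.fst) hF))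

end

theorem Sig.fixed {p : ℕ → ℕ → Prop} (hp : Sig fun x : ℕ × ℕ => p x.1 x.2) :
    ∃ e, ∀ N, ((Denumerable.ofNat Nat.Partrec.Code e).eval N).Dom ↔ p e N := by
  obtain ⟨c, hc, h⟩ := hp
  have hf : Partrec₂ fun (d : Nat.Partrec.Code) (N : ℕ) =>
      Nat.rfind fun k => (Part.some (c ((Encodable.encode d, N), k)) : Part Bool) :=
    Partrec.rfind (p := fun (x : Nat.Partrec.Code × ℕ) k =>
      (Part.some (c ((Encodable.encode x.1, x.2), k)) : Part Bool))
      (hc.comp (((Computable.encode.comp (Computable.fst.comp Computable.fst)).pair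
        (Computable.snd.comp Computable.fst)).pair Computable.snd)).partrec.to₂
  obtain ⟨d, hd⟩ := Nat.Partrec.Code.fixed_point₂ hf
  refine ⟨Encodable.encode d, fun N => ?_⟩
  rw [Denumerable.ofNat_encode, hd]
  refine Nat.rfind_dom.trans (Iff.trans ?_ (h (Encodable.encode d, N)).symm)
  exact exists_congr fun k => ⟨fun H => (Part.mem_some_iff.1 H.1).symm,
    fun H => ⟨Part.mem_some_iff.2 H.symm, fun _ => trivial⟩⟩

theorem enc_injective' : Function.Injective enc := by
  have h1 : ∀ (l : List (Fin 8)) (i : Fin 8), enc (l ++ [i]) = 8 * enc l + i.val := by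
    intro l i; simp [enc]
  have h2 : ∀ l : List (Fin 8), 1 ≤ enc l := by
    intro l
    induction l using List.reverseRecOn with
    | nil => simp [enc]
    | append_singleton l i ih => rw [h1]; omega
  intro l
  induction l using List.reverseRecOn with
  | nil =>
    intro l' h
    induction l' using List.reverseRecOn with
    | nil => rfl
    | append_singleton l' i _ =>
      have := h2 l'
      rw [h1] at h
      simp only [enc, List.foldl_nil] at h this
      omega
  | append_singleton l i ih =>
    intro l' h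
    induction l' using List.reverseRecOn with
    | nil =>
      have := h2 l
      rw [h1] at h
      simp only [enc, List.foldl_nil] at h this
      omega
    | append_singleton l' j _ =>
      rw [h1, h1] at h
      have := i.isLt
      have := j.isLt
      rw [ih (show enc l = enc l' by omega), Fin.ext (show i.val = j.val by omega)]

end Vale.Agent.P193
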