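import Vale.Agent.P193.CompA

/-! Primitive recursiveness of the word constructions. -/

namespace Vale.Agent.P193

open Sgn

variable {D : Sgn} {n : ℕ} {α : Type} [Primcodable α]

theorem p_dom {β γ : Type} [Primcodable β] [Primcodable γ] [Finite β] (F : β → γ) {f : α → β}
    (hf : Primrec f) : Primrec fun a => F (f a) := (Primrec.dom_finite F).comp hf

theorem p_st {s : α → D.St} (hs : Primrec s) (i : Fin D.k) : Primrec fun a => s a i :=
  p_app hs (Primrec.const i)

@[fun_prop] theorem p_appSt {s t : α → D.St} (hs : Primrec s) (ht : Primrec t) :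
    Primrec fun a => app (s a) (t a) :=
  p_fin fun i => p_append (p_st hs i) (p_st ht i)

/-- remove a stackwise prefix -/
def drp (l u : D.St) : D.St := fun i => (u i).drop (l i).length

@[fun_prop] theorem p_drp {s t : α → D.St} (hs : Primrec s) (ht : Primrec t) :
    Primrec fun a => drp (s a) (t a) :=
  p_fin fun i => p_drop (p_length (p_st hs i)) (p_st ht i)

theorem drp_app (l s : D.St) : drp l (app l s) = s := by
  funext i; simp [drp, app]

theorem flatMap_prim {ι β : Type} [Primcodable β] (l : List ι) {F : α → ι → List β}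
    (h : ∀ i, Primrec fun a => F a i) : Primrec fun a => l.flatMap (F a) := by
  induction l with
  | nil => exact Primrec.const []
  | cons i l ih => exact (p_append (h i) ih).of_eq fun a => by simp

@[fun_prop] theorem p_pushW {s : α → D.St} (hs : Primrec s) :
    Primrec fun a => (pushW (s a) : List (Z D n)) :=
  flatMap_prim _ fun i => p_map (g := fun _ => Z.push i) (p_st hs i) (p_dom _ Primrec.snd)

@[fun_prop] theorem p_popW {s : α → D.St} (hs : Primrec s) :
    Primrec fun a => (popW (s a) : List (Z D n)) :=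
  flatMap_prim _ fun i => p_map (g := fun _ => Z.pop i) (p_reverse (p_st hs i))
    (p_dom _ Primrec.snd)

@[fun_prop] theorem p_lamW {w : α → List (Fin n × Bool)} (hw : Primrec w) :
    Primrec fun a => (lamW (w a) : List (Z D n)) :=
  p_map (g := fun _ => Z.lam) hw (p_dom _ Primrec.snd)

@[fun_prop] theorem p_inW {w : α → List D.Sg} (hw : Primrec w) :
    Primrec fun a => (inW (w a) : List (Z D n)) :=
  p_map (g := fun _ => Z.push D.inp) hw (p_dom _ Primrec.snd)

@[fun_prop] theorem p_l0 {w : α → List (Z D n)} (hw : Primrec w) :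
    Primrec fun a => l0 (w a) :=
  p_map (g := fun _ z => ((0 : ℕ), z)) hw (by fun_prop)

@[fun_prop] theorem p_sh {j : α → ℕ} {w : α → List (L D n)} (hj : Primrec j) (hw : Primrec w) :
    Primrec fun a => sh (j a) (w a) :=
  p_map (g := fun a (ζ : L D n) => (ζ.1 + j a, ζ.2)) hw (by fun_prop)

@[fun_prop] theorem p_shP {j : α → ℕ} {P : α → Poly (L D n)} (hj : Primrec j) (hP : Primrec P) :
    Primrec fun a => shP (j a) (P a) :=
  p_map (g := fun a => sh (j a)) hP (by fun_prop)

@[fun_prop] theorem p_cz {z : α → Z D n} (hz : Primrec z) : Primrec fun a => cz (z a) :=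
  p_dom _ hz

@[fun_prop] theorem p_code {P : α → Poly (Z D n)} (hP : Primrec P) :
    Primrec fun a => code (P a) :=
  p_append (p_cons (Primrec.const _) (p_flatMap (g := fun _ μ => (5 : Fin 8) :: μ.flatMap cz) hP
    (p_cons (Primrec.const _) (p_flatMap (g := fun _ => cz) Primrec.snd (p_cz Primrec.snd)))))
    (Primrec.const _)

@[fun_prop] theorem p_phi {ζ : α → L D n} (hζ : Primrec ζ) : Primrec fun a => phi (ζ a) := by
  unfold phi
  refine p_ite (by fun_prop) (by fun_prop) (by fun_prop) ?_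
  have : Primrec fun a => (code [[(ζ a).2]]).map D.inI :=
    p_dom (fun z : Z D n => (code [[z]]).map D.inI) (by fun_prop)
  fun_prop

@[fun_prop] theorem p_phiP {P : α → Poly (L D n)} (hP : Primrec P) :
    Primrec fun a => phiP (P a) :=
  p_map (g := fun _ (μ : List (L D n)) => μ.flatMap phi) hP
    (p_flatMap (g := fun _ => phi) Primrec.snd (p_phi Primrec.snd))

@[fun_prop] theorem p_enc {l : α → List (Fin 8)} (hl : Primrec l) : Primrec fun a => enc (l a) :=
  p_foldl (h := fun _ m (i : Fin 8) => 8 * m + i.val) hl (Primrec.const 1)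
    (p_add (by fun_prop) (p_dom Fin.val (by fun_prop)))

@[fun_prop] theorem p_encO {q : α → D.Q} {u : α → D.St} (hq : Primrec q) (hu : Primrec u) :
    Primrec fun a => encO (q a) (u a) := by
  refine p_fin fun i => ?_
  by_cases h : i = D.dum
  · subst h
    exact (p_cons (p_dom D.stl hq) (p_st hu D.dum)).of_eq fun a => by simp [encO]
  · exact (p_st hu i).of_eq fun a => by simp [encO, h]

@[fun_prop] theorem p_tj {j : α → ℕ} (hj : Primrec j) :
    Primrec fun a => (tj (j a) : List (L D n)) := by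
  unfold tj
  fun_prop

/-- one deterministic step along a proposed rule -/
noncomputable def nxt (e : ℕ) (c : D.Cfg) (ρ : D.Rl) : D.Cfg := by
  classical
  exact if c = (D.src ρ, app (D.lhs ρ) (drp (D.lhs ρ) c.2)) then
    (D.dst ρ, app (D.rhs e ρ) (drp (D.lhs ρ) c.2)) else c

/-- no rule applies -/
def Term (c : D.Cfg) : Prop := ∀ ρ, ¬ c = (D.src ρ, app (D.lhs ρ) (drp (D.lhs ρ) c.2))

theorem step_iff {e : ℕ} {c c' : D.Cfg} : D.Step e c c' ↔
    ∃ ρ, c = (D.src ρ, app (D.lhs ρ) (drp (D.lhs ρ) c.2)) ∧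
      c' = (D.dst ρ, app (D.rhs e ρ) (drp (D.lhs ρ) c.2)) := by
  constructor
  · rintro ⟨ρ, s, rfl, rfl⟩
    exact ⟨ρ, by simp [drp_app]⟩
  · rintro ⟨ρ, h1, h2⟩
    exact ⟨ρ, _, h1, h2⟩

theorem term_iff {e : ℕ} {c : D.Cfg} : Term c ↔ ∀ c', ¬ D.Step e c c' := by
  simp only [step_iff, Term]
  exact ⟨fun h c' ⟨ρ, h1, _⟩ => h ρ h1, fun h ρ h1 => h _ ⟨ρ, h1, rfl⟩⟩

theorem orig_iff {e : ℕ} {c : D.Cfg} : D.IsOrig e c ↔
    ∀ ρ, ¬ c = (D.dst ρ, app (D.rhs e ρ) (drp (D.rhs e ρ) c.2)) := by
  constructor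
  · intro h ρ h1
    exact h ⟨_, ρ, _, rfl, h1⟩
  · rintro h ⟨c', ρ, s, rfl, rfl⟩
    exact h ρ (by simp [drp_app])

theorem step_det (hD : D.Good) (e : ℕ) : Relator.RightUnique (D.Step e) := by
  rintro c c1 c2 ⟨ρ, s, rfl, rfl⟩ ⟨ρ', s', h, rfl⟩
  obtain ⟨h1, h2⟩ := Prod.mk.inj h
  obtain rfl := hD.detf _ _ _ _ h1 h2
  have := congrArg (drp (D.lhs ρ)) h2
  rw [drp_app, drp_app] at this
  rw [this]

theorem run_reach (e : ℕ) (R : List D.Rl) (c : D.Cfg) :
    Relation.ReflTransGen (D.Step e) c (R.foldl (nxt e) c) := by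
  induction R generalizing c with
  | nil => exact .refl
  | cons ρ R ih =>
    refine Relation.ReflTransGen.trans ?_ (ih (nxt e c ρ))
    unfold nxt
    split_ifs with h
    · exact .single (step_iff.2 ⟨ρ, h, rfl⟩)
    · exact .refl

theorem run_term (hD : D.Good) (e : ℕ) (c : D.Cfg) :
    ∃ R : List D.Rl, Term (R.foldl (nxt e) c) := by
  induction hm : (c.2 D.fuel).length using Nat.strong_induction_on generalizing c with
  | _ m ih =>
    by_cases h : Term c
    · exact ⟨[], h⟩
    · simp only [Term, not_forall, not_not] at h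
      obtain ⟨ρ, h⟩ := h
      have h1 : nxt e c ρ = (D.dst ρ, app (D.rhs e ρ) (drp (D.lhs ρ) c.2)) := by
        unfold nxt; rw [if_pos h]
      obtain ⟨R, hR⟩ := ih _ (by
        rw [← hm, h1, congrArg Prod.snd h]
        have := hD.fuel_lt e ρ
        simp only [app, List.length_append, drp_app]
        omega) (nxt e c ρ) rfl
      exact ⟨ρ :: R, hR⟩

theorem not_reach_iff (hD : D.Good) {e : ℕ} {c : D.Cfg} : ¬ D.Reach e c ↔
    ∃ R : List D.Rl, Term (R.foldl (nxt e) c) ∧ ¬ (R.foldl (nxt e) c).1 = D.acc := by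
  constructor
  · intro h
    obtain ⟨R, hR⟩ := run_term hD e c
    refine ⟨R, hR, fun h1 => h ⟨(R.foldl (nxt e) c).2, ?_⟩⟩
    rw [← h1]
    exact run_reach e R c
  · rintro ⟨R, hR, h1⟩ ⟨u, hu⟩
    rcases Relation.ReflTransGen.total_of_right_unique (step_det hD e) hu (run_reach e R c) with
      h | h
    · rcases h.cases_head with h | ⟨c', ⟨ρ, s, h, -⟩, -⟩
      · exact h1 (by rw [← h])
      · exact hD.src_ne ρ (congrArg Prod.fst h).symm
    · rcases h.cases_head with h | ⟨c', h, -⟩
      · exact h1 (by rw [h])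
      · exact term_iff.1 hR c' h

end Vale.Agent.P193
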