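import Mathlib

/-! Shared definitions for the Boone-Higman project. -/

namespace Vale.Agent.P193

/-- formal polynomials over `F_2`: lists of words -/
abbrev Poly (α : Type) := List (List α)

/-- value of a word -/
def wd {α A : Type*} [Monoid A] (f : α → A) (μ : List α) : A := (μ.map f).prod

/-- value of a formal polynomial -/
def evP {α : Type} {A : Type*} [Semiring A] (f : α → A) (P : Poly α) : A := (P.map (wd f)).sum

/-- a finitely presented ring of characteristic two (universal property form) -/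
def RingFP (R : Type) [Ring R] : Prop :=
  ∃ (Z : Type) (_ : Finite Z) (gen : Z → R) (rels : Set (Poly Z)), rels.Finite ∧
    Subring.closure (Set.range gen) = ⊤ ∧ (∀ P ∈ rels, evP gen P = 0) ∧
    ∀ (A : Type) [Ring A], (1 + 1 : A) = 0 → ∀ f : Z → A, (∀ P ∈ rels, evP f P = 0) →
      ∃ h : R →+* A, ∀ z, h (gen z) = f z

/-- the ring-theoretic properties used by the group part -/
structure Nice (R : Type) [Ring R] where
  two : (1 + 1 : R) = 0
  nontriv : (1 : R) ≠ 0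
  x0 : R
  x1 : R
  y0 : R
  y1 : R
  y0x0 : y0 * x0 = 1
  y0x1 : y0 * x1 = 0
  y1x0 : y1 * x0 = 0
  y1x1 : y1 * x1 = 1
  sum : x0 * y0 + x1 * y1 = 1
  pinf : ∀ r : R, r ≠ 0 → ∃ s t, s * r * t = 1
  nc : ∀ g : Rˣ, g ≠ 1 → ∃ a b b' : R, b' * a = 1 ∧ b * a = 0 ∧ b * g * a = 1
  gp : ∀ F : Finset R, ∃ a b w ψ : R, b * a = 1 ∧ ψ * w = 1 ∧
    ∀ r ∈ F, ψ * r * a = 0 ∧ b * r * w = 0
  θ : R →ₙ+* R
  swindle : ∀ r, θ r = x0 * r * y0 + x1 * θ r * y1

/-- a family (indexed by a program number `e`) of multi-stack rewriting machines -/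
structure Sgn where
  k : ℕ
  Q : Type
  Sg : Type
  Rl : Type
  fQ : Finite Q
  fS : Finite Sg
  fR : Finite Rl
  q0 : Q
  acc : Q
  inp : Fin k
  fuel : Fin k
  hist : Fin k
  dum : Fin k
  inI : Fin 8 → Sg
  th : Sg
  hash : Sg
  fl : Sg
  stl : Q → Sg
  src : Rl → Q
  dst : Rl → Q
  lhs : Rl → Fin k → List Sg
  rhs : ℕ → Rl → Fin k → List Sg

attribute [instance] Sgn.fQ Sgn.fS Sgn.fR

/-- canonical coding of a finite type -/
@[reducible] noncomputable def finPrim (α : Type) [Finite α] : Primcodable α :=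
  Primcodable.ofEquiv (Fin (Nat.card α)) (Finite.equivFin α)

namespace Sgn

variable (D : Sgn)

noncomputable instance : Primcodable D.Q := finPrim _
noncomputable instance : Primcodable D.Sg := finPrim _
noncomputable instance : Primcodable D.Rl := finPrim _

/-- stack contents -/
abbrev St := Fin D.k → List D.Sg

/-- configurations -/
abbrev Cfg := D.Q × D.St

variable {D}

/-- stackwise concatenation -/
def app (s t : D.St) : D.St := fun i => s i ++ t i

/-- empty stacks -/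
def nil : D.St := fun _ => []

variable (D)

def Step (e : ℕ) (c c' : D.Cfg) : Prop :=
  ∃ ρ s, c = (D.src ρ, app (D.lhs ρ) s) ∧ c' = (D.dst ρ, app (D.rhs e ρ) s)

def Reach (e : ℕ) (c : D.Cfg) : Prop := ∃ u, Relation.ReflTransGen (D.Step e) c (D.acc, u)

def IsOrig (e : ℕ) (c : D.Cfg) : Prop := ¬ ∃ c', D.Step e c' c

/-- generic origins: no predecessor, not a start state, never accepting -/
def Gen (e : ℕ) (c : D.Cfg) : Prop := D.IsOrig e c ∧ c.1 ≠ D.q0 ∧ ¬ D.Reach e c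

structure Good : Prop where
  inI_inj : Function.Injective D.inI
  inI_th : ∀ i, D.inI i ≠ D.th
  inI_hash : ∀ i, D.inI i ≠ D.hash
  th_hash : D.th ≠ D.hash
  stl_inj : Function.Injective D.stl
  inp_fuel : D.inp ≠ D.fuel
  inp_hist : D.inp ≠ D.hist
  inp_dum : D.inp ≠ D.dum
  detf : ∀ ρ ρ' s s', D.src ρ = D.src ρ' → app (D.lhs ρ) s = app (D.lhs ρ') s' → ρ = ρ'
  detb : ∀ e ρ ρ' s s', D.dst ρ = D.dst ρ' → app (D.rhs e ρ) s = app (D.rhs e ρ') s' → ρ = ρ'
  fuel_lt : ∀ e ρ, (D.rhs e ρ D.fuel).length < (D.lhs ρ D.fuel).length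
  hist_lt : ∀ e ρ, (D.lhs ρ D.hist).length < (D.rhs e ρ D.hist).length
  size_le : ∀ e ρ, (D.lhs ρ D.inp).length + (D.lhs ρ D.hist).length ≤
    (D.rhs e ρ D.inp).length + (D.rhs e ρ D.hist).length
  dst_ne : ∀ ρ, D.dst ρ ≠ D.q0
  src_ne : ∀ ρ, D.src ρ ≠ D.acc
  lhs_dum : ∀ ρ, D.lhs ρ D.dum = []
  rhs_dum : ∀ e ρ, D.rhs e ρ D.dum = []

end Sgn

/-- number coding an input string -/
def enc (l : List (Fin 8)) : ℕ := l.foldl (fun m i => 8 * m + i.val) 1

namespace Sgn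

variable (D : Sgn)

/-- start configuration with input `l` and `m` units of fuel -/
def initSt (l : List (Fin 8)) (m : ℕ) : D.St := fun i =>
  if i = D.inp then l.map D.inI ++ [D.hash] else if i = D.fuel then List.replicate m D.fl else []

/-- machine number `e` accepts exactly the codes in the domain of program `e` -/
structure Spec : Prop where
  sound : ∀ e s, D.Reach e (D.q0, s) → ∃ (l : List (Fin 8)) (j : List D.Sg),
    s D.inp = l.map D.inI ++ D.hash :: j ∧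
      ((Denumerable.ofNat Nat.Partrec.Code e).eval (enc l)).Dom
  complete : ∀ e l, ((Denumerable.ofNat Nat.Partrec.Code e).eval (enc l)).Dom →
    ∃ m, D.Reach e (D.q0, D.initSt l m)

end Sgn

/-- level-zero ring generators -/
inductive Z (D : Sgn) (n : ℕ) : Type
  | one | x0 | x1 | y0 | y1 | pC | pD | vC | aD | dl
  | lam (s : Fin n × Bool)
  | push (i : Fin D.k) (a : D.Sg)
  | pop (i : Fin D.k) (a : D.Sg)
  | T (q : D.Q)

instance (D : Sgn) (n : ℕ) : Finite (Z D n) := by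
  let f : Fin 10 ⊕ (Fin n × Bool) ⊕ (Fin D.k × D.Sg) ⊕ (Fin D.k × D.Sg) ⊕ D.Q → Z D n := fun x =>
    match x with
    | .inl i => ![.one, .x0, .x1, .y0, .y1, .pC, .pD, .vC, .aD, .dl] i
    | .inr (.inl s) => .lam s
    | .inr (.inr (.inl p)) => .push p.1 p.2
    | .inr (.inr (.inr (.inl p))) => .pop p.1 p.2
    | .inr (.inr (.inr (.inr q))) => .T q
  refine Finite.of_surjective f fun z => ?_
  cases z with
  | one => exact ⟨.inl 0, rfl⟩
  | x0 => exact ⟨.inl 1, rfl⟩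
  | x1 => exact ⟨.inl 2, rfl⟩
  | y0 => exact ⟨.inl 3, rfl⟩
  | y1 => exact ⟨.inl 4, rfl⟩
  | pC => exact ⟨.inl 5, rfl⟩
  | pD => exact ⟨.inl 6, rfl⟩
  | vC => exact ⟨.inl 7, rfl⟩
  | aD => exact ⟨.inl 8, rfl⟩
  | dl => exact ⟨.inl 9, rfl⟩
  | lam s => exact ⟨.inr (.inl s), rfl⟩
  | push i a => exact ⟨.inr (.inr (.inl (i, a))), rfl⟩
  | pop i a => exact ⟨.inr (.inr (.inr (.inl (i, a)))), rfl⟩
  | T q => exact ⟨.inr (.inr (.inr (.inr q))), rfl⟩

noncomputable instance (D : Sgn) (n : ℕ) : Primcodable (Z D n) := finPrim _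

/-- letters of all levels: `(j, z)` stands for `θ^j z` -/
abbrev L (D : Sgn) (n : ℕ) := ℕ × Z D n

section words

variable {D : Sgn} {n : ℕ}

def pushW (s : D.St) : List (Z D n) :=
  (List.finRange D.k).flatMap fun i => (s i).map (Z.push i)

def popW (t : D.St) : List (Z D n) :=
  (List.finRange D.k).flatMap fun i => (t i).reverse.map (Z.pop i)

def lamW (w : List (Fin n × Bool)) : List (Z D n) := w.map Z.lam

def inW (l : List D.Sg) : List (Z D n) := l.map (Z.push D.inp)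

def l0 (μ : List (Z D n)) : List (L D n) := μ.map fun z => (0, z)

def sh (j : ℕ) (μ : List (L D n)) : List (L D n) := μ.map fun ζ => (ζ.1 + j, ζ.2)

def shP (j : ℕ) (P : Poly (L D n)) : Poly (L D n) := P.map (sh j)

noncomputable def idx (z : Z D n) : ℕ := (Finite.equivFin (Z D n) z).val

noncomputable def allZ : List (Z D n) := (List.finRange _).map (Finite.equivFin (Z D n)).symm

noncomputable def polyW : Poly (Z D n) :=
  allZ.map fun z => List.replicate (idx z) Z.x1 ++ [Z.x0, z, Z.y0] ++ List.replicate (idx z) Z.y1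

def mD (P : Poly (Z D n)) : Poly (Z D n) :=
  [Z.x0, Z.y0] :: [Z.x1, Z.x1, Z.y1, Z.y1] :: P.map fun μ => [Z.x1, Z.x0] ++ μ ++ [Z.y0, Z.y1]

/-- values of the eight input letters -/
noncomputable def mI : Fin 8 → Poly (Z D n) :=
  ![mD [[Z.x0]], mD [[Z.x1]], mD [[Z.y0]], mD [[Z.y1]], mD polyW,
    [[Z.x0, Z.y0], [Z.x0, Z.y0, Z.y1], [Z.x1, Z.x0, Z.y1, Z.y1], [Z.x1, Z.x1, Z.y1, Z.y1]],
    [[Z.x1, Z.x0], [Z.x1, Z.x1]], [[Z.y0]]]

noncomputable def cz (z : Z D n) : List (Fin 8) :=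
  2 :: List.replicate (idx z) 3 ++ [4] ++ List.replicate (idx z) 1 ++ [0]

/-- input string whose value is the polynomial `P` -/
noncomputable def code (P : Poly (Z D n)) : List (Fin 8) :=
  7 :: (P.flatMap fun μ => 5 :: μ.flatMap cz) ++ [6]

/-- expression of a letter of any level through level-zero letters -/
noncomputable def phi (ζ : L D n) : List (Z D n) :=
  if ζ.1 = 0 then [ζ.2] else
    Z.T D.q0 :: inW (List.replicate ζ.1 D.th ++ (code [[ζ.2]]).map D.inI) ++ [Z.vC]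

noncomputable def phiP (P : Poly (L D n)) : Poly (Z D n) := P.map fun μ => μ.flatMap phi

def encO (q : D.Q) (u : D.St) : D.St := Function.update u D.dum (D.stl q :: u D.dum)

/-- `T q0 Θ^j` -/
def tj (j : ℕ) : List (L D n) := l0 (Z.T D.q0 :: inW (List.replicate j D.th))

/-- the basic relations (each polynomial is declared to be zero) -/
inductive Base (Sm : Set (Poly (L D n))) (triv : List (Fin n × Bool) → Prop) (e : ℕ) :
    Poly (L D n) → Prop
  | small (P) (h : P ∈ Sm) : Base Sm triv e P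
  | rule (ρ : D.Rl) : Base Sm triv e
      [l0 (Z.T (D.src ρ) :: pushW (D.lhs ρ)), l0 (Z.T (D.dst ρ) :: pushW (D.rhs e ρ))]
  | e1 (j : ℕ) (i : Fin 8) : Base Sm triv e
      ((tj j ++ [(0, Z.push D.inp (D.inI i))]) :: (shP j ((mI i).map l0)).map fun μ => μ ++ tj j)
  | e2 (j : ℕ) (o : D.Sg) (h1 : o ≠ D.th) (h2 : ∀ i, o ≠ D.inI i) : Base Sm triv e
      [tj j ++ [(0, Z.push D.inp o)], (j, Z.one) :: l0 [Z.T D.q0, Z.push D.inp D.hash]]
  | e3 (j : ℕ) : Base Sm triv e [tj j, (j, Z.one) :: tj j]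
  | e4 (j : ℕ) : Base Sm triv e [tj j ++ [(0, Z.vC)], [(j, Z.one)]]
  | h0 (ζ : L D n) : Base Sm triv e
      [[(ζ.1 + 1, ζ.2)], [(0, Z.x0), ζ, (0, Z.y0)], [(0, Z.x1), (ζ.1 + 1, ζ.2), (0, Z.y1)]]
  | h5 (ζ : L D n) : Base Sm triv e [[(ζ.1 + 1, ζ.2), (1, Z.one)], [(ζ.1 + 1, ζ.2)]]
  | h6 (ζ : L D n) : Base Sm triv e [[(1, Z.one), (ζ.1 + 1, ζ.2)], [(ζ.1 + 1, ζ.2)]]
  | d1 (w) (h : triv w) : Base Sm triv e [l0 (lamW w ++ [Z.pD]), l0 [Z.pD]]
  | d2 (w) (t : D.St) (h : ¬ triv w) : Base Sm triv e [l0 (Z.aD :: lamW w ++ popW t ++ [Z.dl])]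
  | d3 (t : D.St) (i) (a) (h : t i = []) : Base Sm triv e
      [l0 (Z.aD :: popW t ++ [Z.dl, Z.push i a])]
  | d4 (s : D.St) (i) (a) (h : s i = []) : Base Sm triv e
      [l0 (Z.pop i a :: Z.dl :: pushW s ++ [Z.vC])]
  | b4 (q) (u : D.St) (h : D.Gen e (q, u)) : Base Sm triv e
      [l0 (Z.T q :: pushW u ++ [Z.vC]), l0 (Z.aD :: popW (encO q u))]

/-- the language that machine number `e` should accept -/
def Lang (Sm : Set (Poly (L D n))) (triv : List (Fin n × Bool) → Prop) (e N : ℕ) : Prop :=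
  ∃ j P, Base Sm triv e P ∧ N = enc (code (phiP (shP j P)))

end words

end Vale.Agent.P193
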