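import Vale.Agent.P193.Loc

/-! The ring is finitely presented. -/

namespace Vale.Agent.P193

open Sgn

universe u

variable {D : Sgn} {n : ℕ} {G : Type u} [Group G]

noncomputable def relF (e : ℕ) : Fin 7 ⊕ (Fin D.k × D.Sg × Fin D.k × D.Sg) ⊕ D.Rl ⊕ Fin 8 ⊕
    (Fin D.k × D.Sg) → Poly (Z D n)
  | .inl i => ![[[.y0, .x0], []], [[.y0, .x1]], [[.y1, .x0]], [[.y1, .x1], []], [[.one], []],
      [[.T D.acc]], [[.T D.q0, .push D.inp D.hash, .vC], []]] i
  | .inr (.inl p) => [[.push p.1 p.2.1, .push p.2.2.1 p.2.2.2], [.push p.2.2.1 p.2.2.2, .push p.1 p.2.1]]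
  | .inr (.inr (.inl ρ)) => [.T (D.src ρ) :: pushW (D.lhs ρ), .T (D.dst ρ) :: pushW (D.rhs e ρ)]
  | .inr (.inr (.inr (.inl i))) =>
      [.T D.q0, .push D.inp (D.inI i)] :: (mI i).map fun μ => μ ++ [.T D.q0]
  | .inr (.inr (.inr (.inr p))) => [[.T D.q0, .push p.1 p.2], [.T D.q0]]

structure Fin0 (e : ℕ) {B : Type*} [Ring B] (f : Z D n → B) : Prop where
  lv : Lv f
  one : f .one = 1
  acc : f (.T D.acc) = 0
  e5 : f (.T D.q0) * (f (.push D.inp D.hash) * f .vC) = 1
  comm : ∀ i j a b, i ≠ j → Commute (f (.push i a)) (f (.push j b))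
  rule : ∀ ρ, f (.T (D.src ρ)) * wd f (pushW (D.lhs ρ)) = f (.T (D.dst ρ)) * wd f (pushW (D.rhs e ρ))
  e1 : ∀ i, f (.T D.q0) * f (.push D.inp (D.inI i)) = Lv.mv f i * f (.T D.q0)
  t0 : ∀ i a, i ≠ D.inp → f (.T D.q0) * f (.push i a) = f (.T D.q0)

theorem Fin0.transfer {e : ℕ} {A B : Type*} [Ring A] [Ring B] {f0 : Z D n → A} {f : Z D n → B}
    (h : Fin0 e f0) (hA : (1 + 1 : A) = 0) (hB : (1 + 1 : B) = 0)
    (hr : ∀ x, evP f0 (relF e x) = 0 → evP f (relF e x) = 0) : Fin0 e f := by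
  have sA : ∀ r : A, r + r = 0 := fun r => by rw [← one_mul r, ← add_mul, hA, zero_mul]
  have eB : ∀ a b : B, a + b = 0 → a = b := fun a b hab => by
    have : b + b = 0 := by rw [← one_mul b, ← add_mul, hB, zero_mul]
    calc a = a + (b + b) := by rw [this, add_zero]
      _ = b := by rw [← add_assoc, hab, zero_add]
  refine ⟨⟨?_, ?_, ?_, ?_⟩, ?_, ?_, ?_, ?_, ?_, ?_, ?_⟩
  · exact eB _ _ (by simpa [relF] using hr (.inl 0) (by simp [relF, h.lv.y0x0, hA]))
  · simpa [relF] using hr (.inl 1) (by simp [relF, h.lv.y0x1])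
  · simpa [relF] using hr (.inl 2) (by simp [relF, h.lv.y1x0])
  · exact eB _ _ (by simpa [relF] using hr (.inl 3) (by simp [relF, h.lv.y1x1, hA]))
  · exact eB _ _ (by simpa [relF] using hr (.inl 4) (by simp [relF, h.one, hA]))
  · simpa [relF] using hr (.inl 5) (by simp [relF, h.acc])
  · exact eB _ _ (by simpa [relF] using hr (.inl 6) (by simp [relF, h.e5, hA]))
  · intro i j a b hij
    exact eB _ _ (by simpa [relF] using hr (.inr (.inl (i, a, j, b))) (by
      simp [relF, (h.comm i j a b hij).eq, sA]))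
  · intro ρ
    exact eB _ _ (by simpa [relF] using hr (.inr (.inr (.inl ρ))) (by simp [relF, h.rule, sA]))
  · intro i
    exact eB _ _ (by simpa [relF, evP_map_append, Lv.mv] using hr (.inr (.inr (.inr (.inl i)))) (by
      simp [relF, evP_map_append, h.e1, Lv.mv, sA]))
  · intro i a hi
    exact eB _ _ (by simpa [relF] using hr (.inr (.inr (.inr (.inr (i, a))))) (by
      simp [relF, h.t0 i a hi, sA]))

theorem Fin0.accept {e : ℕ} {B : Type*} [Ring B] {f : Z D n → B} (h : Fin0 e f) (hD : D.Good)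
    (l : List (Fin 8)) (m : ℕ) (hr : D.Reach e (D.q0, D.initSt l m)) : wd (Lv.mv f) l = 0 := by
  have happ : ∀ s t : D.St, wd f (pushW s) * wd f (pushW t) = wd f (pushW (app s t)) := by
    intro s t
    simp only [wd_pushW]
    exact PW_app _ h.comm s t
  have key : ∀ c c' : D.Cfg, Relation.ReflTransGen (D.Step e) c c' →
      f (.T c.1) * wd f (pushW c.2) = f (.T c'.1) * wd f (pushW c'.2) := by
    intro c c' hst
    induction hst with
    | refl => rfl
    | tail _ h2 ih =>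
      obtain ⟨ρ, s, rfl, rfl⟩ := h2
      rw [ih, ← happ, ← happ, ← mul_assoc, h.rule, mul_assoc]
  obtain ⟨u, hu⟩ := hr
  have h1 := key _ _ hu
  have h2 : D.initSt l m = app (Function.update (fun _ => []) D.fuel (List.replicate m D.fl))
      (Function.update (fun _ => []) D.inp (l.map D.inI ++ [D.hash])) := by
    funext i
    by_cases hi : i = D.inp
    · subst hi; simp [initSt, app, hD.inp_fuel]
    · by_cases hj : i = D.fuel
      · subst hj; simp [initSt, app, hi]
      · simp [initSt, app, hi, hj]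
  have h3 : ∀ l : List (Fin 8), f (.T D.q0) * wd (fun a => f (.push D.inp a)) (l.map D.inI)
      = wd (Lv.mv f) l * f (.T D.q0) := by
    intro l
    induction l with
    | nil => simp
    | cons i l ih => rw [List.map_cons, wd_cons, ← mul_assoc, h.e1, mul_assoc, ih, wd_cons, mul_assoc]
  simp only [h.acc, zero_mul] at h1
  rw [h2, ← happ, wd_pushW, wd_pushW, PW_single, PW_single, ← mul_assoc,
    absorb_wd fun a _ => h.t0 _ a hD.inp_fuel.symm, wd_append, ← mul_assoc, h3] at h1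
  have h4 := congrArg (· * f .vC) h1
  simpa [mul_assoc, h.e5] using h4

theorem evP_phiP {B : Type*} [Ring B] (f : Z D n → B) (P : Poly (L D n)) :
    evP f (phiP P) = evP (fun ζ => wd f (phi ζ)) P := by
  induction P with
  | nil => rfl
  | cons μ P ih =>
    simp only [phiP, List.map_cons, evP_cons] at ih ⊢
    rw [ih, wd_flatMap]

theorem Sys.fin0 {gen : Fin n → G} {e : ℕ} {A : Type*} [Ring A] {g : L D n → A} {θ : A →ₙ+* A}
    (h : Sys gen e g θ) (hD : D.Good) : Fin0 e fun z => g (0, z) where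
  lv := h.lv hD
  one := h.one
  acc := h.Tacc
  e5 := h.e5 hD
  comm := h.push_comm hD
  rule ρ := by simpa [wd_l0] using h.base2 (.rule ρ)
  e1 i := by simpa [tj, l0, inW, shP_zero, evP_l0, Lv.mv] using h.tj_inI 0 i
  t0 := h.t0 hD

theorem ring_fp (gen : Fin n → G) (hD : D.Good) (hS : D.Spec) {e : ℕ} (hf : Fix gen D e)
    (hs : Function.Surjective (gw gen)) :
    RingFP (AR (Sm gen : Set (Poly (L D n))) (fun w => gw gen w = 1) e) := by
  obtain ⟨θ, h⟩ := exists_sys (D := D) gen e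
  set g := ag (Sm gen : Set (Poly (L D n))) (fun w => gw gen w = 1) e with hg
  refine ⟨Z D n, inferInstance, fun z => g (0, z),
    {P | P ∈ Set.range (relF e) ∧ evP (fun z => g (0, z)) P = 0},
    (Set.finite_range _).subset fun P hP => hP.1, ?_, fun P hP => hP.2, ?_⟩
  · rw [eq_top_iff]
    intro r _
    refine (AddSubmonoid.closure_le (S := (Subring.closure _).toAddSubmonoid)).2 ?_ (h.span r)
    rintro _ ⟨μ, rfl⟩
    refine Subring.list_prod_mem _ fun x hx => ?_
    obtain ⟨ζ, -, rfl⟩ := List.mem_map.1 hx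
    rw [← (h.act hD hs).phi_val hD (h.lv hD) ζ]
    refine Subring.list_prod_mem _ fun x hx => ?_
    obtain ⟨z, -, rfl⟩ := List.mem_map.1 hx
    exact Subring.subset_closure ⟨z, rfl⟩
  · intro B _ hB f hr
    have h0 : Fin0 e f := (h.fin0 hD).transfer h.two hB fun x hx => hr _ ⟨⟨x, rfl⟩, hx⟩
    obtain ⟨ψ, hψ⟩ := A_lift (Sm gen : Set (Poly (L D n))) (fun w => gw gen w = 1) e hB
      (fun ζ => wd f (phi ζ)) (by simp [phi, h0.one]) (by
        intro j P hP
        obtain ⟨m, hm⟩ := hS.complete e _ ((hf _).2 ⟨j, P, hP, rfl⟩)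
        rw [← evP_phiP, ← h0.lv.code_val]
        exact h0.accept hD _ m hm)
    exact ⟨ψ, fun z => by rw [hg, hψ]; simp [phi]⟩

theorem ring_main (gen : Fin n → G) (hD : D.Good) (hS : D.Spec) {e : ℕ} (hf : Fix gen D e)
    (hi : Function.Injective enc) (hs : Function.Surjective (gw gen)) :
    ∃ (R : Type) (_ : Ring R) (_ : Nice R), RingFP R ∧ ∃ f : G →* Rˣ, Function.Injective f := by
  obtain ⟨θ, h⟩ := exists_sys (D := D) gen e
  obtain ⟨ρ, hρ⟩ := exists_rho gen hD hS hf hi
  have hfp := ring_fp gen hD hS hf hs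
  set g := ag (Sm gen : Set (Poly (L D n))) (fun w => gw gen w = 1) e with hg
  have h' := act_model gen hD e
  have hinj := h.faithful h' ρ hρ hs (fun _ _ => ext_ins) hD one_ne_zero_EE
  have ha := h.act hD hs
  have hS' := Sys.rho_SA h' ρ hρ hs
  have h1 : (1 : AR (Sm gen : Set (Poly (L D n))) (fun w => gw gen w = 1) e) ≠ 0 := fun hh =>
    one_ne_zero_EE (by rw [← map_one ρ, hh, map_zero])
  have hnz : ∀ r, r ≠ 0 → ∃ α, ∀ K, r * wd (SA gen g) α * SA gen g (.ray 0) ^ K ≠ 0 := by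
    intro r hr
    obtain ⟨α, hα⟩ := model_nz (ρ r) fun hh => hr (hinj (by rw [hh, map_zero]))
    refine ⟨α, fun K hK => hα K ?_⟩
    have := congrArg ρ hK
    simpa only [map_mul, map_pow, map_wd, hS', map_zero] using this
  have hx : ∀ f f', (∀ c, f * SA gen g c = f' * SA gen g c) → f = f' := fun f f' hh =>
    hinj (ext_ins fun c => by rw [← hS', ← map_mul, ← map_mul, hh])
  have l := h.lv hD
  let ι : G → AR (Sm gen : Set (Poly (L D n))) (fun w => gw gen w = 1) e := fun x =>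
    wd (fun z => g (0, z)) (lamW (wOf gen x)) * g (0, .pD) + (1 - g (0, .pD))
  have hι1 : ∀ x y s, ι x * SA gen g (.dis y s) = SA gen g (.dis (x * y) s) := by
    intro x y s
    simp [ι, add_mul, sub_mul, mul_assoc, ha.top .pD _ rfl, tf, ha.lamW_dis, gw_wOf hs]
  have hι2 : ∀ x c, (∀ y s, c ≠ .dis y s) → ι x * SA gen g c = SA gen g c := by
    intro x c hc
    cases c with
    | dis y s => exact absurd rfl (hc y s)
    | _ => simp [ι, add_mul, sub_mul, mul_assoc, ha.top .pD _ rfl, tf]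
  let φ : G →* AR (Sm gen : Set (Poly (L D n))) (fun w => gw gen w = 1) e :=
    { toFun := ι
      map_one' := hx _ _ fun c => by cases c <;> simp [hι1, hι2]
      map_mul' := fun x y => hx _ _ fun c => by cases c <;> simp [hι1, hι2, mul_assoc] }
  refine ⟨_, inferInstance, ⟨h.two, h1, _, _, _, _, l.y0x0, l.y0x1, l.y1x0, l.y1x1, h.sum_one hD,
    ha.pinf hD h.span hs hnz, ha.nc hD h.span hs hnz, ha.gp hD h.span hs, θ, h.swindle hD⟩, hfp,
    φ.toHomUnits, ?_⟩
  rw [injective_iff_map_eq_one]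
  intro x hx1
  have h2 : ι x = 1 := congrArg Units.val hx1
  have h3 := hι1 x 1 nil
  rw [h2, one_mul] at h3
  have h4 := ha.annD (.dis 1 nil)
  rw [if_pos rfl, h3, ha.annD] at h4
  by_contra hne
  rw [if_neg (by simpa using hne)] at h4
  exact h1 h4.symm

end Vale.Agent.P193
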