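import Vale.Agent.P193.IndB

/-! The model is faithful. -/

namespace Vale.Agent.P193

open Sgn

universe u

variable {D : Sgn} {n : ℕ} {G : Type u} [Group G]

variable {gen : Fin n → G} {e : ℕ} {A : Type*} [Ring A] {g : L D n → A} {θ : A →ₙ+* A}
  {B : Type*} [Ring B] {g' : L D n → B} {S' : Lt D G → B} {θ' : B →ₙ+* B}

theorem V_mono {w d w' d' : ℕ} (hw : w ≤ w') (hd : d ≤ d') : V g w d ≤ V g w' d' :=
  AddSubmonoid.closure_mono (Set.image_mono fun μ h => by
    rcases h with h | h | h
    · exact Or.inl h
    · exact Or.inr (Or.inl (by omega))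
    · exact Or.inr (Or.inr (by omega)))

namespace Sys

variable (h : Sys gen e g θ) (h' : Act gen e g' S' θ') (ρ : A →+* B) (hρ : ∀ ζ, ρ (g ζ) = g' ζ)
include h h' hρ

theorem rho_th (r : A) : ρ (θ r) = θ' (ρ r) := by
  have hr := h.span r
  induction hr using AddSubmonoid.closure_induction with
  | zero => simp
  | add a b _ _ ha hb => simp [ha, hb]
  | mem a ha =>
    obtain ⟨μ, rfl⟩ := ha
    by_cases hμ : μ = []
    · subst hμ
      rw [wd_nil, h.th1, hρ, map_one, (h'.th_one 0 .one).1]
    · rw [th_wd' h.th_g μ hμ, map_wd, map_wd]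
      simp only [hρ]
      rw [h'.th_wd μ hμ]

variable (hs : Function.Surjective (gw gen))
include hs

omit h in
theorem rho_SA (c : Lt D G) : ρ (SA gen g c) = S' c := by
  rw [SA, map_wd]
  simp only [hρ]
  exact h'.SW_eq hs c

theorem rho_tm (i : Idx D G) (a : A) :
    ρ (tm gen g (SA gen g) θ i a) = tm gen g' S' θ' i (ρ a) := by
  rcases i with p | c | j | _ | _ <;> simp only [tm, annV, KK, Sst]
  · split_ifs <;> simp only [map_mul, map_wd, hρ, rho_SA h' ρ hρ hs, h.rho_th h' ρ hρ]
  all_goals simp only [map_mul, map_wd, hρ]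

variable (hx : ∀ f f' : B, (∀ c, f * S' c = f' * S' c) → f = f') (hD : D.Good) (h1 : (1 : B) ≠ 0)
include hx hD h1

theorem HN_zero {w d : ℕ} (P : ∀ a ∈ V g w d, ρ a = 0 → a = 0) {x : A}
    (hxm : x ∈ HN gen e g (SA gen g) θ h.two w d) (h0 : ρ x = 0) : x = 0 := by
  obtain ⟨f, hf, rfl⟩ := hxm
  have key := h'.ind hx hD hs (f.mapRange ρ ρ.map_zero) (by
    rw [Finsupp.sum_mapRange_index (tm_zero gen g' S' θ'), ← h0, map_finsuppSum]
    simp only [h.rho_tm h' ρ hρ hs]) (fun p hp => by
      rcases (hf (.inl p)).2 hp with h2 | h2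
      · left; simp [h2]
      · right; simp [h2]) (fun q u => by
      rcases (hf (.inr (.gn q u))).2 with h2 | h2
      · left; simp [h2]
      · exact Or.inr h2)
  refine Finset.sum_eq_zero fun i _ => ?_
  have h2 := key i
  have h3 := hf i
  rw [Finsupp.mapRange_apply] at h2
  rcases i with p | c | j | _ | _
  case inr.tj =>
    have h4 : f (.inr (.tj j)) * g (j, .one) = 0 := by
      refine P _ (V0_le (closure_mul_mem _ ?_ h3.1)) (by rw [map_mul, hρ]; exact h2)
      rintro _ ⟨μ, hμ, rfl⟩
      have := mem_V0 (g := g) (μ := μ ++ [(j, .one)]) (w := w) (by simpa [wz] using hμ)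
      simpa using this
    have h5 := h.base2 (.e3 j)
    rw [wd_cons] at h5
    rw [tm, annV, h5, ← mul_assoc, h4, zero_mul]
  all_goals simp only [ex, mul_one] at h2
  · cases hk : p.2.isRay
    · rcases h3.2 hk with h4 | ⟨h4, -⟩
      · rw [h4, tm_zero]
      · rw [h4, map_one] at h2; exact absurd h2 h1
    · rw [P _ (h3.1 hk) h2, tm_zero]
  · rw [P _ h3 h2, tm_zero]
  · rw [P _ (V0_le h3.1) h2, tm_zero]
  · rw [P _ (V0_le h3.1) h2, tm_zero]

theorem faithful : Function.Injective ρ := by
  have step : ∀ w d, (∀ a ∈ V g w d, ρ a = 0 → a = 0) → ∀ a ∈ V g w (d + 1), ρ a = 0 → a = 0 := by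
    intro w d P a ha h0
    refine h.HN_zero h' ρ hρ hs hx hD h1 P (AddSubmonoid.closure_le.2 ?_ ha) h0
    rintro _ ⟨μ, hμ, rfl⟩
    exact h.word_HN hD hs w d μ hμ
  have all : ∀ w d, ∀ a ∈ V g w d, ρ a = 0 → a = 0 := by
    intro w
    induction w with
    | zero =>
      intro d
      induction d with
      | succ d ih => exact step _ _ ih
      | zero =>
        intro a ha h0
        have : a = 0 ∨ a = 1 := by
          clear h0
          induction ha using AddSubmonoid.closure_induction with
          | zero => exact Or.inl rfl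
          | add a b _ _ ha hb => rcases ha with rfl | rfl <;> rcases hb with rfl | rfl <;> simp [h.two]
          | mem a ha =>
            obtain ⟨μ, hμ | hμ | hμ, rfl⟩ := ha
            · subst hμ; exact Or.inr rfl
            all_goals omega
        rcases this with rfl | rfl
        · rfl
        · rw [map_one] at h0; exact absurd h0 h1
    | succ w ihw =>
      intro d
      induction d with
      | succ d ih => exact step _ _ ih
      | zero =>
        intro a ha h0
        have : ∃ d, a ∈ V g w d := by
          clear h0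
          induction ha using AddSubmonoid.closure_induction with
          | zero => exact ⟨0, zero_mem _⟩
          | add a b _ _ ha hb =>
            obtain ⟨d, ha⟩ := ha
            obtain ⟨d', hb⟩ := hb
            exact ⟨d + d', add_mem (V_mono le_rfl (by omega) ha) (V_mono le_rfl (by omega) hb)⟩
          | mem a ha =>
            obtain ⟨μ, hμ, rfl⟩ := ha
            refine ⟨Dm μ + 1, mem_V ?_⟩
            rcases hμ with hμ | hμ | hμ
            · exact Or.inl hμ
            all_goals exact Or.inr (Or.inr (by omega))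
        obtain ⟨d, hd⟩ := this
        exact ihw d a hd h0
  rw [injective_iff_map_eq_zero]
  intro a h0
  have : ∃ w, a ∈ V g w 0 := by
    clear h0
    have ha := h.span a
    induction ha using AddSubmonoid.closure_induction with
    | zero => exact ⟨0, zero_mem _⟩
    | add a b _ _ ha hb =>
      obtain ⟨d, ha⟩ := ha
      obtain ⟨d', hb⟩ := hb
      exact ⟨d + d', add_mem (V_mono (by omega) le_rfl ha) (V_mono (by omega) le_rfl hb)⟩
    | mem a ha =>
      obtain ⟨μ, rfl⟩ := ha
      exact ⟨wtW μ + 1, mem_V (Or.inr (Or.inl (by omega)))⟩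
  obtain ⟨w, hw⟩ := this
  exact all w 0 a hw h0

end Sys

end Vale.Agent.P193
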