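import Vale.Agent.P193.G1a

/-! The covering argument. -/

namespace Vale.Agent.P193

variable {R : Type} [Ring R]

open Vx in
theorem Nice.cover (N : Nice R) {X : Type} (p : X → Vx R) (A : X → X → Prop)
    (hsymm : ∀ a b, A a b → A b a) (hover : ∀ a b, A a b → Adj (p a) (p b))
    (hex : ∀ a z, Adj (p a) z → ∃ b, A a b ∧ p b = z)
    (huniq : ∀ a b c, A a b → A a c → p b = p c → b = c)
    (htri : ∀ a b c, A a b → A a c → Tri (p a) (p b) (p c) → A b c)
    (hconn : ∀ a b, Relation.ReflTransGen A a b) : Function.Injective p := by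
  classical
  have hst : ∀ a z, ∃ b, Adj (p a) z → A a b ∧ p b = z := by
    intro a z
    by_cases h : Adj (p a) z
    · obtain ⟨b, hb⟩ := hex a z h
      exact ⟨b, fun _ => hb⟩
    · exact ⟨a, fun h' => (h h').elim⟩
  choose st hst using hst
  have hA : ∀ a b, A a b → st a (p b) = b := fun a b h =>
    huniq a _ _ (hst a _ (hover a b h)).1 h (hst a _ (hover a b h)).2
  have hT : ∀ a y z, Tri (p a) y z → st (st a y) z = st a z := by
    intro a y z h
    have h1 := hst a y (h.adj N)
    have h2 := hst a z (h.rot.rot.adj N).symm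
    have h3 := htri a _ _ h1.1 h2.1 (by rw [h1.2, h2.2]; exact h)
    have := hA _ _ h3
    rwa [h2.2] at this
  choose nb hnb using exists_adj N
  have hind : ∀ {s t : R} (h : t * s = 1) (a : X) (y y' : Vx R), Adj (p a) y → Adj (p a) y' →
      st (st a y) ((p a).ref h) = st (st a y') ((p a).ref h) := by
    intro s t h a y y' hy hy'
    have hc := link_connected N hy hy'
    clear hy'
    induction hc with
    | refl => rfl
    | @tail u u' _ huu ih =>
      rw [ih, ← hT a u u' huu]
      have h1 := hst a u (huu.adj N)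
      refine (hT (st a u) u' _ ?_).symm
      rw [h1.2]
      exact huu.rot.ref h
  let tr : ∀ {s t : R}, t * s = 1 → X → X := fun h a => st (st a (nb (p a))) ((p a).ref h)
  have htr : ∀ {s t : R} (h : t * s = 1) (a : X), p (tr h a) = (p a).ref h := by
    intro s t h a
    have h1 := hst a _ (hnb (p a))
    refine (hst _ _ ?_).2
    rw [h1.2]
    exact (hnb (p a)).symm.ref h
  have htrA : ∀ {s t : R} (h : t * s = 1) (a b : X), A a b → A (tr h a) (tr h b) := by
    intro s t h a b hab
    have h1 := hover a b hab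
    have e1 : tr h a = st b ((p a).ref h) := by
      have := hind h a _ _ (hnb (p a)) h1
      rw [hA a b hab] at this
      exact this
    have e2 : tr h b = st (tr h a) ((p b).ref h) := by
      rw [e1]
      exact hind h b _ _ (hnb (p b)) (h1.symm.ref h)
    rw [e2]
    refine (hst _ _ ?_).1
    rw [htr]
    exact (h1.symm.ref h).symm.ref h
  have hchain : ∀ a b, Relation.ReflTransGen A a b → ∃ S : Finset (Vx R), p b ∈ S ∧
      ∀ {s t : R} (h : t * s = 1) (z : Vx R),
        (∀ x ∈ S, ∀ y ∈ S, Adj x y → Tri (x.ref h) (y.ref h) z) → st (tr h a) z = st (tr h b) z := by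
    intro a b hab
    induction hab with
    | refl => exact ⟨{p a}, by simp, fun _ _ _ => rfl⟩
    | @tail b c _ hbc ih =>
      obtain ⟨S, hS, ih⟩ := ih
      refine ⟨insert (p c) S, by simp, fun h z hz => ?_⟩
      rw [ih h z fun x hx y hy => hz x (Finset.mem_insert_of_mem hx) y (Finset.mem_insert_of_mem hy)]
      have h1 := hz (p b) (Finset.mem_insert_of_mem hS) (p c) (by simp) (hover b c hbc)
      rw [← htr h b, ← htr h c] at h1
      rw [← hT _ _ _ h1, hA _ _ (htrA h b c hbc)]
  intro a b hab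
  obtain ⟨S, hS, hst2⟩ := hchain a b (hconn a b)
  obtain ⟨s, t, h, z, hz1, hz2⟩ := gpos N S
  have e1 := hst2 h z hz2
  have hback : ∀ c, p c = p b → st (st (tr h c) z) ((p b).ref h) = tr h c := by
    intro c hc
    have h1 : Adj (p (tr h c)) z := by rw [htr, hc]; exact hz1 _ hS
    have := hA _ _ (hsymm _ _ (hst _ _ h1).1)
    rwa [htr, hc] at this
  have e2 : tr h a = tr h b := by rw [← hback a hab, ← hback b rfl, e1]
  have hback2 : ∀ c, st (st (tr h c) (nb (p c))) (p c) = c := by
    intro c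
    have h1 := hst c _ (hnb (p c))
    have h2 : Adj (p (st c (nb (p c)))) ((p c).ref h) := by
      rw [h1.2]; exact (hnb (p c)).symm.ref h
    have h3 := hA _ _ (hsymm _ _ (hst _ _ h2).1)
    rw [h1.2] at h3
    change st (st (st (st c (nb (p c))) ((p c).ref h)) (nb (p c))) (p c) = c
    rw [h3]
    exact hA _ _ (hsymm _ _ h1.1)
  rw [← hback2 a, ← hback2 b, e2, hab]

open Vx in
theorem Nice.colim' (N : Nice R) {Γ : Type} [Group Γ] (π : Γ →* Rˣ) {o o1 o2 : Vx R}
    (ht : Tri o o1 o2) (H : Subgroup Γ)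
    (hinj : ∀ h ∈ H, π h = 1 → h = 1)
    (hH : ∀ g : Rˣ, g • o = o ↔ g ∈ H.map π) (w : Γ)
    (hw : π w • o = o1)
    (hw2 : w * w = 1)
    (hcomm : ∀ h ∈ H, π h • o1 = o1 → Commute h w)
    (htri : ∃ h ∈ H, π h • o1 = o2 ∧ (h * w * h⁻¹) * w * (h * w * h⁻¹) ∈ H)
    (hgen : Subgroup.closure ((H : Set Γ) ∪ {w}) = ⊤) : Function.Injective π := by
  have hfix : ∀ h ∈ H, π h • o = o := fun h hh => (hH _).2 ⟨h, hh, rfl⟩
  let p : Γ ⧸ H → Vx R := fun a => Quotient.liftOn' a (fun g => π g • o) (by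
    intro g g' h
    rw [QuotientGroup.leftRel_apply] at h
    have := hfix _ h
    rw [map_mul, map_inv, mul_smul, inv_smul_eq_iff] at this
    exact this.symm)
  have hp : ∀ g : Γ, p (g : Γ ⧸ H) = π g • o := fun g => rfl
  have hpw : ∀ g : Γ, p ((g * w : Γ) : Γ ⧸ H) = π g • o1 := fun g => by
    rw [hp, map_mul, mul_smul, hw]
  have hmk : ∀ (g k : Γ), k ∈ H → ((g * k : Γ) : Γ ⧸ H) = g := fun g k hk =>
    QuotientGroup.mk_mul_of_mem g hk
  let A : Γ ⧸ H → Γ ⧸ H → Prop := fun a b => ∃ g : Γ, a = g ∧ b = (g * w : Γ)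
  have huniq : ∀ a b c, A a b → A a c → p b = p c → b = c := by
    rintro _ _ _ ⟨g, rfl, rfl⟩ ⟨g', h, rfl⟩ h2
    rw [QuotientGroup.eq] at h
    rw [hpw, hpw] at h2
    have h3 := hcomm _ h (by rw [map_mul, map_inv, mul_smul, ← h2, inv_smul_smul])
    have : g' * w = g * w * (g⁻¹ * g') := by rw [mul_assoc, ← h3.eq]; group
    rw [this, hmk _ _ h]
  have hsymm : ∀ a b, A a b → A b a := by
    rintro _ _ ⟨g, rfl, rfl⟩
    exact ⟨g * w, rfl, by rw [mul_assoc, hw2, mul_one]⟩
  have hinjp : Function.Injective p := by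
    refine N.cover p A hsymm ?_ ?_ huniq ?_ ?_
    · rintro _ _ ⟨g, rfl, rfl⟩
      rw [hp, hpw]
      exact (ht.adj N).smul _
    · intro a z hz
      obtain ⟨g, rfl⟩ := QuotientGroup.mk_surjective a
      rw [hp] at hz
      have h1 := hz.smul (π g)⁻¹
      rw [inv_smul_smul] at h1
      obtain ⟨u, hu1, hu2⟩ := trans2 N (ht.adj N) h1
      obtain ⟨h, hh, rfl⟩ := (hH u).1 hu1
      refine ⟨(g * h * w : Γ), ⟨g * h, (hmk _ _ hh).symm, rfl⟩, ?_⟩
      rw [hpw, map_mul, mul_smul, hu2, smul_inv_smul]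
    · rintro _ _ c ⟨g, rfl, rfl⟩ hc h3
      rw [hp, hpw] at h3
      have h4 := h3.smul (π g)⁻¹
      rw [inv_smul_smul, inv_smul_smul] at h4
      obtain ⟨u, hu1, hu2, hu3⟩ := trans3 N ht h4
      obtain ⟨m, hm, rfl⟩ := (hH u).1 hu1
      obtain ⟨h, hh, h5, h6⟩ := htri
      have hc' : c = (g * m * h * w : Γ) := by
        refine huniq (g : Γ ⧸ H) _ _ hc ⟨g * m * h, ?_, rfl⟩ ?_
        · rw [hmk _ _ hh, hmk _ _ hm]
        · rw [hpw, map_mul, map_mul, mul_smul, mul_smul, h5, hu3, smul_inv_smul]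
      have h7 := (hcomm m hm hu2).eq
      refine ⟨g * m * w * h, ?_, ?_⟩
      · rw [hmk _ _ hh, mul_assoc g, h7, ← mul_assoc, hmk _ _ hm]
      · rw [hc']
        have h8 : g * m * w * h * w = g * m * h * w * (h⁻¹ * ((h * w * h⁻¹) * w * (h * w * h⁻¹)) * h) := by
          calc g * m * w * h * w = g * m * h * (w * w) * h⁻¹ * w * h * w := by rw [hw2]; group
            _ = _ := by group
        rw [h8, hmk _ _ (H.mul_mem (H.mul_mem (H.inv_mem hh) h6) hh)]
    · have key : ∀ g : Γ, ∀ x : Γ, Relation.ReflTransGen A (x : Γ ⧸ H) (x * g : Γ) := by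
        intro g
        have hg : g ∈ Subgroup.closure ((H : Set Γ) ∪ {w}) := by rw [hgen]; trivial
        induction hg using Subgroup.closure_induction with
        | mem g hg =>
          intro x
          rcases hg with hg | hg
          · rw [hmk _ _ hg]
          · rw [Set.mem_singleton_iff.1 hg]
            exact Relation.ReflTransGen.single ⟨x, rfl, rfl⟩
        | one => intro x; rw [mul_one]
        | mul g g' _ _ h1 h2 => intro x; rw [← mul_assoc]; exact (h1 x).trans (h2 _)
        | inv g _ h1 =>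
          intro x
          have h2 := h1 (x * g⁻¹)
          rw [inv_mul_cancel_right] at h2
          generalize ((x * g⁻¹ : Γ) : Γ ⧸ H) = a at h2
          generalize ((x : Γ) : Γ ⧸ H) = b at h2
          induction h2 with
          | refl => rfl
          | tail _ hbc ih => exact Relation.ReflTransGen.head (hsymm _ _ hbc) ih
      intro a b
      obtain ⟨g, rfl⟩ := QuotientGroup.mk_surjective a
      obtain ⟨g', rfl⟩ := QuotientGroup.mk_surjective b
      simpa using key (g⁻¹ * g') g
  rw [injective_iff_map_eq_one]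
  intro g hg
  have h1 : ((1 : Γ) : Γ ⧸ H) = g := hinjp (by rw [hp, hp, hg, map_one])
  rw [QuotientGroup.eq, inv_one, one_mul] at h1
  exact hinj g h1 hg

end Vale.Agent.P193
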