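import Vale.Agent.P193.G1c
import Vale.Agent.P193.G1d

namespace Vale.Agent.P193

variable {R : Type} [Ring R]

/-- transitivity on orthonormal families with nonzero complement -/
theorem Nice.trans (N : Nice R) {J : Type} [Fintype J] {v φ v' φ' : J → R} (ho : Orth v φ)
    (ho' : Orth v' φ') (h : ∑ i, v i * φ i ≠ 1) (h' : ∑ i, v' i * φ' i ≠ 1) :
    ∃ g : Rˣ, ∀ i, (g : R) * v i = v' i ∧ φ' i * g = φ i := N.trans' ho ho' h h'

/-- every unit supported in the corner of a family with at least two members is elementary -/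
theorem Nice.gen_corner (N : Nice R) {J : Type} [Fintype J] [Nontrivial J] {v φ : J → R}
    (ho : Orth v φ) (g : Rˣ) (h1 : (g : R) * (1 - ∑ i, v i * φ i) = 1 - ∑ i, v i * φ i)
    (h2 : (1 - ∑ i, v i * φ i) * g = 1 - ∑ i, v i * φ i) :
    g ∈ Subgroup.closure (N.elem ho) := N.gen_corner' ho g h1 h2

theorem Nice.simple (N : Nice R) : IsSimpleGroup Rˣ := N.simple'

/-- local-to-global principle -/
theorem Nice.colim (N : Nice R) {Γ : Type} [Group Γ] (π : Γ →* Rˣ) {v φ : Fin 3 → R}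
    (ho : Orth v φ) (hne : ∑ i, v i * φ i ≠ 1) (H : Subgroup Γ)
    (hinj : ∀ h ∈ H, π h = 1 → h = 1)
    (hH : ∀ g : Rˣ, ((g : R) * v 0 = v 0 ∧ φ 0 * g = φ 0) ↔ g ∈ H.map π) (w : Γ)
    (hw : (π w : R) = 1 + v 0 * φ 0 + v 1 * φ 1 + v 0 * φ 1 + v 1 * φ 0)
    (hw2 : w * w = 1)
    (hcomm : ∀ h ∈ H, (π h : R) * v 1 = v 1 → φ 1 * π h = φ 1 → Commute h w)
    (htri : ∃ h ∈ H, (π h : R) * v 1 = v 2 ∧ φ 2 * π h = φ 1 ∧
      (h * w * h⁻¹) * w * (h * w * h⁻¹) ∈ H)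
    (hgen : Subgroup.closure ((H : Set Γ) ∪ {w}) = ⊤) : Function.Injective π := by
  have hv : ∀ i j : Fin 3, i ≠ j → v i * φ i ≠ 1 := fun i j hij =>
    ne_one_of_right (N.ne_zero_left (ho.diag j)) (by rw [mul_assoc, ho.off i j hij, mul_zero])
  let o : Vx R := ⟨v 0, φ 0, ho.diag 0, hv 0 1 (by decide)⟩
  let o1 : Vx R := ⟨v 1, φ 1, ho.diag 1, hv 1 0 (by decide)⟩
  let o2 : Vx R := ⟨v 2, φ 2, ho.diag 2, hv 2 0 (by decide)⟩
  have ht : Vx.Tri o o1 o2 :=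
    ⟨⟨ho.off 0 1 (by decide), ho.off 1 0 (by decide)⟩,
      ⟨ho.off 0 2 (by decide), ho.off 2 0 (by decide)⟩,
      ⟨ho.off 1 2 (by decide), ho.off 2 1 (by decide)⟩, by rwa [Fin.sum_univ_three] at hne⟩
  refine N.colim' π ht H hinj (fun g => Vx.smul_eq_iff.trans (hH g)) w ?_ hw2
    (fun h hh h1 => hcomm h hh (Vx.smul_eq_iff.1 h1).1 (Vx.smul_eq_iff.1 h1).2) ?_ hgen
  · have s := N.sw_v (ho.off 0 1 (by decide)) (ho.off 1 0 (by decide)) (ho.diag 0) (ho.diag 1)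
    rw [N.sw_val _ _ (ho.diag 0) (ho.diag 1), ← hw] at s
    exact Vx.smul_eq_iff.2 s.1
  · obtain ⟨h, hh, h1, h2, h3⟩ := htri
    exact ⟨h, hh, Vx.smul_eq_iff.2 ⟨h1, h2⟩, h3⟩

end Vale.Agent.P193
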