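import Vale.Agent.P193.GDefs

/-! Vertices, complements, transitivity and connectivity. -/

namespace Vale.Agent.P193

variable {R : Type} [Ring R]

theorem ra {a b c : R} (h : a * b = c) (t : R) : a * (b * t) = c * t := by
  rw [← mul_assoc, h]

theorem Nice.ne_zero_left (N : Nice R) {a b : R} (h : b * a = 1) : a ≠ 0 := by
  rintro rfl
  exact N.nontriv (by rw [← h, mul_zero])

theorem ne_one_of_right {s t : R} (ht : t ≠ 0) (h : s * t = 0) : s ≠ 1 := by
  rintro rfl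
  exact ht (by rwa [one_mul] at h)

theorem ne_one_of_left {s t : R} (ht : t ≠ 0) (h : t * s = 0) : s ≠ 1 := by
  rintro rfl
  exact ht (by rwa [mul_one] at h)

/-- an idempotent equivalent to `1` -/
def Eqv (f : R) : Prop := ∃ V Φ : R, Φ * V = 1 ∧ V * Φ = f

theorem Nice.eqv_compl (N : Nice R) {v φ : R} (h1 : φ * v = 1) (h2 : v * φ ≠ 1) :
    Eqv (1 - v * φ) := by
  obtain ⟨s, t, hst⟩ := N.pinf (1 - v * φ) (sub_ne_zero.2 h2.symm)
  obtain ⟨f, hf⟩ : ∃ f, f = 1 - v * φ := ⟨_, rfl⟩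
  rw [← hf] at hst ⊢
  have hff : f * f = f := by
    rw [hf]; simp [mul_sub, sub_mul, mul_assoc, ra h1]
  have hφf : φ * f = 0 := by rw [hf]; simp [mul_sub, ra h1]
  have hfv : f * v = 0 := by rw [hf]; simp [sub_mul, mul_assoc, h1]
  obtain ⟨a, ha⟩ : ∃ a, a = f * t := ⟨_, rfl⟩
  obtain ⟨b, hb⟩ : ∃ b, b = s * f := ⟨_, rfl⟩
  have hba : b * a = 1 := by rw [ha, hb, ← hst]; simp [mul_assoc, ra hff]
  have hφa : φ * a = 0 := by rw [ha]; simp [ra hφf]
  have hbv : b * v = 0 := by rw [hb]; simp [mul_assoc, hfv]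
  have hfa : f * a = a := by rw [ha]; simp [ra hff]
  have hbf : b * f = b := by rw [hb]; simp [mul_assoc, hff]
  refine ⟨a * N.x0 * φ + a * N.x1 * b + (f - a * b), v * N.y0 * b + a * N.y1 * b + (f - a * b), ?_, ?_⟩
  · have : v * φ + f = 1 := by rw [hf]; abel
    rw [← this]
    simp only [mul_add, add_mul, mul_sub, sub_mul, mul_assoc, hba, ra hba, hφa, ra hφa, hbv, ra hbv,
      hfa, ra hfa, hbf, ra hbf, hff, hφf, hfv, ra hfv, ra N.y0x0, ra N.y0x1, ra N.y1x0, ra N.y1x1,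
      one_mul, zero_mul, mul_zero]
    abel
  · have h3 : a * (N.x0 * (N.y0 * b)) + a * (N.x1 * (N.y1 * b)) = a * b := by
      rw [← mul_add, ← mul_assoc N.x0, ← mul_assoc N.x1, ← add_mul, N.sum, one_mul]
    simp only [mul_add, add_mul, mul_sub, sub_mul, mul_assoc, hba, ra hba, hφa, ra hφa, hbv, ra hbv,
      hfa, ra hfa, hbf, ra hbf, hff, hφf, hfv, ra hfv, h1, ra h1,
      one_mul, zero_mul, mul_zero]
    rw [← h3]
    abel

theorem Nice.eqv_step (N : Nice R) {f v φ : R} (hf : Eqv f) (h1 : φ * v = 1) (hv : f * v = v)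
    (hφ : φ * f = φ) (h2 : f - v * φ ≠ 0) : Eqv (f - v * φ) := by
  obtain ⟨V, Φ, hΦV, hVΦ⟩ := hf
  have e1 : φ * V * (Φ * v) = 1 := by
    rw [mul_assoc, ← mul_assoc V, hVΦ, hv, h1]
  have e3 : V * (Φ * v * (φ * V)) * Φ = v * φ := by
    calc V * (Φ * v * (φ * V)) * Φ = (V * Φ * v) * (φ * (V * Φ)) := by simp only [mul_assoc]
      _ = v * φ := by rw [hVΦ, hv, hφ]
  have e2 : Φ * v * (φ * V) ≠ 1 := by
    intro h
    rw [h, mul_one, hVΦ] at e3
    exact h2 (by rw [e3, sub_self])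
  obtain ⟨V', Φ', h3, h4⟩ := N.eqv_compl e1 e2
  refine ⟨V * V', Φ' * Φ, ?_, ?_⟩
  · rw [mul_assoc, ← mul_assoc Φ, hΦV, one_mul, h3]
  · calc V * V' * (Φ' * Φ) = V * (V' * Φ') * Φ := by simp only [mul_assoc]
      _ = f - v * φ := by rw [h4, mul_sub, sub_mul, e3, mul_one, hVΦ]

theorem Orth.sum_mul {J : Type} {v φ : J → R} (ho : Orth v φ) {s : Finset J} {j : J}
    (hj : j ∉ s) : (∑ i ∈ s, v i * φ i) * v j = 0 := by
  rw [Finset.sum_mul]
  refine Finset.sum_eq_zero fun i hi => ?_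
  rw [mul_assoc, ho.off i j (by rintro rfl; exact hj hi), mul_zero]

theorem Orth.mul_sum {J : Type} {v φ : J → R} (ho : Orth v φ) {s : Finset J} {j : J}
    (hj : j ∉ s) : φ j * (∑ i ∈ s, v i * φ i) = 0 := by
  rw [Finset.mul_sum]
  refine Finset.sum_eq_zero fun i hi => ?_
  rw [← mul_assoc, ho.off j i (by rintro rfl; exact hj hi), zero_mul]

theorem Orth.sum_mul_mem {J : Type} {v φ : J → R} (ho : Orth v φ) {s : Finset J} {j : J}
    (hj : j ∈ s) : (∑ i ∈ s, v i * φ i) * v j = v j := by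
  classical
  rw [← Finset.add_sum_erase s _ hj, add_mul, ho.sum_mul (Finset.notMem_erase j s), mul_assoc,
    ho.diag, mul_one, add_zero]

theorem Orth.mul_sum_mem {J : Type} {v φ : J → R} (ho : Orth v φ) {s : Finset J} {j : J}
    (hj : j ∈ s) : φ j * (∑ i ∈ s, v i * φ i) = φ j := by
  classical
  rw [← Finset.add_sum_erase s _ hj, mul_add, ho.mul_sum (Finset.notMem_erase j s), ← mul_assoc,
    ho.diag, one_mul, add_zero]

theorem Nice.eqv_compl_sum (N : Nice R) {J : Type} {v φ : J → R} (ho : Orth v φ) (s : Finset J)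
    (h : ∑ i ∈ s, v i * φ i ≠ 1) : Eqv (1 - ∑ i ∈ s, v i * φ i) := by
  classical
  induction s using Finset.induction_on with
  | empty => exact ⟨1, 1, by simp, by simp⟩
  | insert j s hj ih =>
    rw [Finset.sum_insert hj] at h ⊢
    have h1 : ∑ i ∈ s, v i * φ i ≠ 1 :=
      ne_one_of_right (N.ne_zero_left (ho.diag j)) (ho.sum_mul hj)
    have h2 := N.eqv_step (ih h1) (ho.diag j) (by rw [sub_mul, ho.sum_mul hj]; simp)
      (by rw [mul_sub, ho.mul_sum hj]; simp)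
      (by intro h3; apply h; rw [sub_sub, sub_eq_zero] at h3; rw [h3, add_comm])
    rwa [sub_sub, add_comm] at h2

theorem Nice.eqv_sum (N : Nice R) {J : Type} {v φ : J → R} (ho : Orth v φ) {s : Finset J}
    (hs : s.Nonempty) : Eqv (∑ i ∈ s, v i * φ i) := by
  classical
  induction hs using Finset.Nonempty.cons_induction with
  | singleton j => exact ⟨v j, φ j, ho.diag j, by simp⟩
  | cons j s hj _ ih =>
    obtain ⟨V, Φ, h1, h2⟩ := ih
    have h3 : φ j * V = 0 := by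
      calc φ j * V = φ j * (V * Φ) * V := by rw [mul_assoc, mul_assoc, h1, mul_one]
        _ = 0 := by rw [h2, ho.mul_sum hj, zero_mul]
    have h4 : Φ * v j = 0 := by
      calc Φ * v j = Φ * (V * Φ * v j) := by rw [mul_assoc, ← mul_assoc Φ, h1, one_mul]
        _ = 0 := by rw [h2, ho.sum_mul hj, mul_zero]
    refine ⟨V * N.y0 + v j * N.y1, N.x0 * Φ + N.x1 * φ j, ?_, ?_⟩
    · rw [← N.sum]
      simp only [mul_add, add_mul, mul_assoc, ra h1, ra h3, ra h4, ra (ho.diag j), one_mul,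
        zero_mul, mul_zero]
      abel
    · rw [Finset.sum_cons, ← h2]
      simp only [mul_add, add_mul, mul_assoc, ra N.y0x0, ra N.y0x1, ra N.y1x0, ra N.y1x1, one_mul,
        zero_mul, mul_zero]
      abel

theorem Nice.trans' (N : Nice R) {J : Type} [Fintype J] {v φ v' φ' : J → R} (ho : Orth v φ)
    (ho' : Orth v' φ') (h : ∑ i, v i * φ i ≠ 1) (h' : ∑ i, v' i * φ' i ≠ 1) :
    ∃ g : Rˣ, ∀ i, (g : R) * v i = v' i ∧ φ' i * g = φ i := by
  obtain ⟨V, Φ, h1, h2⟩ := N.eqv_compl_sum ho Finset.univ h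
  obtain ⟨V', Φ', h1', h2'⟩ := N.eqv_compl_sum ho' Finset.univ h'
  have key : ∀ {v φ : J → R} {V Φ : R}, Orth v φ → Φ * V = 1 → V * Φ = 1 - ∑ i, v i * φ i →
      ∀ i, φ i * V = 0 ∧ Φ * v i = 0 := by
    intro v φ V Φ ho h1 h2 i
    constructor
    · calc φ i * V = φ i * (V * Φ) * V := by rw [mul_assoc, mul_assoc, h1, mul_one]
        _ = 0 := by rw [h2, mul_sub, ho.mul_sum_mem (Finset.mem_univ i)]; simp
    · calc Φ * v i = Φ * (V * Φ * v i) := by rw [mul_assoc, ← mul_assoc Φ, h1, one_mul]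
        _ = 0 := by rw [h2, sub_mul, ho.sum_mul_mem (Finset.mem_univ i)]; simp
  have k2 : ∀ {v φ v' : J → R} {V Φ V' : R}, Orth v φ → Φ * V = 1 →
      V * Φ = 1 - ∑ i, v i * φ i → ∀ j, (∑ i, v' i * φ i + V' * Φ) * v j = v' j := by
    intro v φ v' V Φ V' ho h1 h2 j
    rw [add_mul, mul_assoc, (key ho h1 h2 j).2, mul_zero, add_zero, Finset.sum_mul,
      Finset.sum_eq_single j]
    · rw [mul_assoc, ho.diag, mul_one]
    · intro i _ hi; rw [mul_assoc, ho.off i j hi, mul_zero]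
    · simp
  have k3 : ∀ {v φ v' : J → R} {V Φ V' : R}, Orth v φ → Φ * V = 1 →
      V * Φ = 1 - ∑ i, v i * φ i → (∑ i, v' i * φ i + V' * Φ) * V = V' := by
    intro v φ v' V Φ V' ho h1 h2
    rw [add_mul, mul_assoc, h1, mul_one, Finset.sum_mul, Finset.sum_eq_zero, zero_add]
    intro i _; rw [mul_assoc, (key ho h1 h2 i).1, mul_zero]
  have k4 : ∀ {v φ v' φ' : J → R} {V Φ V' Φ' : R}, Orth v φ → Φ * V = 1 →
      V * Φ = 1 - ∑ i, v i * φ i → V' * Φ' = 1 - ∑ i, v' i * φ' i →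
      (∑ i, v' i * φ i + V' * Φ) * (∑ i, v i * φ' i + V * Φ') = 1 := by
    intro v φ v' φ' V Φ V' Φ' ho h1 h2 h2'
    rw [mul_add, ← mul_assoc, k3 ho h1 h2, h2', Finset.mul_sum]
    simp only [← mul_assoc, k2 ho h1 h2]
    abel
  refine ⟨⟨∑ i, v' i * φ i + V' * Φ, ∑ i, v i * φ' i + V * Φ', k4 ho h1 h2 h2',
    k4 ho' h1' h2' h2⟩, fun j => ⟨k2 ho h1 h2 j, ?_⟩⟩
  change φ' j * (∑ i, v' i * φ i + V' * Φ) = φ j
  rw [mul_add, ← mul_assoc, (key ho' h1' h2' j).1, zero_mul, add_zero, Finset.mul_sum,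
    Finset.sum_eq_single j]
  · rw [← mul_assoc, ho'.diag, one_mul]
  · intro i _ hi; rw [← mul_assoc, ho'.off j i hi.symm, zero_mul]
  · simp

/-- vertices -/
@[ext] structure Vx (R : Type) [Ring R] where
  v : R
  φ : R
  h1 : φ * v = 1
  h2 : v * φ ≠ 1

namespace Vx

instance : SMul Rˣ (Vx R) where
  smul g x := ⟨g * x.v, x.φ * ↑g⁻¹, by
      rw [mul_assoc, ← mul_assoc (↑g⁻¹ : R), Units.inv_mul, one_mul, x.h1], by
      intro h
      apply x.h2
      calc x.v * x.φ = ↑g⁻¹ * (g * x.v * (x.φ * ↑g⁻¹)) * g := by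
            simp only [mul_assoc, Units.inv_mul, mul_one, Units.inv_mul_cancel_left]
        _ = 1 := by rw [h, mul_one, Units.inv_mul]⟩

@[simp] theorem smul_v (g : Rˣ) (x : Vx R) : (g • x).v = g * x.v := rfl
@[simp] theorem smul_φ (g : Rˣ) (x : Vx R) : (g • x).φ = x.φ * ↑g⁻¹ := rfl

instance : MulAction Rˣ (Vx R) where
  one_smul x := by ext <;> simp
  mul_smul g h x := by ext <;> simp [mul_assoc]

theorem smul_eq_iff {g : Rˣ} {x y : Vx R} : g • x = y ↔ (g : R) * x.v = y.v ∧ y.φ * g = x.φ := by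
  constructor
  · rintro rfl
    simp
  · rintro ⟨h1, h2⟩
    ext
    · simpa using h1
    · simp [← h2]

/-- orthogonal vertices -/
def Ort (x y : Vx R) : Prop := x.φ * y.v = 0 ∧ y.φ * x.v = 0

def Adj (x y : Vx R) : Prop := Ort x y ∧ x.v * x.φ + y.v * y.φ ≠ 1

def Tri (x y z : Vx R) : Prop :=
  Ort x y ∧ Ort x z ∧ Ort y z ∧ x.v * x.φ + y.v * y.φ + z.v * z.φ ≠ 1

theorem Ort.symm {x y : Vx R} (h : Ort x y) : Ort y x := ⟨h.2, h.1⟩

theorem Adj.symm {x y : Vx R} (h : Adj x y) : Adj y x := ⟨h.1.symm, by rw [add_comm]; exact h.2⟩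

theorem Tri.rot {x y z : Vx R} (h : Tri x y z) : Tri y z x :=
  ⟨h.2.2.1, h.1.symm, h.2.1.symm, by rw [add_rotate]; rw [add_rotate]; exact h.2.2.2⟩

theorem v_ne (N : Nice R) (x : Vx R) : x.v ≠ 0 := N.ne_zero_left x.h1

theorem Tri.adj (N : Nice R) {x y z : Vx R} (h : Tri x y z) : Adj x y :=
  ⟨h.1, ne_one_of_right (v_ne N z) (by
    rw [add_mul, mul_assoc, mul_assoc, h.2.1.1, h.2.2.1.1]; simp)⟩

theorem Ort.smul {x y : Vx R} (h : Ort x y) (g : Rˣ) : Ort (g • x) (g • y) := by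
  constructor
  · simp [mul_assoc, h.1]
  · simp [mul_assoc, h.2]

theorem conj_ne_one {s : R} (h : s ≠ 1) (g : Rˣ) : (g : R) * s * ↑g⁻¹ ≠ 1 := by
  intro h1
  apply h
  calc s = ↑g⁻¹ * (g * s * ↑g⁻¹) * g := by
        simp only [mul_assoc, Units.inv_mul, mul_one, Units.inv_mul_cancel_left]
    _ = 1 := by rw [h1, mul_one, Units.inv_mul]

theorem Adj.smul {x y : Vx R} (h : Adj x y) (g : Rˣ) : Adj (g • x) (g • y) := by
  refine ⟨h.1.smul g, ?_⟩
  have := conj_ne_one h.2 g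
  simpa [mul_add, add_mul, mul_assoc] using this

theorem Tri.smul {x y z : Vx R} (h : Tri x y z) (g : Rˣ) : Tri (g • x) (g • y) (g • z) := by
  refine ⟨h.1.smul g, h.2.1.smul g, h.2.2.1.smul g, ?_⟩
  have := conj_ne_one h.2.2.2 g
  simpa [mul_add, add_mul, mul_assoc] using this

theorem trans1 (N : Nice R) (x x' : Vx R) : ∃ g : Rˣ, g • x = x' := by
  obtain ⟨g, hg⟩ := N.trans' (J := Unit) (v := fun _ => x.v) (φ := fun _ => x.φ)
    (v' := fun _ => x'.v) (φ' := fun _ => x'.φ) ⟨fun _ => x.h1, fun i j h => (h rfl).elim⟩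
    ⟨fun _ => x'.h1, fun i j h => (h rfl).elim⟩ (by simpa using x.h2) (by simpa using x'.h2)
  exact ⟨g, smul_eq_iff.2 (hg ())⟩

theorem orth2 {x y : Vx R} (h : Ort x y) : Orth ![x.v, y.v] ![x.φ, y.φ] := by
  constructor
  · intro i; fin_cases i
    · exact x.h1
    · exact y.h1
  · intro i j hij
    fin_cases i <;> fin_cases j <;> first | exact (hij rfl).elim | exact h.1 | exact h.2

theorem trans2 (N : Nice R) {x y x' y' : Vx R} (h : Adj x y) (h' : Adj x' y') :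
    ∃ g : Rˣ, g • x = x' ∧ g • y = y' := by
  obtain ⟨g, hg⟩ := N.trans' (orth2 h.1) (orth2 h'.1) (by simpa using h.2) (by simpa using h'.2)
  exact ⟨g, smul_eq_iff.2 (hg 0), smul_eq_iff.2 (hg 1)⟩

theorem orth3 {x y z : Vx R} (h : Tri x y z) : Orth ![x.v, y.v, z.v] ![x.φ, y.φ, z.φ] := by
  constructor
  · intro i; fin_cases i
    · exact x.h1
    · exact y.h1
    · exact z.h1
  · intro i j hij
    fin_cases i <;> fin_cases j
    all_goals first
      | exact (hij rfl).elim | exact h.1.1 | exact h.1.2 | exact h.2.1.1 | exact h.2.1.2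
      | exact h.2.2.1.1 | exact h.2.2.1.2

theorem trans3 (N : Nice R) {x y z x' y' z' : Vx R} (h : Tri x y z) (h' : Tri x' y' z') :
    ∃ g : Rˣ, g • x = x' ∧ g • y = y' ∧ g • z = z' := by
  obtain ⟨g, hg⟩ := N.trans' (orth3 h) (orth3 h')
    (by simpa [Fin.sum_univ_three] using h.2.2.2) (by simpa [Fin.sum_univ_three] using h'.2.2.2)
  exact ⟨g, smul_eq_iff.2 (hg 0), smul_eq_iff.2 (hg 1), smul_eq_iff.2 (hg 2)⟩

/-- refinement -/
def ref (x : Vx R) {a b : R} (h : b * a = 1) : Vx R :=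
  ⟨x.v * a, b * x.φ, by rw [mul_assoc, ra x.h1, one_mul, h],
    ne_one_of_left (t := 1 - x.v * x.φ) (sub_ne_zero.2 x.h2.symm) (by
      simp [sub_mul, mul_assoc, ra x.h1])⟩

theorem Ort.ref {x y : Vx R} (hxy : Ort x y) {a b : R} (h : b * a = 1) : Ort x (y.ref h) := by
  constructor
  · change x.φ * (y.v * a) = 0
    rw [ra hxy.1, zero_mul]
  · change b * y.φ * x.v = 0
    rw [mul_assoc, hxy.2, mul_zero]

theorem Adj.ref {x y : Vx R} (hxy : Adj x y) {a b : R} (h : b * a = 1) : Adj x (y.ref h) := by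
  refine ⟨hxy.1.ref h, ne_one_of_left (t := 1 - (x.v * x.φ + y.v * y.φ))
    (sub_ne_zero.2 hxy.2.symm) ?_⟩
  change _ * (x.v * x.φ + y.v * a * (b * y.φ)) = 0
  simp [sub_mul, add_mul, mul_add, mul_assoc, ra x.h1, ra y.h1, ra hxy.1.1, ra hxy.1.2]

theorem Tri.ref {x y z : Vx R} (hxy : Tri x y z) {a b : R} (h : b * a = 1) :
    Tri x y (z.ref h) := by
  refine ⟨hxy.1, hxy.2.1.ref h, hxy.2.2.1.ref h,
    ne_one_of_left (t := 1 - (x.v * x.φ + y.v * y.φ + z.v * z.φ))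
    (sub_ne_zero.2 hxy.2.2.2.symm) ?_⟩
  change _ * (x.v * x.φ + y.v * y.φ + z.v * a * (b * z.φ)) = 0
  simp [sub_mul, add_mul, mul_add, mul_assoc, ra x.h1, ra y.h1, ra z.h1, ra hxy.1.1, ra hxy.1.2,
    ra hxy.2.1.1, ra hxy.2.1.2, ra hxy.2.2.1.1, ra hxy.2.2.1.2]

/-- general position data for a finite set of vertices -/
theorem gpos (N : Nice R) (S : Finset (Vx R)) : ∃ (a b : R) (h : b * a = 1) (z : Vx R),
    (∀ x ∈ S, Adj (x.ref h) z) ∧ ∀ x ∈ S, ∀ y ∈ S, Adj x y → Tri (x.ref h) (y.ref h) z := by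
  classical
  obtain ⟨a, b, w, ψ, hba, hψw, hF⟩ := N.gp (S.image Vx.v ∪ S.image Vx.φ)
  have hw : w * N.x1 ≠ 0 :=
    N.ne_zero_left (b := N.y1 * ψ) (by rw [mul_assoc, ra hψw, one_mul, N.y1x1])
  have hz : w * N.x0 * (N.y0 * ψ) * (w * N.x1) = 0 := by
    simp [mul_assoc, ra hψw, N.y0x1]
  let z : Vx R := ⟨w * N.x0, N.y0 * ψ, by rw [mul_assoc, ra hψw, one_mul, N.y0x0],
    ne_one_of_right hw hz⟩
  have h1 : ∀ x ∈ S, ψ * (x.v * a) = 0 := fun x hx => by
    rw [← mul_assoc]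
    exact (hF x.v (Finset.mem_union_left _ (Finset.mem_image_of_mem _ hx))).1
  have h2 : ∀ x ∈ S, b * (x.φ * w) = 0 := fun x hx => by
    rw [← mul_assoc]
    exact (hF x.φ (Finset.mem_union_right _ (Finset.mem_image_of_mem _ hx))).2
  have h3 : ∀ x ∈ S, Ort (x.ref hba) z := fun x hx => by
    constructor
    · change b * x.φ * (w * N.x0) = 0
      rw [← mul_assoc, mul_assoc b, h2 x hx, zero_mul]
    · change N.y0 * ψ * (x.v * a) = 0
      rw [mul_assoc, h1 x hx, mul_zero]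
  have h4 : ∀ x ∈ S, (x.ref hba).v * (x.ref hba).φ * (w * N.x1) = 0 := fun x hx => by
    change x.v * a * (b * x.φ) * (w * N.x1) = 0
    rw [mul_assoc, ← mul_assoc (b * x.φ), mul_assoc b, h2 x hx, zero_mul, mul_zero]
  refine ⟨a, b, hba, z, fun x hx => ⟨h3 x hx, ne_one_of_right hw ?_⟩,
    fun x hx y hy hxy => ⟨((hxy.1.ref hba).symm.ref hba).symm, h3 x hx, h3 y hy,
      ne_one_of_right hw ?_⟩⟩
  · rw [add_mul, h4 x hx, zero_add]; exact hz
  · rw [add_mul, add_mul, h4 x hx, h4 y hy, zero_add, zero_add]; exact hz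

theorem compl (N : Nice R) (x : Vx R) : ∃ V Φ : R, Φ * V = 1 ∧ V * Φ = 1 - x.v * x.φ ∧
    x.φ * V = 0 ∧ Φ * x.v = 0 := by
  obtain ⟨V, Φ, h1, h2⟩ := N.eqv_compl x.h1 x.h2
  refine ⟨V, Φ, h1, h2, ?_, ?_⟩
  · calc x.φ * V = x.φ * (V * Φ) * V := by rw [mul_assoc, mul_assoc, h1, mul_one]
      _ = 0 := by rw [h2, mul_sub, ra x.h1]; simp
  · calc Φ * x.v = Φ * (V * Φ * x.v) := by rw [mul_assoc, ← mul_assoc Φ, h1, one_mul]
      _ = 0 := by rw [h2, sub_mul, mul_assoc, x.h1]; simp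

theorem exists_adj (N : Nice R) (x : Vx R) : ∃ y, Adj x y := by
  obtain ⟨V, Φ, h1, -, h3, h4⟩ := compl N x
  have hw : V * N.x1 ≠ 0 :=
    N.ne_zero_left (b := N.y1 * Φ) (by rw [mul_assoc, ra h1, one_mul, N.y1x1])
  have hz : V * N.x0 * (N.y0 * Φ) * (V * N.x1) = 0 := by
    simp [mul_assoc, ra h1, N.y0x1]
  refine ⟨⟨V * N.x0, N.y0 * Φ, by rw [mul_assoc, ra h1, one_mul, N.y0x0],
    ne_one_of_right hw hz⟩, ⟨?_, ?_⟩, ne_one_of_right hw ?_⟩
  · change x.φ * (V * N.x0) = 0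
    rw [ra h3, zero_mul]
  · change N.y0 * Φ * x.v = 0
    rw [mul_assoc, h4, mul_zero]
  · rw [add_mul, mul_assoc, ra h3, zero_mul, mul_zero, zero_add]; exact hz

theorem connected (N : Nice R) (x y : Vx R) : Relation.ReflTransGen Adj x y := by
  classical
  obtain ⟨u, hu⟩ := exists_adj N x
  obtain ⟨u', hu'⟩ := exists_adj N y
  obtain ⟨a, b, h, z, hz, -⟩ := gpos N {u, u'}
  exact (((Relation.ReflTransGen.single (hu.ref h)).tail (hz u (by simp))).tail
    (hz u' (by simp)).symm).tail (hu'.ref h).symm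

theorem link_connected (N : Nice R) {x y y' : Vx R} (hy : Adj x y) (hy' : Adj x y') :
    Relation.ReflTransGen (Tri x) y y' := by
  obtain ⟨V, Φ, h1, h2, h3, h4⟩ := compl N x
  let lam : Vx R → Vx R := fun u => ⟨V * u.v, u.φ * Φ, by rw [mul_assoc, ra h1, one_mul, u.h1],
    ne_one_of_right (v_ne N x) (by simp [mul_assoc, h4])⟩
  have hsurj : ∀ y, Adj x y → ∃ u, lam u = y := by
    intro y hy
    have e1 : V * (Φ * y.v) = y.v := by
      rw [← mul_assoc, h2, sub_mul, mul_assoc, hy.1.1]; simp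
    have e2 : y.φ * V * Φ = y.φ := by
      rw [mul_assoc, h2, mul_sub, ra hy.1.2]; simp
    refine ⟨⟨Φ * y.v, y.φ * V, by rw [mul_assoc, e1, y.h1], fun h => hy.2 ?_⟩, ?_⟩
    · have : y.v * y.φ = V * Φ := by
        calc y.v * y.φ = V * (Φ * y.v * (y.φ * V)) * Φ := by
              rw [← mul_assoc, e1, mul_assoc, e2]
          _ = V * Φ := by rw [h, mul_one]
      rw [this, h2]; abel
    · ext
      · exact e1
      · exact e2
  have ho : ∀ u, Ort x (lam u) := fun u =>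
    ⟨by change x.φ * (V * u.v) = 0; rw [ra h3, zero_mul],
      by change u.φ * Φ * x.v = 0; rw [mul_assoc, h4, mul_zero]⟩
  obtain ⟨u, rfl⟩ := hsurj y hy
  obtain ⟨u', rfl⟩ := hsurj y' hy'
  have hl : ∀ p q, Adj p q → Tri x (lam p) (lam q) := by
    refine fun p q hpq => ⟨ho p, ho q, ⟨?_, ?_⟩, fun h => hpq.2 ?_⟩
    · change p.φ * Φ * (V * q.v) = 0
      rw [mul_assoc, ra h1, one_mul, hpq.1.1]
    · change q.φ * Φ * (V * p.v) = 0
      rw [mul_assoc, ra h1, one_mul, hpq.1.2]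
    · change x.v * x.φ + V * p.v * (p.φ * Φ) + V * q.v * (q.φ * Φ) = 1 at h
      have := congrArg (fun t => Φ * t * V) h
      simpa [mul_add, add_mul, mul_assoc, ra h1, h1, h3] using this
  have hc := connected N u u'
  clear hy'
  induction hc with
  | refl => exact Relation.ReflTransGen.refl
  | tail _ hpq ih => exact ih.tail (hl _ _ hpq)

end Vx

end Vale.Agent.P193
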