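import Vale.Agent.P193.G1a

/-! Generation by elementary units. -/

namespace Vale.Agent.P193

variable {R : Type} [Ring R]

/-- corner embedding of units -/
def Dh {V Φ : R} (h : Φ * V = 1) : Rˣ →* Rˣ where
  toFun g := ⟨V * g * Φ + (1 - V * Φ), V * ↑g⁻¹ * Φ + (1 - V * Φ), by
      simp only [mul_add, add_mul, mul_sub, sub_mul, mul_assoc, ra h, one_mul, mul_one,
        Units.mul_inv_cancel_left]
      abel, by
      simp only [mul_add, add_mul, mul_sub, sub_mul, mul_assoc, ra h, one_mul, mul_one,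
        Units.inv_mul_cancel_left]
      abel⟩
  map_one' := by ext; simp
  map_mul' g g' := by
    ext
    simp only [Units.val_mul, mul_add, add_mul, mul_sub, sub_mul, mul_assoc, ra h, one_mul, mul_one]
    abel

theorem Dh_val {V Φ : R} (h : Φ * V = 1) (g : Rˣ) :
    (Dh h g : R) = V * g * Φ + (1 - V * Φ) := rfl

theorem Dh_inv_val {V Φ : R} (h : Φ * V = 1) (g : Rˣ) :
    (↑(Dh h g)⁻¹ : R) = V * ↑g⁻¹ * Φ + (1 - V * Φ) := rfl

theorem Dh_surj {V Φ : R} (h : Φ * V = 1) (g : Rˣ) (h1 : (g : R) * (1 - V * Φ) = 1 - V * Φ)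
    (h2 : (1 - V * Φ) * g = 1 - V * Φ) : ∃ g', g = Dh h g' := by
  have h3 : (g : R) * (V * Φ) = g - 1 + V * Φ := by
    rw [mul_sub, mul_one] at h1
    rw [← sub_sub_cancel (g : R) (g * (V * Φ)), h1]; abel
  have h4 : V * Φ * g = g - 1 + V * Φ := by
    rw [sub_mul, one_mul] at h2
    rw [← sub_sub_cancel (g : R) (V * Φ * g), h2]; abel
  have h5 : (g : R) * (V * Φ) = V * Φ * g := by rw [h3, h4]
  have h6 : (↑g⁻¹ : R) * (V * Φ) = V * Φ * ↑g⁻¹ := by
    calc (↑g⁻¹ : R) * (V * Φ) = ↑g⁻¹ * (V * Φ * g) * ↑g⁻¹ := by simp [mul_assoc]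
      _ = V * Φ * ↑g⁻¹ := by rw [← h5]; simp
  refine ⟨⟨Φ * g * V, Φ * ↑g⁻¹ * V, ?_, ?_⟩, ?_⟩
  · calc Φ * g * V * (Φ * ↑g⁻¹ * V) = Φ * (g * (V * Φ)) * ↑g⁻¹ * V := by simp only [mul_assoc]
      _ = 1 := by rw [h5]; simp [mul_assoc, ra h, h]
  · calc Φ * ↑g⁻¹ * V * (Φ * g * V) = Φ * (↑g⁻¹ * (V * Φ)) * g * V := by simp only [mul_assoc]
      _ = 1 := by rw [h6]; simp [mul_assoc, ra h, h]
  · ext
    rw [Dh_val]
    change (g : R) = V * (Φ * g * V) * Φ + (1 - V * Φ)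
    have : V * (Φ * g * V) * Φ = V * Φ * (g * (V * Φ)) := by simp only [mul_assoc]
    rw [this, h5, ← mul_assoc, mul_assoc V Φ, ra h, one_mul, h4]
    abel

theorem Dh_conj {v φ v' φ' : R} (h : φ * v = 1) (h' : φ' * v' = 1) (u g : Rˣ)
    (h1 : (u : R) * v = v') (h2 : φ' * u = φ) : Dh h' g = u * Dh h g * u⁻¹ := by
  ext
  simp only [Units.val_mul, Dh_val, ← h1, ← h2, mul_add, add_mul, mul_sub, sub_mul, mul_assoc,
    Units.mul_inv, mul_one, one_mul]

/-- the swap of two orthogonal pairs -/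
def Nice.sw (N : Nice R) (v φ v' φ' : R) (h1 : φ * v' = 0) (h2 : φ' * v = 0) : Rˣ :=
  N.tv v φ' 1 h2 * N.tv v' φ 1 h1 * N.tv v φ' 1 h2

theorem Nice.sw_val (N : Nice R) {v φ v' φ' : R} (h1 : φ * v' = 0) (h2 : φ' * v = 0)
    (h3 : φ * v = 1) (h4 : φ' * v' = 1) :
    (N.sw v φ v' φ' h1 h2 : R) = 1 + v * φ + v' * φ' + v * φ' + v' * φ := by
  simp only [Nice.sw, Units.val_mul, Nice.tv_val, mul_add, add_mul, mul_assoc, ra h1, ra h2, ra h3,
    ra h4, mul_one, one_mul, zero_mul, mul_zero]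
  have := N.add_self (v * φ')
  calc _ = 1 + v * φ + v' * φ' + v * φ' + v' * φ + (v * φ' + v * φ') := by abel
    _ = _ := by rw [this, add_zero]

theorem Nice.sw_v (N : Nice R) {v φ v' φ' : R} (h1 : φ * v' = 0) (h2 : φ' * v = 0)
    (h3 : φ * v = 1) (h4 : φ' * v' = 1) :
    ((N.sw v φ v' φ' h1 h2 : R) * v = v' ∧ φ' * (N.sw v φ v' φ' h1 h2 : R) = φ) ∧
      ((N.sw v φ v' φ' h1 h2 : R) * v' = v ∧ φ * (N.sw v φ v' φ' h1 h2 : R) = φ') := by
  rw [N.sw_val h1 h2 h3 h4]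
  simp only [mul_add, add_mul, mul_assoc, ra h1, ra h2, ra h3, ra h4, h1, h2, h3, h4, mul_one,
    one_mul, zero_mul, mul_zero, add_zero]
  refine ⟨⟨?_, ?_⟩, ?_, ?_⟩
  · rw [N.add_self, zero_add]
  · rw [N.add_self, zero_add]
  · rw [N.add_self, zero_add]
  · rw [N.add_self, zero_add]

open Vx in
theorem Nice.generation (N : Nice R) {o o' : Vx R} (h : Adj o o') (K : Subgroup Rˣ)
    (hst : ∀ g : Rˣ, g • o = o → g ∈ K) (w : Rˣ) (hw : w ∈ K) (hwo : w • o = o') (g : Rˣ) :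
    g ∈ K := by
  have key : ∀ y, Relation.ReflTransGen Adj o y → ∃ k ∈ K, k • o = y := by
    intro y hy
    induction hy with
    | refl => exact ⟨1, K.one_mem, one_smul _ _⟩
    | tail _ hyz ih =>
      obtain ⟨k, hk, rfl⟩ := ih
      have h1 := hyz.smul k⁻¹
      rw [inv_smul_smul] at h1
      obtain ⟨u, hu1, hu2⟩ := trans2 N h h1
      refine ⟨k * u * w, K.mul_mem (K.mul_mem hk (hst u hu1)) hw, ?_⟩
      rw [mul_smul, mul_smul, hwo, hu2, smul_inv_smul]
  obtain ⟨k, hk, hko⟩ := key (g • o) (connected N _ _)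
  have := K.mul_mem hk (hst (k⁻¹ * g) (by rw [mul_smul, ← hko, inv_smul_smul]))
  simpa using this

section full

variable (N : Nice R) {J : Type} [Fintype J] {v φ : J → R} (ho : Orth v φ)
  (hs : ∑ i, v i * φ i = 1)

include hs

theorem Nice.tv_col (a : J) (r : R) (h : φ a * r = 0) :
    N.tv r (φ a) 1 h ∈ Subgroup.closure (N.elem ho) := by
  classical
  have key : ∀ s : Finset J, a ∉ s → ∃ u ∈ Subgroup.closure (N.elem ho),
      (u : R) = 1 + (∑ i ∈ s, v i * (φ i * r)) * φ a := by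
    intro s
    induction s using Finset.induction_on with
    | empty => exact fun _ => ⟨1, Subgroup.one_mem _, by simp⟩
    | insert j s hj ih =>
      intro ha
      rw [Finset.mem_insert, not_or] at ha
      obtain ⟨u, hu, hu'⟩ := ih ha.2
      refine ⟨u * N.tv (v j) (φ a) (φ j * r) (ho.off a j ha.1), Subgroup.mul_mem _ hu
        (Subgroup.subset_closure ⟨j, a, Ne.symm ha.1, _, rfl⟩), ?_⟩
      rw [Units.val_mul, hu', Nice.tv_val, Finset.sum_insert hj]
      simp only [mul_add, add_mul, mul_assoc, ra (ho.off a j ha.1), one_mul, mul_one, zero_mul,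
        mul_zero]
      abel
  obtain ⟨u, hu, hu'⟩ := key (Finset.univ.erase a) (Finset.notMem_erase _ _)
  have : ∑ i ∈ Finset.univ.erase a, v i * (φ i * r) = r := by
    rw [Finset.sum_erase _ (by rw [h, mul_zero])]
    simp only [← mul_assoc]
    rw [← Finset.sum_mul, hs, one_mul]
  rw [this] at hu'
  convert hu using 1
  ext; rw [hu', Nice.tv_val, mul_one]

theorem Nice.tv_row (a : J) (r : R) (h : r * v a = 0) :
    N.tv (v a) r 1 h ∈ Subgroup.closure (N.elem ho) := by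
  classical
  have key : ∀ s : Finset J, a ∉ s → ∃ u ∈ Subgroup.closure (N.elem ho),
      (u : R) = 1 + v a * (∑ i ∈ s, r * v i * φ i) := by
    intro s
    induction s using Finset.induction_on with
    | empty => exact fun _ => ⟨1, Subgroup.one_mem _, by simp⟩
    | insert j s hj ih =>
      intro ha
      rw [Finset.mem_insert, not_or] at ha
      obtain ⟨u, hu, hu'⟩ := ih ha.2
      refine ⟨N.tv (v a) (φ j) (r * v j) (ho.off j a (Ne.symm ha.1)) * u, Subgroup.mul_mem _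
        (Subgroup.subset_closure ⟨a, j, ha.1, _, rfl⟩) hu, ?_⟩
      rw [Units.val_mul, hu', Nice.tv_val, Finset.sum_insert hj]
      simp only [mul_add, add_mul, mul_assoc, ra (ho.off j a (Ne.symm ha.1)), one_mul, mul_one,
        zero_mul, mul_zero]
      abel
  obtain ⟨u, hu, hu'⟩ := key (Finset.univ.erase a) (Finset.notMem_erase _ _)
  have : ∑ i ∈ Finset.univ.erase a, r * v i * φ i = r := by
    rw [Finset.sum_erase _ (by rw [h, zero_mul])]
    simp only [mul_assoc]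
    rw [← Finset.mul_sum, hs, mul_one]
  rw [this] at hu'
  convert hu using 1
  ext; rw [hu', Nice.tv_val, mul_one]

theorem Nice.sw_mem (a : J) {v' φ' : R} (h1 : φ a * v' = 0) (h2 : φ' * v a = 0) :
    N.sw (v a) (φ a) v' φ' h1 h2 ∈ Subgroup.closure (N.elem ho) :=
  Subgroup.mul_mem _ (Subgroup.mul_mem _ (N.tv_row ho hs a φ' h2) (N.tv_col ho hs a v' h1))
    (N.tv_row ho hs a φ' h2)

omit hs [Fintype J] in
theorem Nice.Dh_norm (a : J) (g : Rˣ) {u : Rˣ} (hu : u ∈ Subgroup.closure (N.elem ho)) :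
    Dh (ho.diag a) g * u * (Dh (ho.diag a) g)⁻¹ ∈ Subgroup.closure (N.elem ho) := by
  classical
  induction hu using Subgroup.closure_induction with
  | mem u hu =>
    obtain ⟨i, j, hij, r, rfl⟩ := hu
    refine Subgroup.subset_closure ⟨i, j, hij,
      (if i = a then (g : R) else 1) * r * (if j = a then (↑g⁻¹ : R) else 1), ?_⟩
    have e1 : (Dh (ho.diag a) g : R) * v i = v i * (if i = a then (g : R) else 1) := by
      rw [Dh_val]
      split_ifs with h
      · subst h; simp [add_mul, sub_mul, mul_assoc, ho.diag]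
      · simp [add_mul, sub_mul, mul_assoc, ho.off a i (Ne.symm h)]
    have e2 : φ j * (↑(Dh (ho.diag a) g)⁻¹ : R) = (if j = a then (↑g⁻¹ : R) else 1) * φ j := by
      rw [Dh_inv_val]
      split_ifs with h
      · subst h; simp [mul_add, mul_sub, ← mul_assoc, ho.diag]
      · simp [mul_add, mul_sub, ← mul_assoc, ho.off j a h]
    ext
    simp only [Units.val_mul, Nice.tv_val, mul_add, add_mul, mul_one, Units.mul_inv]
    rw [← mul_assoc, ← mul_assoc, e1, mul_assoc _ (φ j), e2]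
    simp only [mul_assoc]
  | one => simpa using Subgroup.one_mem _
  | mul x y _ _ hx hy =>
    have := Subgroup.mul_mem _ hx hy
    simpa [mul_assoc] using this
  | inv x _ hx =>
    have := Subgroup.inv_mem _ hx
    simpa [mul_assoc] using this

theorem Nice.Dh_mem {a b : J} (hab : a ≠ b) (g : Rˣ) :
    Dh (ho.diag a) g ∈ Subgroup.closure (N.elem ho) := by
  set G := Subgroup.closure (N.elem ho) with hG
  have hrel : ∀ {p q : R} (h : q * p = 1) (u : Rˣ), u ∈ G → (u : R) * v a = p → q * u = φ a →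
      ∀ g : Rˣ, (Dh (ho.diag a) g)⁻¹ * Dh h g ∈ G := by
    intro p q h u hu h1 h2 g
    rw [Dh_conj (ho.diag a) h u g h1 h2]
    have := N.Dh_norm ho a g⁻¹ hu
    rw [map_inv, inv_inv] at this
    simpa [mul_assoc] using G.mul_mem this (G.inv_mem hu)
  have hsub : ∀ {x y : R} (hyx : y * x = 1), ∃ h : y * φ a * (v a * x) = 1,
      ∀ g : Rˣ, (Dh (ho.diag a) g)⁻¹ * Dh h g ∈ G := by
    intro x y hyx
    have h : y * φ a * (v a * x) = 1 := by rw [mul_assoc, ra (ho.diag a), one_mul, hyx]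
    have e1 : φ b * (v a * x) = 0 := by rw [ra (ho.off b a hab.symm), zero_mul]
    have e2 : y * φ a * v b = 0 := by rw [mul_assoc, ho.off a b hab, mul_zero]
    have s1 := N.sw_v (ho.off a b hab) (ho.off b a hab.symm) (ho.diag a) (ho.diag b)
    have s2 := N.sw_v e1 e2 (ho.diag b) h
    refine ⟨h, hrel h (N.sw (v b) (φ b) _ _ e1 e2 *
      N.sw (v a) (φ a) _ _ (ho.off a b hab) (ho.off b a hab.symm))
      (G.mul_mem (N.sw_mem ho hs b e1 e2) (N.sw_mem ho hs a _ _)) ?_ ?_⟩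
    · rw [Units.val_mul, mul_assoc, s1.1.1, s2.1.1]
    · rw [Units.val_mul, ← mul_assoc, s2.1.2, s1.1.2]
  obtain ⟨h0, k0⟩ := hsub N.y0x0
  obtain ⟨h1, k1⟩ := hsub N.y1x1
  have t1 : ∀ r : R, N.θ r * N.θ 1 = N.θ r := fun r => by rw [← map_mul, mul_one]
  have t2 : ∀ r : R, N.θ 1 * N.θ r = N.θ r := fun r => by rw [← map_mul, one_mul]
  have t3 : ∀ u u' : R, u * u' = 1 → (N.θ u + (1 - N.θ 1)) * (N.θ u' + (1 - N.θ 1)) = 1 := by
    intro u u' h
    simp only [mul_add, add_mul, mul_sub, sub_mul, t1, t2, mul_one, one_mul]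
    rw [← map_mul, h]; abel
  let T : Rˣ := ⟨N.θ g + (1 - N.θ 1), N.θ ↑g⁻¹ + (1 - N.θ 1), t3 _ _ g.mul_inv, t3 _ _ g.inv_mul⟩
  have hT : Dh (ho.diag a) T = Dh h0 g * Dh h1 T := by
    ext
    rw [Units.val_mul, Dh_val, Dh_val, Dh_val]
    have e1 : (T : R) = N.x0 * g * N.y0 + N.x1 * T * N.y1 := by
      change N.θ g + (1 - N.θ 1) = N.x0 * g * N.y0 + N.x1 * (N.θ g + (1 - N.θ 1)) * N.y1
      have a1 := N.swindle g
      have a2 := N.swindle 1
      have a3 := N.sum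
      simp only [mul_add, add_mul, mul_sub, sub_mul, mul_one] at a2 ⊢
      calc N.θ g + (1 - N.θ 1) = (N.x0 * g * N.y0 + N.x1 * N.θ g * N.y1) +
            ((N.x0 * N.y0 + N.x1 * N.y1) - (N.x0 * N.y0 + N.x1 * N.θ 1 * N.y1)) := by
            rw [← a1, ← a2, a3]
        _ = _ := by abel
    have e2 : v a * φ a = v a * (N.x0 * (N.y0 * φ a)) + v a * (N.x1 * (N.y1 * φ a)) := by
      rw [← mul_add, ← mul_assoc N.x0, ← mul_assoc N.x1, ← add_mul, N.sum, one_mul]
    conv_lhs => rw [e1, e2]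
    simp only [mul_add, add_mul, mul_sub, sub_mul, mul_assoc, ra (ho.diag a), ra N.y0x1, one_mul,
      mul_one, zero_mul, mul_zero]
    abel
  have a1 := k0 g
  have a2 := N.Dh_norm ho a T (G.inv_mem (k1 T))
  have a3 := G.mul_mem a2 (G.inv_mem a1)
  have : Dh (ho.diag a) g = Dh (ho.diag a) T * ((Dh (ho.diag a) T)⁻¹ * Dh h1 T)⁻¹ *
      (Dh (ho.diag a) T)⁻¹ * ((Dh (ho.diag a) g)⁻¹ * Dh h0 g)⁻¹ := by
    have key : ∀ A B C D : Rˣ, A = B * C → D = A * (A⁻¹ * C)⁻¹ * A⁻¹ * (D⁻¹ * B)⁻¹ := by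
      rintro _ B C D rfl
      group
    exact key _ _ _ _ hT
  rw [this]
  exact a3

theorem Nice.gen_full [Nontrivial J] (g : Rˣ) : g ∈ Subgroup.closure (N.elem ho) := by
  obtain ⟨a, b, hab⟩ := exists_pair_ne J
  have hb : v b * N.x1 ≠ 0 :=
    N.ne_zero_left (b := N.y1 * φ b) (by rw [mul_assoc, ra (ho.diag b), one_mul, N.y1x1])
  have e0 : v a * φ a * (v b * N.x1) = 0 := by simp [mul_assoc, ra (ho.off a b hab)]
  have e1 : v b * N.x0 * (N.y0 * φ b) * (v b * N.x1) = 0 := by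
    simp [mul_assoc, ra (ho.diag b), N.y0x1]
  let o : Vx R := ⟨v a, φ a, ho.diag a, ne_one_of_right hb e0⟩
  let o' : Vx R := ⟨v b * N.x0, N.y0 * φ b, by rw [mul_assoc, ra (ho.diag b), one_mul, N.y0x0],
    ne_one_of_right hb e1⟩
  have f1 : φ a * (v b * N.x0) = 0 := by rw [ra (ho.off a b hab), zero_mul]
  have f2 : N.y0 * φ b * v a = 0 := by rw [mul_assoc, ho.off b a hab.symm, mul_zero]
  have hadj : Vx.Adj o o' := ⟨⟨f1, f2⟩, ne_one_of_right hb (by
    rw [add_mul]; change v a * φ a * _ + v b * N.x0 * (N.y0 * φ b) * _ = 0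
    rw [e0, e1, add_zero])⟩
  refine N.generation hadj _ (fun h hh => ?_) _ (N.sw_mem ho hs a f1 f2)
    (Vx.smul_eq_iff.2 (N.sw_v f1 f2 o.h1 o'.h1).1) g
  obtain ⟨h1, h2⟩ := Vx.smul_eq_iff.1 hh
  obtain ⟨V, Φ, c1, c2, c3, c4⟩ := Vx.compl N o
  change (h : R) * v a = v a at h1
  change φ a * h = φ a at h2
  change V * Φ = 1 - v a * φ a at c2
  obtain ⟨g', rfl⟩ := Dh_surj c1 h (by rw [c2, sub_sub_cancel, ← mul_assoc, h1])
    (by rw [c2, sub_sub_cancel, mul_assoc, h2])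
  have s := N.sw_v c3 c4 (ho.diag a) c1
  rw [Dh_conj (ho.diag a) c1 _ g' s.1.1 s.1.2]
  exact Subgroup.mul_mem _ (Subgroup.mul_mem _ (N.sw_mem ho hs a c3 c4) (N.Dh_mem ho hs hab g'))
    (Subgroup.inv_mem _ (N.sw_mem ho hs a c3 c4))

end full

theorem Nice.gen_corner' (N : Nice R) {J : Type} [Fintype J] [Nontrivial J] {v φ : J → R}
    (ho : Orth v φ) (g : Rˣ) (h1 : (g : R) * (1 - ∑ i, v i * φ i) = 1 - ∑ i, v i * φ i)
    (h2 : (1 - ∑ i, v i * φ i) * g = 1 - ∑ i, v i * φ i) :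
    g ∈ Subgroup.closure (N.elem ho) := by
  obtain ⟨V, Φ, c1, c2⟩ := N.eqv_sum ho (s := Finset.univ) Finset.univ_nonempty
  obtain ⟨g', rfl⟩ := Dh_surj c1 g (by rw [c2, h1]) (by rw [c2, h2])
  have e1 : ∀ i, V * (Φ * v i) = v i := fun i => by
    rw [← mul_assoc, c2, ho.sum_mul_mem (Finset.mem_univ i)]
  have e2 : ∀ i, φ i * V * Φ = φ i := fun i => by
    rw [mul_assoc, c2, ho.mul_sum_mem (Finset.mem_univ i)]
  have ho' : Orth (fun i => Φ * v i) (fun i => φ i * V) :=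
    ⟨fun i => by rw [mul_assoc, e1, ho.diag], fun i j hij => by rw [mul_assoc, e1, ho.off i j hij]⟩
  have hs : ∑ i, Φ * v i * (φ i * V) = 1 := by
    calc ∑ i, Φ * v i * (φ i * V) = Φ * (∑ i, v i * φ i) * V := by
          rw [Finset.mul_sum, Finset.sum_mul]; simp only [mul_assoc]
      _ = 1 := by rw [← c2, ← mul_assoc, c1, one_mul, c1]
  have hg := N.gen_full ho' hs g'
  have : (Subgroup.closure (N.elem ho')).map (Dh c1) ≤ Subgroup.closure (N.elem ho) := by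
    rw [MonoidHom.map_closure]
    refine Subgroup.closure_mono ?_
    rintro _ ⟨_, ⟨i, j, hij, r, rfl⟩, rfl⟩
    refine ⟨i, j, hij, r, ?_⟩
    ext
    rw [Dh_val, Nice.tv_val, Nice.tv_val, mul_add, add_mul, mul_one]
    have : V * (Φ * v i * r * (φ j * V)) * Φ = v i * r * φ j := by
      calc V * (Φ * v i * r * (φ j * V)) * Φ = V * (Φ * v i) * r * (φ j * V * Φ) := by
            simp only [mul_assoc]
        _ = _ := by rw [e1, e2]
    rw [this]; abel
  exact this ⟨g', hg, rfl⟩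

end Vale.Agent.P193
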