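import Vale.Agent.P193.G1b

/-! Simplicity. -/

namespace Vale.Agent.P193

variable {R : Type} [Ring R]

theorem Nice.tv_inv_val (N : Nice R) (a b r : R) (h : b * a = 0) :
    (↑(N.tv a b r h)⁻¹ : R) = 1 + a * r * b := rfl

theorem Nice.tv_conj (N : Nice R) (a b r : R) (h : b * a = 0) (u : Rˣ) :
    (↑(u * N.tv a b r h * u⁻¹) : R) = 1 + u * a * r * (b * ↑u⁻¹) := by
  rw [Units.val_mul, Units.val_mul, Nice.tv_val, mul_add, add_mul, mul_one, Units.mul_inv]
  simp only [mul_assoc]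

theorem Nice.exists_fix (N : Nice R) (M : Subgroup Rˣ) [hM : M.Normal] {g : Rˣ} (hg : g ∈ M)
    (hg1 : g ≠ 1) : ∃ h ∈ M, h ≠ 1 ∧ N.y0 * (h : R) = N.y0 := by
  classical
  obtain ⟨a, b, b', h1, h2, h3⟩ := N.nc g hg1
  obtain ⟨a1, b1, w, ψ, h4, h5, hF⟩ := N.gp {a, g * a}
  have h6 : ψ * (a * a1) = 0 := by rw [← mul_assoc]; exact (hF a (by simp)).1
  have h7 : ψ * (g * (a * a1)) = 0 := by
    have := (hF (g * a) (by simp)).1
    simpa only [mul_assoc] using this
  let τ := N.tv (a * a1) ψ 1 h6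
  let h := g * τ * g⁻¹ * τ⁻¹
  have hh : h ∈ M := by
    have := M.mul_mem hg (hM.conj_mem _ (M.inv_mem hg) τ)
    simpa [h, mul_assoc] using this
  have hψ : ψ * (h : R) = ψ := by
    simp only [h, τ, Units.val_mul, Nice.tv_val, Nice.tv_inv_val, mul_add, add_mul, mul_assoc,
      mul_one, one_mul, Units.mul_inv, Units.mul_inv_cancel_left]
    have e1 : ∀ t, ψ * (a * (a1 * t)) = 0 := fun t => by rw [← mul_assoc a, ra h6, zero_mul]
    have e2 : ∀ t, ψ * (g * (a * (a1 * t))) = 0 := fun t => by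
      rw [← mul_assoc a, ← mul_assoc (g : R), ← mul_assoc, h7, zero_mul]
    simp only [e1, e2, add_zero]
  have hne : h ≠ 1 := by
    intro h0
    have e0 : g * τ = τ * g := by
      have : g * τ = h * τ * g := by simp [h]
      rw [this, h0, one_mul]
    have e1 := congrArg (fun u : Rˣ => b1 * b * (u : R) * w) e0
    simp only [τ, Units.val_mul, Nice.tv_val, mul_add, add_mul, mul_assoc, mul_one, one_mul, h5,
      ra h2, zero_mul, mul_zero, add_zero] at e1
    have e2 : b1 * (b * (g * (a * a1))) = 1 := by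
      rw [← mul_assoc (g : R), ← mul_assoc b, ← mul_assoc b, h3, one_mul, h4]
    rw [e2] at e1
    exact N.nontriv (by simpa using e1)
  have ha : a * a1 ≠ 0 := N.ne_zero_left (b := b1 * b') (by rw [mul_assoc, ra h1, one_mul, h4])
  let p : Vx R := ⟨w, ψ, h5, ne_one_of_right ha (by rw [mul_assoc, h6, mul_zero])⟩
  let q : Vx R := ⟨N.x0, N.y0, N.y0x0,
    ne_one_of_right (N.ne_zero_left N.y1x1) (by rw [mul_assoc, N.y0x1, mul_zero])⟩
  obtain ⟨u, hu⟩ := Vx.trans1 N p q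
  have hu2 : N.y0 * u = ψ := (Vx.smul_eq_iff.1 hu).2
  refine ⟨u * h * u⁻¹, hM.conj_mem _ hh u, fun h0 => hne ?_, ?_⟩
  · have : h = u⁻¹ * (u * h * u⁻¹) * u := by group
    rw [this, h0]; simp
  · rw [Units.val_mul, Units.val_mul, ← mul_assoc, ← mul_assoc, hu2, hψ, ← hu2]
    simp

theorem Nice.exists_tv (N : Nice R) (M : Subgroup Rˣ) [hM : M.Normal] {g : Rˣ} (hg : g ∈ M)
    (hg1 : g ≠ 1) : ∃ r, r ≠ 0 ∧ N.tv N.x1 N.y0 r N.y0x1 ∈ M := by
  obtain ⟨h, hh, h1, h2⟩ := N.exists_fix M hg hg1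
  have hx : ∀ t : R, N.y0 * t = 0 → N.x1 * (N.y1 * t) = t := fun t ht => by
    calc N.x1 * (N.y1 * t) = (N.x0 * N.y0 + N.x1 * N.y1) * t := by
          rw [add_mul, mul_assoc, ht, mul_zero, zero_add, mul_assoc]
      _ = t := by rw [N.sum, one_mul]
  have h3 : ∀ t : R, N.y0 * (((h : R) - 1) * t) = 0 := fun t => by
    rw [← mul_assoc, mul_sub, h2, mul_one, sub_self, zero_mul]
  by_cases hc : ((h : R) - 1) * N.x1 = 0
  · have e : N.x1 * (N.y1 * (((h : R) - 1) * N.x0)) * N.y0 = h - 1 := by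
      rw [hx _ (h3 _)]
      calc ((h : R) - 1) * N.x0 * N.y0 = (h - 1) * (N.x0 * N.y0 + N.x1 * N.y1) := by
            rw [mul_add, ← mul_assoc _ N.x1, hc, zero_mul, add_zero, mul_assoc]
        _ = h - 1 := by rw [N.sum, mul_one]
    refine ⟨N.y1 * (((h : R) - 1) * N.x0), fun h0 => h1 ?_, ?_⟩
    · rw [h0, mul_zero, zero_mul] at e
      ext
      exact (sub_eq_zero.1 e.symm)
    · convert hh using 1
      ext
      rw [Nice.tv_val, e]; abel
  · refine ⟨N.y1 * (((h : R) - 1) * N.x1), fun h0 => hc ?_, ?_⟩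
    · rw [← hx _ (h3 N.x1), h0, mul_zero]
    · have h4 : N.y0 * (↑h⁻¹ : R) = N.y0 := by
        conv_lhs => rw [← h2]
        simp
      let τ := N.tv N.x1 N.y0 1 N.y0x1
      have := M.mul_mem hh (hM.conj_mem _ (M.inv_mem hh) τ)
      convert this using 1
      ext
      rw [Nice.tv_val, hx _ (h3 _)]
      simp only [τ, Units.val_mul, Nice.tv_val, Nice.tv_inv_val, mul_add, add_mul, mul_assoc,
        mul_one, one_mul, Units.mul_inv, Units.mul_inv_cancel_left, h4, ra h4, ra N.y0x1, sub_mul,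
        zero_mul, mul_zero, add_zero]
      have := N.add_self (N.x1 * N.y0)
      calc _ = 1 + (↑h * (N.x1 * N.y0) - N.x1 * N.y0) + (N.x1 * N.y0 + N.x1 * N.y0) := by
            rw [this, add_zero]
        _ = _ := by abel

theorem Nice.all_tv (N : Nice R) (M : Subgroup Rˣ) [hM : M.Normal] {g : Rˣ} (hg : g ∈ M)
    (hg1 : g ≠ 1) (r : R) : N.tv N.x1 N.y0 r N.y0x1 ∈ M := by
  let P : R → Prop := fun r => N.tv N.x1 N.y0 r N.y0x1 ∈ M
  have hadd : ∀ r s, P r → P s → P (r + s) := by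
    intro r s hr hs
    have := M.mul_mem hr hs
    convert this using 1
    ext
    simp only [Units.val_mul, Nice.tv_val, mul_add, add_mul, mul_assoc, ra N.y0x1, mul_one, one_mul,
      zero_mul, mul_zero]
    abel
  have hl : ∀ (a b s : R), b * a = 0 → ∀ r, P r → P (a * s * b * r) := by
    intro a b s hba r hr
    have h1 : P ((1 + a * s * b) * r) := by
      have := hM.conj_mem _ hr (Dh N.y1x1 (N.tv a b s hba))
      convert this using 1
      ext
      rw [Nice.tv_conj, Nice.tv_val, Dh_val, Dh_inv_val, Nice.tv_val]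
      simp only [mul_add, add_mul, mul_sub, sub_mul, mul_assoc, ra N.y0x1, ra N.y1x1, mul_one,
        one_mul, zero_mul, mul_zero]
      abel
    have := hadd _ _ h1 hr
    rwa [add_mul, one_mul, add_right_comm, N.add_self, zero_add] at this
  have hr' : ∀ (a b s : R), b * a = 0 → ∀ r, P r → P (r * (a * s * b)) := by
    intro a b s hba r hr
    have h1 : P (r * (1 + a * s * b)) := by
      have := hM.conj_mem _ hr (Dh N.y0x0 (N.tv a b s hba))
      convert this using 1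
      ext
      rw [Nice.tv_conj, Nice.tv_val, Dh_val, Dh_inv_val, Nice.tv_inv_val]
      simp only [mul_add, add_mul, mul_sub, sub_mul, mul_assoc, ra N.y0x1, ra N.y0x0, mul_one,
        one_mul, zero_mul, mul_zero]
      abel
    have := hadd _ _ h1 hr
    rwa [mul_add, mul_one, add_right_comm, N.add_self, zero_add] at this
  have hdec : ∀ s : R, s = N.x0 * (N.y0 * s * N.x1) * N.y1 + N.x1 * (N.y1 * s * N.x0) * N.y0 +
      N.x0 * (N.y0 * s * N.x0) * N.y1 * (N.x1 * 1 * N.y0) +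
      N.x1 * (N.y1 * s * N.x1) * N.y0 * (N.x0 * 1 * N.y1) := by
    intro s
    calc s = (N.x0 * N.y0 + N.x1 * N.y1) * s * (N.x0 * N.y0 + N.x1 * N.y1) := by
          rw [N.sum, one_mul, mul_one]
      _ = _ := by
          simp only [mul_add, add_mul, mul_assoc, ra N.y1x1, ra N.y0x0, one_mul]
          abel
  have hL : ∀ s r, P r → P (s * r) := by
    intro s r hr
    rw [hdec s, add_mul, add_mul, add_mul, mul_assoc _ (N.x1 * 1 * N.y0),
      mul_assoc _ (N.x0 * 1 * N.y1)]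
    exact hadd _ _ (hadd _ _ (hadd _ _ (hl _ _ _ N.y1x0 _ hr) (hl _ _ _ N.y0x1 _ hr))
      (hl _ _ _ N.y1x0 _ (hl _ _ _ N.y0x1 _ hr))) (hl _ _ _ N.y0x1 _ (hl _ _ _ N.y1x0 _ hr))
  have hR : ∀ s r, P r → P (r * s) := by
    intro s r hr
    rw [hdec s, mul_add, mul_add, mul_add, ← mul_assoc _ _ (N.x1 * 1 * N.y0),
      ← mul_assoc _ _ (N.x0 * 1 * N.y1)]
    exact hadd _ _ (hadd _ _ (hadd _ _ (hr' _ _ _ N.y1x0 _ hr) (hr' _ _ _ N.y0x1 _ hr))
      (hr' _ _ _ N.y0x1 _ (hr' _ _ _ N.y1x0 _ hr))) (hr' _ _ _ N.y1x0 _ (hr' _ _ _ N.y0x1 _ hr))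
  obtain ⟨r0, h0, h1⟩ := N.exists_tv M hg hg1
  obtain ⟨s, t, hst⟩ := N.pinf r0 h0
  have := hL r _ (hR t _ (hL s _ h1))
  rwa [hst, mul_one] at this

theorem Nice.simple' (N : Nice R) : IsSimpleGroup Rˣ := by
  have hnt : Nontrivial Rˣ := ⟨⟨N.tv N.x1 N.y0 1 N.y0x1, 1, fun h => by
    have h1 := congrArg (fun u : Rˣ => N.y1 * (u : R) * N.x0) h
    simp only [Nice.tv_val, Units.val_one, mul_add, add_mul, mul_one, mul_assoc, N.y1x0, N.y0x0,
      N.y1x1, zero_add] at h1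
    exact N.nontriv h1⟩⟩
  refine ⟨fun M hM => ?_⟩
  by_cases hb : M = ⊥
  · exact Or.inl hb
  right
  obtain ⟨⟨g, hg⟩, hg1⟩ := (Subgroup.ne_bot_iff_exists_ne_one).1 hb
  have hg1' : g ≠ 1 := fun h => hg1 (Subtype.ext h)
  have h1 := N.all_tv M hg hg1'
  have h2 : ∀ r, N.tv N.x0 N.y1 r N.y1x0 ∈ M := by
    intro r
    have s := N.sw_v N.y0x1 N.y1x0 N.y0x0 N.y1x1
    set u := N.sw N.x0 N.y0 N.x1 N.y1 N.y0x1 N.y1x0
    have := hM.conj_mem _ (h1 r) u
    convert this using 1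
    ext
    have e : N.y0 * (↑u⁻¹ : R) = N.y1 := by rw [← s.1.2]; simp
    rw [Units.val_mul, Units.val_mul, Nice.tv_val, Nice.tv_val, mul_add, add_mul, mul_one,
      Units.mul_inv, ← mul_assoc, ← mul_assoc, s.2.1, mul_assoc _ N.y0, e]
  have ho : Orth ![N.x0, N.x1] ![N.y0, N.y1] := by
    constructor
    · intro i; fin_cases i
      · exact N.y0x0
      · exact N.y1x1
    · intro i j hij
      fin_cases i <;> fin_cases j <;> first | exact (hij rfl).elim | exact N.y0x1 | exact N.y1x0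
  rw [eq_top_iff]
  intro g _
  refine (Subgroup.closure_le M).2 ?_ (N.gen_full ho (by simpa using N.sum) g)
  rintro _ ⟨i, j, hij, r, rfl⟩
  fin_cases i <;> fin_cases j <;> first | exact (hij rfl).elim | exact h1 r | exact h2 r

end Vale.Agent.P193
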