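import Vale.Agent.P193.Defs

/-! Definitions for the group part. -/

namespace Vale.Agent.P193

variable {R : Type} [Ring R]

/-- orthonormal family of columns `v i` and rows `φ i` -/
structure Orth {J : Type} (v φ : J → R) : Prop where
  diag : ∀ i, φ i * v i = 1
  off : ∀ i j, i ≠ j → φ i * v j = 0

theorem Nice.add_self (N : Nice R) (r : R) : r + r = 0 := by
  calc r + r = (1 + 1) * r := by rw [add_mul, one_mul]
    _ = 0 := by rw [N.two, zero_mul]

theorem Nice.tv_sq (N : Nice R) {a b : R} (r : R) (h : b * a = 0) :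
    (1 + a * r * b) * (1 + a * r * b) = 1 := by
  have h1 : a * r * b * (a * r * b) = 0 := by
    calc a * r * b * (a * r * b) = a * r * (b * a) * (r * b) := by simp only [mul_assoc]
      _ = 0 := by rw [h]; simp
  calc (1 + a * r * b) * (1 + a * r * b)
      = 1 + (a * r * b + a * r * b) + a * r * b * (a * r * b) := by noncomm_ring
    _ = 1 := by rw [h1, N.add_self]; simp

/-- the elementary unit `1 + a r b` for `b a = 0` -/
def Nice.tv (N : Nice R) (a b r : R) (h : b * a = 0) : Rˣ :=
  ⟨1 + a * r * b, 1 + a * r * b, N.tv_sq r h, N.tv_sq r h⟩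

@[simp] theorem Nice.tv_val (N : Nice R) (a b r : R) (h : b * a = 0) :
    (N.tv a b r h : R) = 1 + a * r * b := rfl

/-- the set of elementary units of an orthonormal family -/
def Nice.elem (N : Nice R) {J : Type} {v φ : J → R} (ho : Orth v φ) : Set Rˣ :=
  {u | ∃ (i j : J) (h : i ≠ j) (r : R), u = N.tv (v i) (φ j) r (ho.off j i h.symm)}

end Vale.Agent.P193
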