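import Vale.Agent.P193.G2b
import Vale.Agent.P193.GDefs

/-! Steinberg systems over a nice ring: centrality and the swindle. -/

namespace Vale.Agent.P193

open scoped commutatorElement

section abstract

variable {R Γ : Type*} [Group Γ] [Ring R] {x : Fin 5 → Fin 5 → R → Γ}

theorem StS.inv (h : StS x) (two : ∀ r : R, r + r = 0) {i j : Fin 5} (hij : i ≠ j) (r : R) :
    (x i j r)⁻¹ = x i j r := by
  rw [inv_eq_iff_mul_eq_one, ← h.add i j hij, two, h.zero hij]

theorem StS.conjL (h : StS x) {i j k : Fin 5} (hij : i ≠ j) (hjk : j ≠ k) (hik : i ≠ k)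
    (r s : R) : x i j r * x j k s * (x i j r)⁻¹ = x i k (r * s) * x j k s := by
  rw [← h.mul i j k hij hjk hik, commutatorElement_def]; group

theorem StS.conjR (h : StS x) (two : ∀ r : R, r + r = 0) {i j k : Fin 5} (hij : i ≠ j)
    (hjk : j ≠ k) (hik : i ≠ k) (r s : R) :
    x j k r * x i j s * (x j k r)⁻¹ = x i k (s * r) * x i j s := by
  rw [← h.inv two hik, ← h.mul i j k hij hjk hik, commutatorElement_def]; group

theorem StS.conjC (h : StS x) {i j k l : Fin 5} (hij : i ≠ j) (hkl : k ≠ l) (hjk : j ≠ k)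
    (hil : i ≠ l) (r s : R) : x i j r * x k l s * (x i j r)⁻¹ = x k l s := by
  rw [(h.comm i j k l hij hkl hjk hil r s).eq]; group

/-- the Weyl element -/
def wel (x : Fin 5 → Fin 5 → R → Γ) (a b : Fin 5) : Γ := x a b 1 * x b a 1 * x a b 1

theorem conj3 (a b c y : Γ) :
    (a * b * c) * y * (a * b * c)⁻¹ = a * (b * (c * y * c⁻¹) * b⁻¹) * a⁻¹ := by group

theorem conj_mul' (a y z : Γ) : a * (y * z) * a⁻¹ = (a * y * a⁻¹) * (a * z * a⁻¹) := by group

theorem StS.wel_row (h : StS x) (two : ∀ r : R, r + r = 0) {a b j : Fin 5} (hab : a ≠ b)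
    (haj : a ≠ j) (hbj : b ≠ j) (r : R) : wel x a b * x a j r * (wel x a b)⁻¹ = x b j r := by
  rw [wel, conj3, h.conjC hab haj hab.symm haj, h.conjL hab.symm haj hbj, conj_mul',
    h.conjL hab hbj haj, h.conjC hab haj hab.symm haj, one_mul, one_mul,
    (h.comm a j b j haj hbj hbj.symm haj r r).eq, mul_assoc, ← h.add a j haj, two, h.zero haj,
    mul_one]

theorem StS.wel_col (h : StS x) (two : ∀ r : R, r + r = 0) {a b j : Fin 5} (hab : a ≠ b)
    (hja : j ≠ a) (hjb : j ≠ b) (r : R) : wel x a b * x j a r * (wel x a b)⁻¹ = x j b r := by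
  rw [wel, conj3, h.conjR two hja hab hjb, conj_mul' (x b a 1), h.conjR two hjb hab.symm hja,
    h.conjC hab.symm hja hja.symm hab.symm, mul_one, mul_one,
    (h.comm j a j b hja hjb hja.symm hjb r r).eq, mul_assoc (x j b r), ← h.add j a hja, two,
    h.zero hja, mul_one, h.conjC hab hjb hjb.symm hab]

theorem StS.comm_orth (h : StS x) {a b e : R} (hab : a * b = 0) (hba : b * a = 0)
    (hbe : b * e = b) (hea : e * a = 0) {i j k l : Fin 5} (hij : i ≠ j) (hkl : k ≠ l) :
    Commute (x i j a) (x k l b) := by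
  have h1 : ∀ {i j k : Fin 5} {a b : R}, i ≠ j → j ≠ k → i ≠ k → a * b = 0 →
      Commute (x i j a) (x j k b) := fun h1 h2 h3 h4 => by
    rw [← commutatorElement_eq_one_iff_commute, h.mul _ _ _ h1 h2 h3, h4, h.zero h3]
  by_cases hjk : j = k
  · subst hjk
    by_cases hil : i = l
    · subst hil
      obtain ⟨p, hpi, hpj, -, -⟩ := exists_other4 i j j j
      rw [← hbe, ← h.mul j p i hpj.symm hpi hkl]
      exact (commute_commutator (h1 hij hpj.symm hpi.symm hab).symm (h1 hpi hij hpj hea)).symm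
    · exact h1 hij hkl hil hab
  · by_cases hil : i = l
    · subst hil
      exact (h1 hkl hij (Ne.symm hjk) hba).symm
    · exact h.comm i j k l hij hkl hjk hil a b

/-- the subgroup generated by the elements with both indices satisfying `p` -/
def HS (x : Fin 5 → Fin 5 → R → Γ) (p : Fin 5 → Prop) : Subgroup Γ :=
  Subgroup.closure {y | ∃ i j r, i ≠ j ∧ p i ∧ p j ∧ y = x i j r}

omit [Ring R] in
theorem mem_HS {p : Fin 5 → Prop} {i j : Fin 5} (hij : i ≠ j) (hi : p i) (hj : p j) (r : R) :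
    x i j r ∈ HS x p := Subgroup.subset_closure ⟨i, j, r, hij, hi, hj, rfl⟩

theorem exists_pi {ι : Type*} [Fintype ι] [DecidableEq ι] (y : ι → R → Γ)
    (hadd : ∀ i r s, y i (r + s) = y i r * y i s)
    (hc : ∀ i j, i ≠ j → ∀ r s, Commute (y i r) (y j s)) :
    ∃ C : (ι → R) → Γ, (∀ a b, C (a + b) = C a * C b) ∧ ∀ i r, C (Pi.single i r) = y i r := by
  let ϕ : ∀ _ : ι, Multiplicative R →* Γ := fun i =>
    MonoidHom.mk' (fun r => y i r.toAdd) fun a b => hadd i _ _
  let C := MonoidHom.noncommPiCoprod ϕ fun i j hij r s => hc i j hij _ _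
  refine ⟨fun a => C fun i => Multiplicative.ofAdd (a i), fun a b => ?_, fun i r => ?_⟩
  · rw [← map_mul]; rfl
  · have : (fun j => Multiplicative.ofAdd ((Pi.single i r : ι → R) j)) =
        Pi.mulSingle i (Multiplicative.ofAdd r) := by
      funext j
      by_cases hj : j = i
      · subst hj; simp
      · simp [hj]
    show C _ = _
    rw [this]
    exact MonoidHom.noncommPiCoprod_mulSingle ϕ i _

theorem add_ext {ι : Type*} {A B : R → Γ} (hA : ∀ a b, A (a + b) = A a * A b)
    (hB : ∀ a b, B (a + b) = B a * B b) (s : Finset ι) (f : ι → R) (h : ∀ i, A (f i) = B (f i)) :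
    A (∑ i ∈ s, f i) = B (∑ i ∈ s, f i) := by
  classical
  induction s using Finset.induction_on with
  | empty =>
    have h1 := hA 0 0
    have h2 := hB 0 0
    rw [add_zero] at h1 h2
    rw [Finset.sum_empty, left_eq_mul.mp h1, left_eq_mul.mp h2]
  | insert i s hi ih => rw [Finset.sum_insert hi, hA, hB, ih, h]

theorem act_closure {U M : Type*} [Group U] (π : Γ →* U) (C : M → Γ) (ρ : U → M → M)
    (h1 : ∀ a, ρ 1 a = a) (hm : ∀ g g' a, ρ (g * g') a = ρ g (ρ g' a)) {s : Set Γ}
    (hs : ∀ y ∈ s, ∀ a, y * C a * y⁻¹ = C (ρ (π y) a)) :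
    ∀ y ∈ Subgroup.closure s, ∀ a, y * C a * y⁻¹ = C (ρ (π y) a) := by
  intro y hy
  induction hy using Subgroup.closure_induction with
  | mem y hy => exact hs y hy
  | one => intro a; simp [h1]
  | mul y z _ _ hy hz => intro a; rw [map_mul, hm, ← hy, ← hz]; group
  | inv y _ hy =>
    intro a
    have := hy (ρ (π y)⁻¹ a)
    rw [← hm, mul_inv_cancel, h1] at this
    rw [← this, map_inv]; group

theorem free_commute {α β : Type*} (A : FreeGroup α →* Γ) (B : FreeGroup β →* Γ)
    (h : ∀ a b, Commute (A (FreeGroup.of a)) (B (FreeGroup.of b))) (q : FreeGroup α)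
    (q' : FreeGroup β) : Commute (A q) (B q') := by
  induction q using FreeGroup.induction_on with
  | C1 => simp
  | of a =>
    induction q' using FreeGroup.induction_on with
    | C1 => simp
    | of b => exact h a b
    | inv_of b hb => rw [map_inv]; exact hb.inv_right
    | mul a b ha hb => rw [map_mul]; exact ha.mul_right hb
  | inv_of a ha => rw [map_inv]; exact ha.inv_left
  | mul a b ha hb => rw [map_mul]; exact ha.mul_left hb

theorem free_mul {α : Type*} (T A B : FreeGroup α →* Γ)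
    (h : ∀ a b, Commute (A (FreeGroup.of a)) (B (FreeGroup.of b)))
    (hT : ∀ a, T (FreeGroup.of a) = A (FreeGroup.of a) * B (FreeGroup.of a)) (q : FreeGroup α) :
    T q = A q * B q := by
  induction q using FreeGroup.induction_on with
  | C1 => simp
  | of a => exact hT a
  | inv_of a ha => rw [map_inv, ha, (h a a).eq, mul_inv_rev, map_inv, map_inv]
  | mul a b ha hb =>
    rw [map_mul, map_mul, map_mul, ha, hb, mul_assoc, mul_assoc, ← mul_assoc (B a),
      ← (free_commute A B h b a).eq, mul_assoc]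

end abstract

section frame

variable {R : Type} [Ring R] (N : Nice R) {v φ : Fin 5 → R} (ho : Orth v φ)

/-- the elementary units of a frame -/
def tE (i j : Fin 5) (r : R) : Rˣ :=
  if h : i ≠ j then N.tv (v i) (φ j) r (ho.off j i h.symm) else 1

theorem tE_val {i j : Fin 5} (h : i ≠ j) (r : R) : (tE N ho i j r : R) = 1 + v i * r * φ j := by
  rw [tE, dif_pos h]; rfl

theorem tE_inv_val {i j : Fin 5} (h : i ≠ j) (r : R) :
    (((tE N ho i j r)⁻¹ : Rˣ) : R) = 1 + v i * r * φ j := by
  rw [tE, dif_pos h]; rfl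

include ho in
theorem Orth.mul0 {i j k l : Fin 5} (h : j ≠ k) (r s : R) :
    v i * r * φ j * (v k * s * φ l) = 0 := by
  calc v i * r * φ j * (v k * s * φ l) = v i * r * (φ j * v k) * (s * φ l) := by
        simp only [mul_assoc]
    _ = 0 := by rw [ho.off j k h]; simp

include ho in
theorem Orth.mul1 {i j l : Fin 5} (r s : R) :
    v i * r * φ j * (v j * s * φ l) = v i * (r * s) * φ l := by
  calc v i * r * φ j * (v j * s * φ l) = v i * r * (φ j * v j) * (s * φ l) := by
        simp only [mul_assoc]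
    _ = _ := by rw [ho.diag j]; simp only [mul_one, mul_assoc]

theorem tE_StS : StS (tE N ho) := by
  refine ⟨fun i j hij r s => ?_, fun i j k l h1 h2 h3 h4 r s => ?_, fun i j k h1 h2 h3 r s => ?_⟩
  · ext
    simp only [Units.val_mul, tE_val N ho hij, mul_add, add_mul, one_mul, mul_one,
      ho.mul0 hij.symm]
    abel
  · apply Units.ext
    simp only [Units.val_mul, tE_val N ho h1, tE_val N ho h2, mul_add, add_mul, one_mul, mul_one,
      ho.mul0 h3, ho.mul0 h4.symm]
    abel
  · rw [commutatorElement_def, mul_inv_eq_iff_eq_mul, mul_inv_eq_iff_eq_mul]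
    ext
    simp only [Units.val_mul, tE_val N ho h1, tE_val N ho h2, tE_val N ho h3, mul_add, add_mul,
      one_mul, mul_one, ho.mul0 h3.symm, ho.mul0 h2.symm, ho.mul1, add_zero]
    abel

variable (hsum : ∑ i, v i * φ i = 1) {Γ : Type} [Group Γ] {x : Fin 5 → Fin 5 → R → Γ}
  (hx : StS x) (π : Γ →* Rˣ) (hπ : ∀ i j, i ≠ j → ∀ r, π (x i j r) = tE N ho i j r)

include hsum hx hπ in
theorem central_col {h : Γ} (hh : h ∈ HS x (· ≠ 0)) (h1 : π h = 1) {i : Fin 5} (hi : i ≠ 0)
    (s : R) : Commute h (x i 0 s) := by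
  obtain ⟨C, hC, hC1⟩ := exists_pi (fun (i : Fin 5) (r : R) => if i = 0 then 1 else x i 0 r)
    (fun i r s => by
      split_ifs with h
      · simp
      · exact hx.add i 0 h r s)
    (fun i j hij r s => by
      split_ifs with h h' h'
      · simp
      · simp
      · simp
      · exact hx.comm i 0 j 0 h h' (Ne.symm h') h r s)
  let col : R → Γ := fun a => C fun i => φ i * a
  have hadd : ∀ a b, col (a + b) = col a * col b := fun a b => by
    simp only [col, ← hC]; congr 1; funext i; simp [mul_add]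
  have hv : ∀ i s, col (v i * s) = if i = 0 then 1 else x i 0 s := fun i s => by
    rw [← hC1]
    simp only [col]; congr 1; funext j
    by_cases hj : j = i
    · subst hj; simp [← mul_assoc, ho.diag]
    · simp [hj, ← mul_assoc, ho.off j i hj]
  have := act_closure π col (fun g a => (g : R) * a) (by simp) (by simp [mul_assoc])
    (s := {y | ∃ i j r, i ≠ j ∧ i ≠ 0 ∧ j ≠ 0 ∧ y = x i j r}) (by
      rintro _ ⟨j, k, r, hjk, hj, hk, rfl⟩ a
      have ha : a = ∑ i, v i * (φ i * a) := by
        simp only [← mul_assoc, ← Finset.sum_mul, hsum, one_mul]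
      rw [ha]
      refine add_ext (A := fun a => x j k r * col a * (x j k r)⁻¹)
        (B := fun a => col ((π (x j k r) : R) * a)) (fun a b => by rw [hadd, conj_mul'])
        (fun a b => by rw [mul_add, hadd]) _ _ fun i => ?_
      generalize φ i * a = s
      rw [hπ j k hjk, tE_val N ho hjk, add_mul, one_mul]
      by_cases hik : i = k
      · subst hik
        have : v j * r * φ i * (v i * s) = v j * (r * s) := by
          rw [mul_assoc, ← mul_assoc (φ i), ho.diag, one_mul, mul_assoc]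
        rw [this, add_comm, hadd, hv, hv, if_neg hj, if_neg hk, hx.conjL hjk hk hj]
      · have : v j * r * φ k * (v i * s) = 0 := by
          rw [mul_assoc, ← mul_assoc (φ k), ho.off k i (Ne.symm hik), zero_mul, mul_zero]
        rw [this, add_zero, hv]
        split_ifs with h0
        · simp
        · exact hx.conjC hjk h0 (Ne.symm hik) hj r s) h hh (v i * s)
  rw [h1, Units.val_one, one_mul, hv, if_neg hi, mul_inv_eq_iff_eq_mul] at this
  exact this

include hsum hx hπ in
theorem central_row {h : Γ} (hh : h ∈ HS x (· ≠ 0)) (h1 : π h = 1) {i : Fin 5} (hi : i ≠ 0)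
    (s : R) : Commute h (x 0 i s) := by
  obtain ⟨C, hC, hC1⟩ := exists_pi (fun (i : Fin 5) (r : R) => if i = 0 then 1 else x 0 i r)
    (fun i r s => by
      split_ifs with h
      · simp
      · exact hx.add 0 i (Ne.symm h) r s)
    (fun i j hij r s => by
      split_ifs with h h' h'
      · simp
      · simp
      · simp
      · exact hx.comm 0 i 0 j (Ne.symm h) (Ne.symm h') h (Ne.symm h') r s)
  let row : R → Γ := fun a => C fun i => a * v i
  have hadd : ∀ a b, row (a + b) = row a * row b := fun a b => by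
    simp only [row, ← hC]; congr 1; funext i; simp [add_mul]
  have hv : ∀ i s, row (s * φ i) = if i = 0 then 1 else x 0 i s := fun i s => by
    rw [← hC1]
    simp only [row]; congr 1; funext j
    by_cases hj : j = i
    · subst hj; simp [mul_assoc, ho.diag]
    · simp [hj, mul_assoc, ho.off i j (Ne.symm hj)]
  have := act_closure π row (fun g a => a * ((g⁻¹ : Rˣ) : R)) (by simp) (by simp [mul_assoc])
    (s := {y | ∃ i j r, i ≠ j ∧ i ≠ 0 ∧ j ≠ 0 ∧ y = x i j r}) (by
      rintro _ ⟨j, k, r, hjk, hj, hk, rfl⟩ a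
      have ha : a = ∑ i, (a * v i) * φ i := by
        simp only [mul_assoc, ← Finset.mul_sum, hsum, mul_one]
      rw [ha]
      refine add_ext (A := fun a => x j k r * row a * (x j k r)⁻¹)
        (B := fun a => row (a * (((π (x j k r))⁻¹ : Rˣ) : R))) (fun a b => by rw [hadd, conj_mul'])
        (fun a b => by rw [add_mul, hadd]) _ _ fun i => ?_
      generalize a * v i = s
      rw [hπ j k hjk, tE_inv_val N ho hjk, mul_add, mul_one]
      by_cases hij : i = j
      · subst hij
        have : s * φ i * (v i * r * φ k) = s * r * φ k := by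
          rw [mul_assoc (v i), mul_assoc, ← mul_assoc (φ i), ho.diag, one_mul, mul_assoc]
        rw [this, add_comm, hadd, hv, hv, if_neg hj, if_neg hk,
          hx.conjR N.add_self (Ne.symm hj) hjk (Ne.symm hk)]
      · have : s * φ i * (v j * r * φ k) = 0 := by
          rw [mul_assoc (v j), mul_assoc, ← mul_assoc (φ i), ho.off i j hij, zero_mul, mul_zero]
        rw [this, add_zero, hv]
        split_ifs with h0
        · simp
        · exact hx.conjC hjk (Ne.symm h0) hk (Ne.symm hij) r s) h hh (s * φ i)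
  rw [h1, inv_one, Units.val_one, mul_one, hv, if_neg hi, mul_inv_eq_iff_eq_mul] at this
  exact this

include hsum hx hπ in
theorem central_of (hgen : Subgroup.closure {y | ∃ i j r, i ≠ j ∧ y = x i j r} = ⊤)
    {h : Γ} (hh : h ∈ HS x (· ≠ 0)) (h1 : π h = 1) (y : Γ) : Commute h y := by
  have hy : y ∈ Subgroup.closure {y | ∃ i j r, i ≠ j ∧ y = x i j r} := by rw [hgen]; trivial
  induction hy using Subgroup.closure_induction with
  | mem y hy =>
    obtain ⟨i, j, r, hij, rfl⟩ := hy
    by_cases hi : i = 0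
    · subst hi; exact central_row N ho hsum hx π hπ hh h1 (Ne.symm hij) r
    by_cases hj : j = 0
    · subst hj; exact central_col N ho hsum hx π hπ hh h1 hi r
    rw [← mul_one r, ← hx.mul i 0 j hi (Ne.symm hj) hij]
    exact (commute_commutator (central_col N ho hsum hx π hπ hh h1 hi r).symm
      (central_row N ho hsum hx π hπ hh h1 hj 1).symm).symm
  | one => simp
  | mul a b _ _ ha hb => exact ha.mul_right hb
  | inv a _ ha => exact ha.inv_right

include ho hsum in
theorem exists_theta_hom : ∃ U : R →* R, ∀ i j r,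
    U (1 + v i * r * φ j) = 1 + v i * N.θ r * φ j := by
  let Φ : R → R := fun a => ∑ i, ∑ j, v i * N.θ (φ i * a * v j) * φ j
  have hadd : ∀ a b, Φ (a + b) = Φ a + Φ b := fun a b => by
    simp only [Φ, mul_add, add_mul, map_add, Finset.sum_add_distrib]
  have hzero : Φ 0 = 0 := by simp [Φ]
  have hmul : ∀ a b, Φ (a * b) = Φ a * Φ b := fun a b => by
    have e1 : ∀ i l, φ i * (a * b) * v l = ∑ j, (φ i * a * v j) * (φ j * b * v l) := fun i l => by
      calc φ i * (a * b) * v l = φ i * a * (∑ j, v j * φ j) * (b * v l) := by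
            rw [hsum]; simp only [mul_assoc, mul_one]
        _ = _ := by simp only [Finset.mul_sum, Finset.sum_mul, mul_assoc]
    have e2 : ∀ (i j : Fin 5) (s : R), v i * s * φ j * Φ b =
        ∑ l, v i * (s * N.θ (φ j * b * v l)) * φ l := fun i j s => by
      simp only [Φ, Finset.mul_sum]
      rw [Finset.sum_eq_single j]
      · simp only [ho.mul1]
      · intro k _ hk; simp only [ho.mul0 (Ne.symm hk), Finset.sum_const_zero]
      · simp
    have e3 : Φ a * Φ b = ∑ i, ∑ j, v i * N.θ (φ i * a * v j) * φ j * Φ b := by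
      simp only [← Finset.sum_mul]; rfl
    rw [e3]
    simp only [e2]
    refine Finset.sum_congr rfl fun i _ => ?_
    rw [Finset.sum_comm]
    refine Finset.sum_congr rfl fun l _ => ?_
    rw [e1, map_sum, Finset.mul_sum, Finset.sum_mul]
    simp only [map_mul N.θ (φ i * a * _)]
  refine ⟨⟨⟨fun a => 1 + Φ (a - 1), by simp [hzero]⟩, fun a b => ?_⟩, fun i j r => ?_⟩
  · have : a * b - 1 = (a - 1) + (b - 1) + (a - 1) * (b - 1) := by noncomm_ring
    simp only [this, hadd, hmul]
    noncomm_ring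
  · show 1 + Φ (1 + v i * r * φ j - 1) = _
    rw [add_sub_cancel_left]
    congr 1
    simp only [Φ]
    have e : ∀ k l, φ k * (v i * r * φ j) * v l = (φ k * v i) * r * (φ j * v l) := fun k l => by
      simp only [mul_assoc]
    simp only [e]
    rw [Finset.sum_eq_single i, Finset.sum_eq_single j]
    · simp [ho.diag]
    · intro l _ hl; simp [ho.off j l (Ne.symm hl)]
    · simp
    · intro k _ hk; simp [ho.off k i hk]
    · simp

include hsum hx hπ in
theorem inj_HS (hgen : Subgroup.closure {y | ∃ i j r, i ≠ j ∧ y = x i j r} = ⊤) (c0 c1 : Γ)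
    (hc0 : ∀ r j k, j ≠ k → j ≠ 0 → k ≠ 0 → c0 * x j k r * c0⁻¹ = x j k (N.x0 * r * N.y0))
    (hc1 : ∀ r j k, j ≠ k → j ≠ 0 → k ≠ 0 → c1 * x j k r * c1⁻¹ = x j k (N.x1 * r * N.y1))
    (h : Γ) (hh : h ∈ HS x (· ≠ 0)) (h1 : π h = 1) : h = 1 := by
  let I := {p : Fin 5 × Fin 5 // p.1 ≠ p.2 ∧ p.1 ≠ 0 ∧ p.2 ≠ 0}
  obtain ⟨Ψ, hΨ⟩ : ∃ Ψ : (R → R) → (FreeGroup (I × R) →* Γ),
      ∀ f p, Ψ f (FreeGroup.of p) = x p.1.1.1 p.1.1.2 (f p.2) :=
    ⟨fun f => FreeGroup.lift fun p => x p.1.1.1 p.1.1.2 (f p.2), fun f p =>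
      FreeGroup.lift_apply_of⟩
  have hmem : ∀ f q, Ψ f q ∈ HS x (· ≠ 0) := fun f q => by
    induction q using FreeGroup.induction_on with
    | C1 => simp
    | of p => rw [hΨ]; exact mem_HS p.1.2.1 p.1.2.2.1 p.1.2.2.2 _
    | inv_of p hp => rw [map_inv]; exact inv_mem hp
    | mul a b ha hb => rw [map_mul]; exact mul_mem ha hb
  have hle : HS x (· ≠ 0) ≤ (Ψ id).range := by
    rw [HS, Subgroup.closure_le]
    rintro _ ⟨i, j, r, hij, hi, hj, rfl⟩
    exact ⟨FreeGroup.of (⟨(i, j), hij, hi, hj⟩, r), hΨ _ _⟩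
  obtain ⟨q, rfl⟩ := hle hh
  obtain ⟨U, hU⟩ := exists_theta_hom N ho hsum
  have e1 : π.comp (Ψ N.θ) = (Units.map U).comp (π.comp (Ψ id)) := by
    refine FreeGroup.ext_hom _ _ fun p => ?_
    ext
    simp only [MonoidHom.comp_apply, hΨ, hπ _ _ p.1.2.1, Units.coe_map, tE_val N ho p.1.2.1, hU, id]
  have h2 : π (Ψ N.θ q) = 1 := by
    have := DFunLike.congr_fun e1 q
    simp only [MonoidHom.comp_apply] at this
    rw [this, h1, map_one]
  have e2 : ∀ (c : Γ) (a b : R), (∀ r j k, j ≠ k → j ≠ 0 → k ≠ 0 →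
      c * x j k r * c⁻¹ = x j k (a * r * b)) → ∀ f : R → R,
      Ψ (fun r => a * f r * b) q = c * Ψ f q * c⁻¹ := fun c a b hc f => by
    have : Ψ (fun r => a * f r * b) = (MulAut.conj c).toMonoidHom.comp (Ψ f) := by
      refine FreeGroup.ext_hom _ _ fun p => ?_
      simp only [MonoidHom.comp_apply, hΨ]
      exact (hc _ _ _ p.1.2.1 p.1.2.2.1 p.1.2.2.2).symm
    rw [this]; rfl
  have e3 := free_mul (Ψ N.θ) (Ψ fun r => N.x0 * id r * N.y0) (Ψ fun r => N.x1 * N.θ r * N.y1)
    (fun a b => by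
      rw [hΨ, hΨ]
      refine hx.comm_orth (e := N.x1 * N.y1) ?_ ?_ ?_ ?_ a.1.2.1 b.1.2.1
      · simp only [mul_assoc]; rw [← mul_assoc N.y0, N.y0x1]; simp
      · simp only [mul_assoc]; rw [← mul_assoc N.y1, N.y1x0]; simp
      · simp only [mul_assoc]; rw [← mul_assoc N.y1, N.y1x1]; simp
      · simp only [mul_assoc]; rw [← mul_assoc N.y1, N.y1x0]; simp)
    (fun a => by rw [hΨ, hΨ, hΨ, ← hx.add _ _ a.1.2.1, id, ← N.swindle]) q
  rw [e2 c0 _ _ hc0, e2 c1 _ _ hc1, ← (central_of N ho hsum hx π hπ hgen hh h1 c0).eq,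
    ← (central_of N ho hsum hx π hπ hgen (hmem _ q) h2 c1).eq, mul_inv_cancel_right,
    mul_inv_cancel_right] at e3
  exact right_eq_mul.mp e3

include hπ in
theorem HS_fix (p : Fin 5 → Prop) {h : Γ} (hh : h ∈ HS x p) {i : Fin 5} (hi : ¬ p i) :
    (π h : R) * v i = v i ∧ φ i * π h = φ i := by
  induction hh using Subgroup.closure_induction with
  | mem y hy =>
    obtain ⟨j, k, r, hjk, hj, hk, rfl⟩ := hy
    have h1 : k ≠ i := fun h => hi (h ▸ hk)
    have h2 : i ≠ j := fun h => hi (h ▸ hj)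
    rw [hπ j k hjk, tE_val N ho hjk]
    constructor
    · rw [add_mul, mul_assoc, ho.off k i h1]; simp
    · rw [mul_add, mul_assoc (v j), ← mul_assoc (φ i), ho.off i j h2]; simp
  | one => simp
  | mul a b _ _ ha hb =>
    rw [map_mul, Units.val_mul, mul_assoc, hb.1, ha.1, ← mul_assoc, ha.2, hb.2]
    exact ⟨rfl, rfl⟩
  | inv a _ ha =>
    rw [map_inv, Units.inv_mul_eq_iff_eq_mul, Units.mul_inv_eq_iff_eq_mul]
    exact ⟨ha.1.symm, ha.2.symm⟩

theorem wel_val {a b : Fin 5} (hab : a ≠ b) : ((wel (tE N ho) a b : Rˣ) : R) =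
    1 + v a * φ a + v b * φ b + v a * φ b + v b * φ a := by
  have h2 := N.add_self (v a * φ b)
  have m0 : v a * φ b * (v a * φ b) = 0 := by simpa using ho.mul0 (i := a) (l := b) hab.symm 1 1
  have m1 : ∀ i j l, v i * φ j * (v j * φ l) = v i * φ l := fun i j l => by
    simpa using ho.mul1 (i := i) (j := j) (l := l) 1 1
  simp only [wel, Units.val_mul, tE_val N ho hab, tE_val N ho hab.symm, mul_add, add_mul, one_mul,
    mul_one, m0, m1]
  refine sub_eq_zero.mp (Eq.trans ?_ h2)
  abel

end frame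

end Vale.Agent.P193
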