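import Vale.Agent.P193.G1
import Vale.Agent.P193.G2c

/-! The unit group of a nice finitely presented ring is finitely presented. -/

namespace Vale.Agent.P193

open scoped commutatorElement

section frame

variable {R : Type} [Ring R] (N : Nice R) {v φ : Fin 5 → R} (ho : Orth v φ)
  (hsum : ∑ i, v i * φ i = 1) {Γ : Type} [Group Γ] {x : Fin 5 → Fin 5 → R → Γ}
  (hx : StS x) (π : Γ →* Rˣ) (hπ : ∀ i j, i ≠ j → ∀ r, π (x i j r) = tE N ho i j r)

include hsum hπ in
theorem corner_HS (p : Fin 5 → Prop) [DecidablePred p] {a b : Fin 5} (hab : a ≠ b) (ha : p a)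
    (hb : p b) (g : Rˣ) (hg : ∀ i, ¬ p i → (g : R) * v i = v i ∧ φ i * g = φ i) :
    g ∈ (HS x p).map π := by
  have : Nontrivial {i // p i} := ⟨⟨a, ha⟩, ⟨b, hb⟩, fun h => hab (congrArg Subtype.val h)⟩
  have ho' : Orth (fun i : {i // p i} => v i) (fun i => φ i) :=
    ⟨fun i => ho.diag i, fun i j h => ho.off i j fun h' => h (Subtype.ext h')⟩
  have e : 1 - ∑ i : {i // p i}, v i * φ i = ∑ i : {i // ¬ p i}, v i * φ i := by
    rw [← hsum, ← Fintype.sum_subtype_add_sum_subtype p fun i => v i * φ i, add_sub_cancel_left]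
  have := N.gen_corner ho' g
    (by
      rw [e, Finset.mul_sum]
      exact Finset.sum_congr rfl fun i _ => by rw [← mul_assoc, (hg i i.2).1])
    (by
      rw [e, Finset.sum_mul]
      exact Finset.sum_congr rfl fun i _ => by rw [mul_assoc, (hg i i.2).2])
  refine (Subgroup.closure_le _).mpr ?_ this
  rintro _ ⟨i, j, hij, r, rfl⟩
  have hij' : (i : Fin 5) ≠ j := fun h => hij (Subtype.ext h)
  refine ⟨x i j r, mem_HS hij' i.2 j.2 r, ?_⟩
  rw [hπ _ _ hij']
  exact Units.ext (tE_val N ho hij' r)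

include hsum hx hπ in
theorem inj_of (hgen : Subgroup.closure {y | ∃ i j r, i ≠ j ∧ y = x i j r} = ⊤) (c0 c1 : Γ)
    (hc0 : ∀ r j k, j ≠ k → j ≠ 0 → k ≠ 0 → c0 * x j k r * c0⁻¹ = x j k (N.x0 * r * N.y0))
    (hc1 : ∀ r j k, j ≠ k → j ≠ 0 → k ≠ 0 → c1 * x j k r * c1⁻¹ = x j k (N.x1 * r * N.y1))
    (hw2 : wel x 0 1 * wel x 0 1 = 1) : Function.Injective π := by
  have hinj := inj_HS N ho hsum hx π hπ hgen c0 c1 hc0 hc1
  have ho3 : Orth (fun i : Fin 3 => v (Fin.castLE (by omega) i))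
      (fun i : Fin 3 => φ (Fin.castLE (by omega) i)) :=
    ⟨fun i => ho.diag _, fun i j h => ho.off _ _ fun h' => h (Fin.castLE_injective _ h')⟩
  have hwel : ∀ a b, a ≠ b → π (wel x a b) = wel (tE N ho) a b := fun a b hab => by
    simp only [wel, map_mul, hπ a b hab, hπ b a hab.symm]
  have two := N.add_self
  refine N.colim π ho3 ?_ (HS x (· ≠ 0)) hinj (fun g => ⟨fun hg => ?_, ?_⟩) (wel x 0 1) ?_ hw2
    (fun h hh h1 h2 => ?_) ?_ ?_
  · intro h
    have h' : φ 3 * (v 0 * φ 0 + v 1 * φ 1 + v 2 * φ 2) * v 3 = φ 3 * 1 * v 3 := by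
      rw [← h, Fin.sum_univ_three]; rfl
    rw [mul_one, ho.diag, mul_add, mul_add, ← mul_assoc, ← mul_assoc, ← mul_assoc,
      ho.off 3 0 (by decide), ho.off 3 1 (by decide), ho.off 3 2 (by decide)] at h'
    apply N.nontriv
    rw [← h']; simp
  · refine corner_HS N ho hsum π hπ _ (a := 1) (b := 2) (by decide) (by decide) (by decide) g ?_
    intro i hi
    rw [not_not] at hi
    subst hi
    exact hg
  · rintro ⟨h, hh, rfl⟩
    exact HS_fix N ho π hπ _ hh (i := 0) (by simp)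
  · rw [hwel 0 1 (by decide), wel_val N ho (by decide)]; rfl
  · obtain ⟨h', hh', e⟩ := corner_HS N ho hsum π hπ (fun i => i ≠ 0 ∧ i ≠ 1) (a := 2) (b := 3)
      (by decide) (by decide) (by decide) (π h) (by
        intro i hi
        by_cases h0 : i = 0
        · subst h0; exact HS_fix N ho π hπ _ hh (i := 0) (by simp)
        · have : i = 1 := by by_contra h; exact hi ⟨h0, h⟩
          subst this; exact ⟨h1, h2⟩)
    have hle : HS x (fun i => i ≠ 0 ∧ i ≠ 1) ≤ HS x (· ≠ 0) := by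
      apply Subgroup.closure_mono
      rintro _ ⟨i, j, r, hij, hi, hj, rfl⟩
      exact ⟨i, j, r, hij, hi.1, hj.1, rfl⟩
    have : h' * h⁻¹ = 1 := hinj _ (mul_mem (hle hh') (inv_mem hh)) (by rw [map_mul, map_inv, e]; simp)
    rw [mul_inv_eq_one] at this
    subst this
    clear hh h1 h2 e
    induction hh' using Subgroup.closure_induction with
    | mem y hy =>
      obtain ⟨i, j, r, hij, hi, hj, rfl⟩ := hy
      have c1 := hx.comm i j 0 1 hij (by decide) hj.1 hi.2 r 1
      have c2 := hx.comm i j 1 0 hij (by decide) hj.2 hi.1 r 1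
      exact (c1.mul_right c2).mul_right c1
    | one => simp
    | mul a b _ _ ha hb => exact ha.mul_left hb
    | inv a _ ha => exact ha.inv_left
  · have hm : ∀ a b : Fin 5, a ≠ b → a ≠ 0 → b ≠ 0 → wel x a b ∈ HS x (· ≠ 0) :=
      fun a b hab ha hb => mul_mem (mul_mem (mem_HS hab ha hb _) (mem_HS hab.symm hb ha _))
        (mem_HS hab ha hb _)
    refine ⟨wel x 1 2, hm 1 2 (by decide) (by decide) (by decide), ?_, ?_, ?_⟩
    · rw [hwel 1 2 (by decide), wel_val N ho (by decide)]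
      show (1 + v 1 * φ 1 + v 2 * φ 2 + v 1 * φ 2 + v 2 * φ 1) * v 1 = v 2
      simp only [add_mul, mul_assoc, ho.diag, ho.off 2 1 (by decide), one_mul, mul_one, mul_zero,
        two, zero_add]
    · rw [hwel 1 2 (by decide), wel_val N ho (by decide)]
      show φ 2 * (1 + v 1 * φ 1 + v 2 * φ 2 + v 1 * φ 2 + v 2 * φ 1) = φ 1
      simp only [mul_add, ← mul_assoc, ho.diag, ho.off 2 1 (by decide), one_mul, mul_one, zero_mul,
        two, add_zero, zero_add]
    · have e1 : wel x 1 2 * wel x 0 1 * (wel x 1 2)⁻¹ = wel x 0 2 := by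
        rw [wel.eq_1 x 0 1, conj_mul', conj_mul', hx.wel_col two (by decide) (by decide) (by decide),
          hx.wel_row two (by decide) (by decide) (by decide)]
        rfl
      have e2 : wel x 0 2 * wel x 0 1 * (wel x 0 2)⁻¹ = wel x 2 1 := by
        rw [wel.eq_1 x 0 1, conj_mul', conj_mul', hx.wel_col two (by decide) (by decide) (by decide),
          hx.wel_row two (by decide) (by decide) (by decide)]
        rfl
      have e3 : (wel x 0 2)⁻¹ = wel x 0 2 := by
        rw [inv_eq_iff_mul_eq_one, ← e1, ← conj_mul', hw2]; simp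
      rw [e1, ← e3, e3, ← mul_inv_cancel_right (wel x 0 2 * wel x 0 1) (wel x 0 2)⁻¹, inv_inv, e2,
        mul_assoc]
      nth_rewrite 1 [← e3]
      rw [inv_mul_cancel, mul_one]
      exact hm 2 1 (by decide) (by decide) (by decide)
  · rw [eq_top_iff, ← hgen, Subgroup.closure_le]
    set K := Subgroup.closure ((HS x (· ≠ 0) : Set Γ) ∪ {wel x 0 1}) with hK
    have k1 : ∀ i j r, i ≠ j → i ≠ 0 → j ≠ 0 → x i j r ∈ K := fun i j r hij hi hj =>
      Subgroup.subset_closure (Or.inl (mem_HS hij hi hj r))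
    have k2 : wel x 0 1 ∈ K := Subgroup.subset_closure (Or.inr rfl)
    have k3 : ∀ y, wel x 0 1 * y * (wel x 0 1)⁻¹ ∈ K → y ∈ K := fun y hy => by
      have := mul_mem (mul_mem (inv_mem k2) hy) k2
      simpa [mul_assoc] using this
    have k4 : ∀ j r, j ≠ 0 → j ≠ 1 → x 0 j r ∈ K := fun j r h0 h1 => k3 _ (by
      rw [hx.wel_row two (by decide) h0.symm h1.symm]
      exact k1 _ _ _ h1.symm (by decide) h0)
    have k5 : ∀ j r, j ≠ 0 → j ≠ 1 → x j 0 r ∈ K := fun j r h0 h1 => k3 _ (by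
      rw [hx.wel_col two (by decide) h0 h1]
      exact k1 _ _ _ h1 h0 (by decide))
    have k6 : ∀ a b, a ∈ K → b ∈ K → ⁅a, b⁆ ∈ K := fun a b ha hb =>
      mul_mem (mul_mem (mul_mem ha hb) (inv_mem ha)) (inv_mem hb)
    rintro _ ⟨i, j, r, hij, rfl⟩
    by_cases hi : i = 0
    · subst hi
      by_cases hj : j = 1
      · subst hj
        rw [← mul_one r, ← hx.mul 0 2 1 (by decide) (by decide) (by decide)]
        exact k6 _ _ (k4 _ _ (by decide) (by decide)) (k1 _ _ _ (by decide) (by decide) (by decide))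
      · exact k4 j r hij.symm hj
    by_cases hj : j = 0
    · subst hj
      by_cases hi1 : i = 1
      · subst hi1
        rw [← mul_one r, ← hx.mul 1 2 0 (by decide) (by decide) (by decide)]
        exact k6 _ _ (k1 _ _ _ (by decide) (by decide) (by decide)) (k5 _ _ (by decide) (by decide))
      · exact k5 i r hi hi1
    exact k1 i j r hij hi hj

include ho in
theorem exists_conj {a b : R} (hba : b * a = 1) : ∃ c : Rˣ, ∀ r j k, j ≠ k → j ≠ 0 → k ≠ 0 →
    c * tE N ho j k r * c⁻¹ = tE N ho j k (a * r * b) := by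
  have hne : ∀ a b : R, ∑ i : {i : Fin 5 // i ≠ 0}, v i * a * (b * φ i) ≠ 1 := fun a b h => by
    have h' : φ 0 * (∑ i : {i : Fin 5 // i ≠ 0}, v i * a * (b * φ i)) * v 0 = φ 0 * 1 * v 0 := by
      rw [h]
    rw [mul_one, ho.diag, Finset.mul_sum, Finset.sum_eq_zero (fun i _ => by
      rw [mul_assoc (v i), ← mul_assoc, ho.off 0 i (Ne.symm i.2), zero_mul]), zero_mul] at h'
    exact N.nontriv h'.symm
  have horth : ∀ a b : R, b * a = 1 →
      Orth (fun i : {i : Fin 5 // i ≠ 0} => v i * a) (fun i => b * φ i) := fun a b hba =>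
    ⟨fun i => by rw [mul_assoc, ← mul_assoc (φ i), ho.diag, one_mul, hba], fun i j h => by
      rw [mul_assoc, ← mul_assoc (φ i), ho.off i j fun h' => h (Subtype.ext h')]; simp⟩
  obtain ⟨c, hc⟩ := N.trans (horth 1 1 (one_mul 1)) (horth a b hba) (hne 1 1) (hne a b)
  refine ⟨c, fun r j k hjk hj hk => ?_⟩
  rw [mul_inv_eq_iff_eq_mul]
  ext
  have h1 := (hc ⟨j, hj⟩).1
  have h2 := (hc ⟨k, hk⟩).2
  simp only [mul_one, one_mul] at h1 h2
  simp only [Units.val_mul, tE_val N ho hjk, mul_add, add_mul, one_mul, mul_one]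
  congr 1
  calc (c : R) * (v j * r * φ k) = (c * v j) * r * φ k := by simp only [mul_assoc]
    _ = v j * a * r * (b * φ k * c) := by rw [h1, h2]
    _ = _ := by simp only [mul_assoc]

end frame

theorem Nice.exists_frame {R : Type} [Ring R] (N : Nice R) :
    ∃ v φ : Fin 5 → R, Orth v φ ∧ ∑ i, v i * φ i = 1 := by
  have a01 : ∀ r, N.y0 * (N.x1 * r) = 0 := fun r => by rw [← mul_assoc, N.y0x1, zero_mul]
  have a11 : ∀ r, N.y1 * (N.x1 * r) = r := fun r => by rw [← mul_assoc, N.y1x1, one_mul]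
  refine ⟨![N.x0, N.x1 * N.x0, N.x1 * (N.x1 * N.x0), N.x1 * (N.x1 * (N.x1 * N.x0)),
      N.x1 * (N.x1 * (N.x1 * N.x1))],
    ![N.y0, N.y0 * N.y1, N.y0 * N.y1 * N.y1, N.y0 * N.y1 * N.y1 * N.y1, N.y1 * N.y1 * N.y1 * N.y1],
    ⟨fun i => ?_, fun i j h => ?_⟩, ?_⟩
  · fin_cases i <;> simp [mul_assoc, a11, N.y0x0, N.y1x1]
  · fin_cases i <;> fin_cases j <;>
      simp [mul_assoc, a01, a11, N.y0x1, N.y1x0] at h ⊢
  · have := N.sum
    calc _ = N.x0 * N.y0 + N.x1 * (N.x0 * N.y0 + N.x1 * (N.x0 * N.y0 + N.x1 *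
          (N.x0 * N.y0 + N.x1 * N.y1) * N.y1) * N.y1) * N.y1 := by
          simp only [Fin.sum_univ_five]
          simp [mul_add, add_mul, mul_assoc, add_assoc]
      _ = 1 := by simp only [this, mul_one]

theorem Nice.fp {R : Type} [Ring R] (N : Nice R) (hfp : RingFP R) :
    Group.IsFinitelyPresented Rˣ := by
  obtain ⟨v, φ, ho, hsum⟩ := N.exists_frame
  obtain ⟨Γ, _, _, x, π, hx, hgen, hπ⟩ := exists_fp_cover hfp N.two (tE_StS N ho)
  obtain ⟨Z, _, gen, -, -, hZ, -⟩ := hfp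
  have hsurj : Function.Surjective π := fun g => by
    obtain ⟨h, -, e⟩ := corner_HS N ho hsum π hπ (fun _ => True) (a := 0) (b := 1) (by decide)
      trivial trivial g (by simp)
    exact ⟨h, e⟩
  obtain ⟨u0, hu0⟩ := exists_conj N ho N.y0x0
  obtain ⟨u1, hu1⟩ := exists_conj N ho N.y1x1
  obtain ⟨c0, rfl⟩ := hsurj u0
  obtain ⟨c1, rfl⟩ := hsurj u1
  let T : Γ → R → R → Set Γ := fun c a b => Set.range fun p : Fin 5 × Fin 5 × Option Z =>
    c * x p.1 p.2.1 (p.2.2.elim 1 gen) * c⁻¹ * (x p.1 p.2.1 (a * p.2.2.elim 1 gen * b))⁻¹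
  let S : Set Γ := (T c0 N.x0 N.y0 ∪ T c1 N.x1 N.y1 ∪ {wel x 0 1 * wel x 0 1}) ∩ π.ker
  have hS : S.Finite := Set.Finite.inter_of_left
    (((Set.finite_range _).union (Set.finite_range _)).union (Set.finite_singleton _)) _
  let M := Subgroup.normalClosure S
  have hM : M ≤ π.ker := Subgroup.normalClosure_le_normal Set.inter_subset_right
  let mk : Γ →* Γ ⧸ M := QuotientGroup.mk' M
  have key : ∀ q ∈ T c0 N.x0 N.y0 ∪ T c1 N.x1 N.y1 ∪ {wel x 0 1 * wel x 0 1}, π q = 1 →
      mk q = 1 := fun q hq hq' =>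
    (QuotientGroup.eq_one_iff q).mpr (Subgroup.subset_normalClosure ⟨hq, hq'⟩)
  let π' : Γ ⧸ M →* Rˣ := QuotientGroup.lift M π hM
  have hconj : ∀ (c : Γ) (a b : R), b * a = 1 → (∀ q ∈ T c a b, π q = 1 → mk q = 1) →
      (∀ r j k, j ≠ k → j ≠ 0 → k ≠ 0 →
        π c * tE N ho j k r * (π c)⁻¹ = tE N ho j k (a * r * b)) →
      ∀ r j k, j ≠ k → j ≠ 0 → k ≠ 0 →
        mk c * mk (x j k r) * (mk c)⁻¹ = mk (x j k (a * r * b)) := by
    intro c a b hba hT hc r
    have h1 : ∀ (o : Option Z) j k, j ≠ k → j ≠ 0 → k ≠ 0 →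
        mk c * mk (x j k (o.elim 1 gen)) * (mk c)⁻¹ = mk (x j k (a * o.elim 1 gen * b)) := by
      intro o j k hjk hj hk
      have := hT _ ⟨(j, k, o), rfl⟩ (by
        simp only [map_mul, map_inv, hπ j k hjk, hc _ j k hjk hj hk, mul_inv_cancel])
      simpa only [map_mul, map_inv, mul_inv_eq_one] using this
    refine ((hx.map mk).map (MulAut.conj (mk c)).toMonoidHom).agree
      ((hx.map mk).comp (fun r => a * r * b) (fun r s => by rw [mul_add, add_mul]) fun r s => ?_)
      hZ (· ≠ 0) (fun i j => ?_) (h1 none) ?_ r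
    · calc a * (r * s) * b = a * r * (b * a) * s * b := by rw [hba]; simp only [mul_assoc, one_mul]
        _ = _ := by simp only [mul_assoc]
    · obtain ⟨p, h0, hi, hj, -⟩ := exists_other4 0 i j j
      exact ⟨p, h0, hi, hj⟩
    · rintro _ ⟨z, rfl⟩
      exact h1 (some z)
  have hinj : Function.Injective π' := by
    refine inj_of N ho hsum (hx.map mk) π' hπ ?_ (mk c0) (mk c1)
      (hconj c0 _ _ N.y0x0 (fun q hq => key q (Or.inl (Or.inl hq))) hu0)
      (hconj c1 _ _ N.y1x1 (fun q hq => key q (Or.inl (Or.inr hq))) hu1) ?_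
    · rw [eq_top_iff, ← MonoidHom.range_eq_top.mpr (QuotientGroup.mk'_surjective M),
        MonoidHom.range_eq_map, ← hgen, MonoidHom.map_closure]
      apply Subgroup.closure_mono
      rintro _ ⟨_, ⟨i, j, r, hij, rfl⟩, rfl⟩
      exact ⟨i, j, r, hij, rfl⟩
    · have h01 : (0 : Fin 5) ≠ 1 := by decide
      have := key _ (Or.inr rfl) (by
        have e : π (wel x 0 1) = wel (tE N ho) 0 1 := by
          simp only [wel, map_mul, hπ 0 1 h01, hπ 1 0 h01.symm]
        rw [map_mul, e]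
        ext
        have m0 : ∀ i j k l, j ≠ k → v i * φ j * (v k * φ l) = 0 := fun i j k l h => by
          simpa using ho.mul0 (i := i) (l := l) h 1 1
        have m1 : ∀ i j l, v i * φ j * (v j * φ l) = v i * φ l := fun i j l => by
          simpa using ho.mul1 (i := i) (j := j) (l := l) 1 1
        have h4 : ∀ r : R, r + r + (r + r) = 0 := fun r => N.add_self _
        simp only [Units.val_mul, wel_val N ho h01, mul_add, add_mul, one_mul, mul_one, m1,
          m0 _ _ _ _ h01, m0 _ _ _ _ h01.symm, Units.val_one]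
        refine sub_eq_zero.mp (Eq.trans ?_ (h4 (v 0 * φ 0 + v 1 * φ 1 + v 0 * φ 1 + v 1 * φ 0)))
        abel)
      simpa only [wel, map_mul] using this
  refine Group.IsFinitelyPresented.of_surjective π hsurj ⟨S, hS, le_antisymm hM fun q hq => ?_⟩
  have : π' (mk q) = π' 1 := by rw [map_one]; exact hq
  exact (QuotientGroup.eq_one_iff q).mp (hinj this)

end Vale.Agent.P193
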