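import Vale.Agent.P193.Defs

/-! Steinberg systems: the Steinberg lemma for words. -/

namespace Vale.Agent.P193

open scoped commutatorElement

/-- a Steinberg system of rank five -/
structure StS {R Γ : Type*} [Add R] [Mul R] [Group Γ] (x : Fin 5 → Fin 5 → R → Γ) : Prop where
  add : ∀ i j, i ≠ j → ∀ r s, x i j (r + s) = x i j r * x i j s
  comm : ∀ i j k l, i ≠ j → k ≠ l → j ≠ k → i ≠ l → ∀ r s, Commute (x i j r) (x k l s)
  mul : ∀ i j k, i ≠ j → j ≠ k → i ≠ k → ∀ r s, ⁅x i j r, x j k s⁆ = x i k (r * s)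

theorem exists_other4 (i j k l : Fin 5) : ∃ p : Fin 5, p ≠ i ∧ p ≠ j ∧ p ≠ k ∧ p ≠ l := by
  revert i j k l; decide

theorem exists_other2 (i j k : Fin 5) (h : i ≠ j) (hi : k ≠ i) (hj : k ≠ j) :
    ∃ p q : Fin 5, p ≠ i ∧ p ≠ j ∧ p ≠ k ∧ q ≠ i ∧ q ≠ j ∧ q ≠ k ∧ p ≠ q ∧
      ∀ r : Fin 5, r ≠ i → r ≠ j → r = k ∨ r = p ∨ r = q := by
  revert i j k; decide

/-- a third index -/
def oth (i j : Fin 5) : Fin 5 :=
  if i ≠ 0 ∧ j ≠ 0 then 0 else if i ≠ 1 ∧ j ≠ 1 then 1 else 2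

theorem oth_ne_left (i j : Fin 5) : oth i j ≠ i := by revert i j; decide
theorem oth_ne_right (i j : Fin 5) : oth i j ≠ j := by revert i j; decide

section key

variable {Γ : Type*} [Group Γ]

theorem key_comm {a b c : Γ} (hac : Commute a c) (h : Commute ⁅a, b⁆ ⁅b, c⁆) :
    ⁅⁅a, b⁆, c⁆ = ⁅a, ⁅b, c⁆⁻¹⁆⁻¹ := by
  have h1 : c * a * c⁻¹ = a := by rw [← hac.eq]; simp
  have h2 : c * ⁅a, b⁆⁻¹ * c⁻¹ = ⁅b, c⁆⁻¹ * (⁅a, b⁆⁻¹ * a) * ⁅b, c⁆ * a⁻¹ := by
    have : c * ⁅a, b⁆⁻¹ * c⁻¹ =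
        (c * b * c⁻¹) * (c * a * c⁻¹) * (c * b * c⁻¹)⁻¹ * (c * a * c⁻¹)⁻¹ := by
      simp only [commutatorElement_def]; group
    rw [this, h1]
    simp only [commutatorElement_def]; group
  have h3 : ⁅⁅a, b⁆, c⁆ = ⁅a, b⁆ * (c * ⁅a, b⁆⁻¹ * c⁻¹) := by
    rw [commutatorElement_def ⁅a, b⁆ c]; group
  rw [h3, h2]
  have h4 : ⁅a, b⁆ * ⁅b, c⁆⁻¹ = ⁅b, c⁆⁻¹ * ⁅a, b⁆ := h.inv_right.eq
  generalize ⁅a, b⁆ = u at *
  generalize ⁅b, c⁆ = e at *
  calc u * (e⁻¹ * (u⁻¹ * a) * e * a⁻¹) = (u * e⁻¹) * u⁻¹ * a * e * a⁻¹ := by group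
    _ = ⁅a, e⁻¹⁆⁻¹ := by rw [h4, commutatorElement_def]; group

theorem commute_commutator {a b c : Γ} (ha : Commute a c) (hb : Commute b c) :
    Commute ⁅a, b⁆ c := by
  rw [commutatorElement_def]
  exact ((ha.mul_left hb).mul_left ha.inv_left).mul_left hb.inv_left

end key

section words

variable {Γ Z : Type*} [Group Γ]

/-- the element attached to a word -/
def XW (g : Fin 5 → Fin 5 → Option Z → Γ) : List Z → Fin 5 → Fin 5 → Γ
  | [], i, j => g i j none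
  | [z], i, j => g i j (some z)
  | z :: z' :: m, i, j => ⁅g i (oth i j) (some z), XW g (z' :: m) (oth i j) j⁆

variable (g : Fin 5 → Fin 5 → Option Z → Γ)

/-- the Steinberg relations for words of length at most `d` -/
structure Lvl (d : ℕ) : Prop where
  C : ∀ i j k l, i ≠ j → k ≠ l → j ≠ k → i ≠ l → ∀ m m' : List Z, m.length ≤ d → m'.length ≤ d →
    Commute (XW g m i j) (XW g m' k l)
  M : ∀ i j k, i ≠ j → j ≠ k → i ≠ k → ∀ m m' : List Z, m.length + m'.length ≤ d →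
    ⁅XW g m i j, XW g m' j k⁆ = XW g (m ++ m') i k
  S : ∀ i j, i ≠ j → ∀ m : List Z, m.length ≤ d → (XW g m i j)⁻¹ = XW g m i j

variable {g}

theorem Lvl.flip {d : ℕ} (h : Lvl g d) (hd : 1 ≤ d) {i j k k' : Fin 5} (hij : i ≠ j)
    (hki : k ≠ i) (hkj : k ≠ j) (hki' : k' ≠ i) (hkj' : k' ≠ j) (hk : k ≠ k') (z : Z)
    (m : List Z) (hm : m.length ≤ d) :
    ⁅XW g [z] i k', XW g m k' j⁆ = ⁅XW g [z] i k, XW g m k j⁆⁻¹ := by
  have h1 : ⁅XW g [z] i k, XW g [] k k'⁆ = XW g [z] i k' :=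
    h.M i k k' hki.symm hk hki'.symm [z] [] (by simpa using hd)
  have h2 : ⁅XW g [] k k', XW g m k' j⁆ = XW g m k j :=
    h.M k k' j hk hkj' hkj [] m (by simpa using hm)
  have := key_comm (a := XW g [z] i k) (b := XW g [] k k') (c := XW g m k' j)
    (h.C i k k' j hki.symm hkj' hk hij [z] m (by simpa using hd) hm)
    (by rw [h1, h2]; exact h.C i k' k j hki'.symm hkj hk.symm hij [z] m (by simpa using hd) hm)
  rw [h1, h2, h.S k j hkj m hm] at this
  exact this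

theorem Lvl.indep {d : ℕ} (h : Lvl g d) (hd : 1 ≤ d) {i j k : Fin 5} (hij : i ≠ j)
    (hki : k ≠ i) (hkj : k ≠ j) (z : Z) (m : List Z) (hm : m.length ≤ d) :
    ⁅XW g [z] i k, XW g m k j⁆⁻¹ = ⁅XW g [z] i k, XW g m k j⁆ ∧
      ∀ r, r ≠ i → r ≠ j → ⁅XW g [z] i r, XW g m r j⁆ = ⁅XW g [z] i k, XW g m k j⁆ := by
  obtain ⟨p, q, hpi, hpj, hpk, hqi, hqj, hqk, hpq, hall⟩ := exists_other2 i j k hij hki hkj
  have e1 := h.flip hd hij hki hkj hpi hpj hpk.symm z m hm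
  have e2 := h.flip hd hij hki hkj hqi hqj hqk.symm z m hm
  have e3 := h.flip hd hij hpi hpj hqi hqj hpq z m hm
  have e4 : ⁅XW g [z] i k, XW g m k j⁆⁻¹ = ⁅XW g [z] i k, XW g m k j⁆ := by
    rw [← e2, e3, e1, inv_inv]
  refine ⟨e4, fun r hri hrj => ?_⟩
  rcases hall r hri hrj with rfl | rfl | rfl
  · rfl
  · rw [e1, e4]
  · rw [e2, e4]

theorem Lvl.I {d : ℕ} (h : Lvl g d) (hd : 1 ≤ d) {i j k : Fin 5} (hij : i ≠ j)
    (hki : k ≠ i) (hkj : k ≠ j) (z : Z) (m : List Z) (hm : m.length ≤ d) :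
    ⁅XW g [z] i k, XW g m k j⁆ = XW g (z :: m) i j := by
  cases m with
  | nil => exact h.M i k j hki.symm hkj hij [z] [] (by simpa using hd)
  | cons z' m =>
    exact ((h.indep hd hij hki hkj z (z' :: m) hm).2 (oth i j) (oth_ne_left i j)
      (oth_ne_right i j)).symm

theorem Lvl.S' {d : ℕ} (h : Lvl g d) (hd : 1 ≤ d) {i j : Fin 5} (hij : i ≠ j)
    (m : List Z) (hm : m.length ≤ d + 1) : (XW g m i j)⁻¹ = XW g m i j := by
  cases m with
  | nil => exact h.S i j hij [] (by simp)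
  | cons z m =>
    have hm' : m.length ≤ d := by simpa using hm
    rw [← h.I hd hij (oth_ne_left i j) (oth_ne_right i j) z m hm']
    exact (h.indep hd hij (oth_ne_left i j) (oth_ne_right i j) z m hm').1

theorem Lvl.Cstep {d e : ℕ} (h : Lvl g d) (hd : 1 ≤ d)
    (hC : ∀ i j k l, i ≠ j → k ≠ l → j ≠ k → i ≠ l → ∀ m m' : List Z, m.length ≤ d →
      m'.length ≤ e → Commute (XW g m i j) (XW g m' k l)) :
    ∀ i j k l, i ≠ j → k ≠ l → j ≠ k → i ≠ l → ∀ m m' : List Z, m.length ≤ d + 1 →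
      m'.length ≤ e → Commute (XW g m i j) (XW g m' k l) := by
  intro i j k l hij hkl hjk hil m m' hm hm'
  cases m with
  | nil => exact hC i j k l hij hkl hjk hil [] m' (by simp) hm'
  | cons z m =>
    have hm1 : m.length ≤ d := by simpa using hm
    obtain ⟨p, hpi, hpj, hpk, hpl⟩ := exists_other4 i j k l
    rw [← h.I hd hij hpi hpj z m hm1]
    exact commute_commutator (hC i p k l hpi.symm hkl hpk hil [z] m' (by simpa using hd) hm')
      (hC p j k l hpj hkl hjk hpl m m' hm1 hm')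

theorem Lvl.C' {d : ℕ} (h : Lvl g d) (hd : 1 ≤ d) :
    ∀ i j k l, i ≠ j → k ≠ l → j ≠ k → i ≠ l → ∀ m m' : List Z, m.length ≤ d + 1 →
      m'.length ≤ d + 1 → Commute (XW g m i j) (XW g m' k l) :=
  h.Cstep hd fun i j k l hij hkl hjk hil m m' hm hm' =>
    (h.Cstep hd h.C k l i j hkl hij hil.symm hjk.symm m' m hm' hm).symm

theorem Lvl.succ {d : ℕ} (h : Lvl g d) (hd : 1 ≤ d) : Lvl g (d + 1) := by
  refine ⟨h.C' hd, fun i j k hij hjk hik m m' hmm => ?_, fun i j hij m hm => h.S' hd hij m hm⟩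
  obtain ⟨p, hpi, hpj, hpk, -⟩ := exists_other4 i j k k
  cases m with
  | cons z m1 =>
    have hl : m1.length + m'.length ≤ d := by simp at hmm; omega
    have h1 := h.I hd hij hpi hpj z m1 (by omega)
    have h2 := h.M p j k hpj hjk hpk m1 m' hl
    have := key_comm (a := XW g [z] i p) (b := XW g m1 p j) (c := XW g m' j k)
      (h.C' hd i p j k hpi.symm hjk hpj hik [z] m' (by simp) (by omega))
      (by
        rw [h1, h2]
        exact h.C' hd i j p k hij hpk hpj.symm hik _ _ (by simp; omega) (by simp; omega))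
    rw [h1, h2, h.S p k hpk _ (by simpa using hl),
      h.I hd hik hpi hpk z _ (by simpa using hl), h.S' hd hik _ (by simpa using hl)] at this
    exact this
  | nil =>
    cases m' with
    | nil => exact h.M i j k hij hjk hik [] [] (by simp)
    | cons z m1 =>
      have hl : m1.length ≤ d := by simpa using hmm
      have h1 : ⁅XW g [] i j, XW g [z] j p⁆ = XW g [z] i p :=
        h.M i j p hij hpj.symm hpi.symm [] [z] (by simpa using hd)
      have h2 := h.I hd hjk hpj hpk z m1 hl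
      have := key_comm (a := XW g [] i j) (b := XW g [z] j p) (c := XW g m1 p k)
        (h.C i j p k hij hpk hpj.symm hik [] m1 (by simp) hl)
        (by
          rw [h1, h2]
          exact h.C' hd i p j k hpi.symm hjk hpj hik _ _ (by simp) (by simpa using hl))
      rw [h1, h2, h.S' hd hjk _ (by simpa using hl), h.I hd hik hpi hpk z m1 hl] at this
      rw [List.nil_append, ← h.S' hd hik (z :: m1) (by simpa using hl), this, inv_inv]

theorem Lvl.all (h : Lvl g 1) (d : ℕ) : Lvl g (d + 1) := by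
  induction d with
  | zero => exact h
  | succ d ih => exact ih.succ (by omega)

end words

end Vale.Agent.P193
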