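import Vale.Agent.P193.G2a

/-! Steinberg systems: a finitely presented cover. -/

namespace Vale.Agent.P193

open scoped commutatorElement

section basic

variable {R Γ : Type*} [Group Γ]

theorem StS.zero [Ring R] {x : Fin 5 → Fin 5 → R → Γ} (h : StS x) {i j : Fin 5} (hij : i ≠ j) :
    x i j 0 = 1 := by
  have := h.add i j hij 0 0
  rw [add_zero] at this
  exact left_eq_mul.mp this

theorem StS.neg [Ring R] {x : Fin 5 → Fin 5 → R → Γ} (h : StS x) {i j : Fin 5} (hij : i ≠ j)
    (r : R) : x i j (-r) = (x i j r)⁻¹ := by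
  apply eq_inv_of_mul_eq_one_left
  rw [← h.add i j hij, neg_add_cancel, h.zero hij]

theorem StS.map [Add R] [Mul R] {x : Fin 5 → Fin 5 → R → Γ} (h : StS x) {Γ' : Type*} [Group Γ']
    (f : Γ →* Γ') : StS fun i j r => f (x i j r) where
  add i j hij r s := by rw [h.add i j hij, map_mul]
  comm i j k l h1 h2 h3 h4 r s := (h.comm i j k l h1 h2 h3 h4 r s).map f
  mul i j k h1 h2 h3 r s := by rw [← map_commutatorElement, h.mul i j k h1 h2 h3]

theorem StS.comp [Add R] [Mul R] {x : Fin 5 → Fin 5 → R → Γ} (h : StS x) {R' : Type*} [Add R']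
    [Mul R'] (f : R' → R) (ha : ∀ a b, f (a + b) = f a + f b) (hm : ∀ a b, f (a * b) = f a * f b) :
    StS fun i j r => x i j (f r) where
  add i j hij r s := by rw [ha, h.add i j hij]
  comm i j k l h1 h2 h3 h4 r s := h.comm i j k l h1 h2 h3 h4 _ _
  mul i j k h1 h2 h3 r s := by rw [hm, h.mul i j k h1 h2 h3]

theorem StS.agree [Ring R] {A B : Fin 5 → Fin 5 → R → Γ} (hA : StS A) (hB : StS B)
    {s : Set R} (hs : Subring.closure s = ⊤) (p : Fin 5 → Prop)
    (hp : ∀ i j, ∃ k, p k ∧ k ≠ i ∧ k ≠ j)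
    (h1 : ∀ i j, i ≠ j → p i → p j → A i j 1 = B i j 1)
    (h2 : ∀ r ∈ s, ∀ i j, i ≠ j → p i → p j → A i j r = B i j r) (r : R) :
    ∀ i j, i ≠ j → p i → p j → A i j r = B i j r := by
  have hr : r ∈ Subring.closure s := by rw [hs]; trivial
  induction hr using Subring.closure_induction with
  | mem r hr => exact h2 r hr
  | zero => intro i j hij _ _; rw [hA.zero hij, hB.zero hij]
  | one => exact h1
  | add a b _ _ ha hb =>
    intro i j hij hi hj
    rw [hA.add i j hij, hB.add i j hij, ha i j hij hi hj, hb i j hij hi hj]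
  | neg a _ ha => intro i j hij hi hj; rw [hA.neg hij, hB.neg hij, ha i j hij hi hj]
  | mul a b _ _ ha hb =>
    intro i j hij hi hj
    obtain ⟨k, hk, hki, hkj⟩ := hp i j
    rw [← hA.mul i k j hki.symm hkj hij, ← hB.mul i k j hki.symm hkj hij, ha i k hki.symm hi hk,
      hb k j hkj hk hj]

theorem exists_ext {W : Type*} (y : W → Γ) (h : ∀ a b, Commute (y a) (y b)) :
    ∃ Y : FreeAbelianGroup W → Γ, (∀ a b, Y (a + b) = Y a * Y b) ∧
      ∀ w, Y (FreeAbelianGroup.of w) = y w := by
  let _ : CommGroup (Subgroup.closure (Set.range y)) :=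
    { (inferInstance : Group (Subgroup.closure (Set.range y))) with
      mul_comm := (Subgroup.isMulCommutative_closure
        (by rintro _ ⟨a, rfl⟩ _ ⟨b, rfl⟩; exact (h a b).eq)).is_comm.comm }
  let L : FreeAbelianGroup W →+ Additive (Subgroup.closure (Set.range y)) :=
    FreeAbelianGroup.lift fun w => Additive.ofMul ⟨y w, Subgroup.subset_closure ⟨w, rfl⟩⟩
  refine ⟨fun b => ((L b).toMul : Γ), fun a b => ?_, fun w => ?_⟩
  · simp only [map_add, toMul_add]; rfl
  · simp only [L, FreeAbelianGroup.lift_apply_of, toMul_ofMul]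

end basic

section poly

variable {Γ Z : Type*} [Group Γ] {g : Fin 5 → Fin 5 → Option Z → Γ}

theorem exists_poly_system (h : Lvl g 1) :
    ∃ Y : Fin 5 → Fin 5 → FreeAbelianGroup (FreeMonoid Z) → Γ, StS Y ∧
      (∀ i j, i ≠ j → ∀ b, Y i j b * Y i j b = 1) ∧
      ∀ i j, i ≠ j → ∀ w, Y i j (FreeAbelianGroup.of w) = XW g w.toList i j := by
  have hC : ∀ i j k l, i ≠ j → k ≠ l → j ≠ k → i ≠ l → ∀ m m' : List Z,
      Commute (XW g m i j) (XW g m' k l) := fun i j k l h1 h2 h3 h4 m m' =>
    (h.all (m.length + m'.length)).C i j k l h1 h2 h3 h4 m m' (by omega) (by omega)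
  have hM : ∀ i j k, i ≠ j → j ≠ k → i ≠ k → ∀ m m' : List Z,
      ⁅XW g m i j, XW g m' j k⁆ = XW g (m ++ m') i k := fun i j k h1 h2 h3 m m' =>
    (h.all (m.length + m'.length)).M i j k h1 h2 h3 m m' (by omega)
  have hS : ∀ i j, i ≠ j → ∀ m : List Z, (XW g m i j)⁻¹ = XW g m i j := fun i j h1 m =>
    (h.all m.length).S i j h1 m (by omega)
  have : ∀ i j : Fin 5, ∃ Y : FreeAbelianGroup (FreeMonoid Z) → Γ, i ≠ j →
      (∀ a b, Y (a + b) = Y a * Y b) ∧ ∀ w, Y (FreeAbelianGroup.of w) = XW g w.toList i j := by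
    intro i j
    by_cases hij : i = j
    · exact ⟨fun _ => 1, fun h => absurd hij h⟩
    · obtain ⟨Y, hY⟩ := exists_ext (fun w : FreeMonoid Z => XW g w.toList i j)
        fun a b => hC i j i j hij hij (Ne.symm hij) hij _ _
      exact ⟨Y, fun _ => hY⟩
  choose Y hY using this
  have hadd : ∀ i j, i ≠ j → ∀ a b, Y i j (a + b) = Y i j a * Y i j b := fun i j h => (hY i j h).1
  have hof : ∀ i j, i ≠ j → ∀ w, Y i j (FreeAbelianGroup.of w) = XW g w.toList i j :=
    fun i j h => (hY i j h).2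
  have hzero : ∀ i j, i ≠ j → Y i j 0 = 1 := fun i j hij => by
    have := hadd i j hij 0 0
    rw [add_zero] at this
    exact left_eq_mul.mp this
  have hneg : ∀ i j, i ≠ j → ∀ a, Y i j (-a) = (Y i j a)⁻¹ := fun i j hij a => by
    apply eq_inv_of_mul_eq_one_left
    rw [← hadd i j hij, neg_add_cancel, hzero i j hij]
  have hinv : ∀ i j, i ≠ j → ∀ b, (Y i j b)⁻¹ = Y i j b := fun i j hij b => by
    induction b using FreeAbelianGroup.induction_on with
    | zero => rw [hzero i j hij, inv_one]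
    | of w => rw [hof i j hij, hS i j hij]
    | neg w ih => rw [hneg i j hij, ih, ih]
    | add a b ha hb => rw [hadd i j hij, mul_inv_rev, ha, hb, ← hadd i j hij, add_comm,
        hadd i j hij]
  have hcomm : ∀ i j k l, i ≠ j → k ≠ l → j ≠ k → i ≠ l → ∀ r s,
      Commute (Y i j r) (Y k l s) := fun i j k l h1 h2 h3 h4 r s => by
    induction r using FreeAbelianGroup.induction_on with
    | zero => rw [hzero i j h1]; exact Commute.one_left _
    | of w =>
      induction s using FreeAbelianGroup.induction_on with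
      | zero => rw [hzero k l h2]; exact Commute.one_right _
      | of w' => rw [hof i j h1, hof k l h2]; exact hC i j k l h1 h2 h3 h4 _ _
      | neg w' ih => rw [hneg k l h2]; exact ih.inv_right
      | add a b ha hb => rw [hadd k l h2]; exact ha.mul_right hb
    | neg w ih => rw [hneg i j h1]; exact ih.inv_left
    | add a b ha hb => rw [hadd i j h1]; exact ha.mul_left hb
  refine ⟨Y, ⟨hadd, hcomm, fun i j k h1 h2 h3 r s => ?_⟩, fun i j hij b => ?_, hof⟩
  · induction r using FreeAbelianGroup.induction_on with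
    | zero => rw [hzero i j h1, zero_mul, hzero i k h3, commutatorElement_one_left]
    | of w =>
      induction s using FreeAbelianGroup.induction_on with
      | zero => rw [hzero j k h2, mul_zero, hzero i k h3, commutatorElement_one_right]
      | of w' => rw [FreeAbelianGroup.of_mul_of, hof i j h1, hof j k h2, hof i k h3, hM i j k h1 h2 h3,
          FreeMonoid.toList_mul]
      | neg w' ih => rw [mul_neg, hneg j k h2, hneg i k h3, hinv j k h2, hinv i k h3, ih]
      | add a b ha hb =>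
        rw [mul_add, hadd j k h2, hadd i k h3]
        have hc := (hcomm j k i k h2 h3 h3.symm h2 a (FreeAbelianGroup.of w * b)).eq
        rw [← hb] at hc
        rw [← ha, ← hb]
        generalize Y i j (FreeAbelianGroup.of w) = u at *
        calc ⁅u, Y j k a * Y j k b⁆ = ⁅u, Y j k a⁆ * (Y j k a * ⁅u, Y j k b⁆) * (Y j k a)⁻¹ := by
              simp only [commutatorElement_def]; group
          _ = _ := by rw [hc]; group
    | neg w ih => rw [neg_mul, hneg i j h1, hneg i k h3, hinv i j h1, hinv i k h3, ih]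
    | add a b ha hb =>
      rw [add_mul, add_comm (a * s), hadd i j h1, hadd i k h3]
      have hc := (hcomm i j i k h1 h3 h1.symm h3 a (b * s)).eq
      rw [← hb] at hc
      rw [← ha, ← hb]
      calc ⁅Y i j a * Y i j b, Y j k s⁆
          = (Y i j a * ⁅Y i j b, Y j k s⁆) * (Y i j a)⁻¹ * ⁅Y i j a, Y j k s⁆ := by
            simp only [commutatorElement_def]; group
        _ = _ := by rw [hc]; group
  · nth_rewrite 1 [← hinv i j hij b]; simp

end poly

theorem exists_ring_system {R Z : Type} [Ring R] {Γ : Type*} [Group Γ] (gen : Z → R)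
    (rels : Set (Poly Z))
    (huniv : ∀ (A : Type) [Ring A], (1 + 1 : A) = 0 → ∀ f : Z → A, (∀ P ∈ rels, evP f P = 0) →
      ∃ h : R →+* A, ∀ z, h (gen z) = f z)
    {g : Fin 5 → Fin 5 → Option Z → Γ} (h : Lvl g 1)
    (hr : ∀ P ∈ rels, ∀ i j, i ≠ j → (P.map fun m => XW g m i j).prod = 1) :
    ∃ x : Fin 5 → Fin 5 → R → Γ, StS x ∧
      ∀ i j, i ≠ j → x i j 1 = g i j none ∧ ∀ z, x i j (gen z) = g i j (some z) := by
  obtain ⟨Y, hY, hsq, hof⟩ := exists_poly_system h
  let c : RingCon (FreeAbelianGroup (FreeMonoid Z)) :=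
    { r := fun a b => ∀ i j, i ≠ j → Y i j a = Y i j b
      iseqv := ⟨fun _ _ _ _ => rfl, fun h i j hij => (h i j hij).symm,
        fun h h' i j hij => (h i j hij).trans (h' i j hij)⟩
      mul' := fun {a b a' b'} h h' i j hij => by
        rw [← hY.mul i (oth i j) j (oth_ne_left i j).symm (oth_ne_right i j) hij,
          ← hY.mul i (oth i j) j (oth_ne_left i j).symm (oth_ne_right i j) hij,
          h _ _ (oth_ne_left i j).symm, h' _ _ (oth_ne_right i j)]
      add' := fun {a b a' b'} h h' i j hij => by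
        rw [hY.add i j hij, hY.add i j hij, h i j hij, h' i j hij] }
  have hc : ∀ a b, c a b ↔ ∀ i j, i ≠ j → Y i j a = Y i j b := fun _ _ => Iff.rfl
  let f : Z → c.Quotient := fun z => c.mk' (FreeAbelianGroup.of (FreeMonoid.of z))
  have hwd : ∀ m : List Z, wd f m = c.mk' (FreeAbelianGroup.of (FreeMonoid.ofList m)) := by
    intro m
    induction m with
    | nil => simp [wd, FreeAbelianGroup.of_one]
    | cons z m ih =>
      have : wd f (z :: m) = f z * wd f m := by simp [wd]
      rw [this, ih, ← map_mul, FreeAbelianGroup.of_mul_of]; rfl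
  have hev : ∀ P : Poly Z, ∃ b, evP f P = c.mk' b ∧
      ∀ i j, i ≠ j → Y i j b = (P.map fun m => XW g m i j).prod := by
    intro P
    induction P with
    | nil => exact ⟨0, by simp [evP], fun i j hij => by simp [hY.zero hij]⟩
    | cons m P ih =>
      obtain ⟨b, hb, hb'⟩ := ih
      refine ⟨FreeAbelianGroup.of (FreeMonoid.ofList m) + b, ?_, fun i j hij => ?_⟩
      · have : evP f (m :: P) = wd f m + evP f P := by simp [evP]
        rw [this, hb, hwd, map_add]
      · rw [hY.add i j hij, hb' i j hij, hof i j hij]; simp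
  obtain ⟨φ, hφ⟩ := huniv c.Quotient (by
      have : (c.mk' (1 + 1) : c.Quotient) = c.mk' 0 := by
        apply c.eq.mpr
        intro i j hij
        rw [hY.add i j hij, hsq i j hij, hY.zero hij]
      simpa using this) f (by
      intro P hP
      obtain ⟨b, hb, hb'⟩ := hev P
      rw [hb, ← map_zero c.mk']
      apply c.eq.mpr
      intro i j hij
      rw [hb' i j hij, hr P hP i j hij, hY.zero hij])
  let sec : c.Quotient → FreeAbelianGroup (FreeMonoid Z) := Function.surjInv c.mk'_surjective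
  have hsec : ∀ q, c.mk' (sec q) = q := Function.surjInv_eq c.mk'_surjective
  have hY' : ∀ q b, q = c.mk' b → ∀ i j, i ≠ j → Y i j (sec q) = Y i j b := fun q b hq =>
    c.eq.mp ((hsec q).trans hq)
  refine ⟨fun i j r => Y i j (sec (φ r)), ⟨fun i j hij r s => ?_,
    fun i j k l h1 h2 h3 h4 r s => hY.comm i j k l h1 h2 h3 h4 _ _,
    fun i j k h1 h2 h3 r s => ?_⟩, fun i j hij => ⟨?_, fun z => ?_⟩⟩
  · rw [← hY.add i j hij]
    exact hY' _ _ (by rw [map_add, map_add, hsec, hsec]) i j hij
  · rw [hY.mul i j k h1 h2 h3]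
    exact (hY' _ _ (by rw [map_mul, map_mul, hsec, hsec]) i k h3).symm
  · show Y i j (sec (φ 1)) = _
    rw [hY' _ (FreeAbelianGroup.of 1) (by rw [map_one, FreeAbelianGroup.of_one, map_one]) i j hij,
      hof i j hij]
    rfl
  · show Y i j (sec (φ (gen z))) = _
    rw [hY' _ (FreeAbelianGroup.of (FreeMonoid.of z)) (hφ z) i j hij, hof i j hij]
    rfl

theorem map_XW {Γ Γ' Z : Type*} [Group Γ] [Group Γ'] (f : Γ →* Γ')
    (g : Fin 5 → Fin 5 → Option Z → Γ) :
    ∀ (m : List Z) (i j), f (XW g m i j) = XW (fun i j o => f (g i j o)) m i j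
  | [], _, _ => rfl
  | [_], _, _ => rfl
  | z :: z' :: m, i, j => by
    rw [XW, XW, map_commutatorElement, map_XW f g (z' :: m)]

theorem XW_eq {R Z : Type} [Ring R] {U : Type*} [Group U] {t : Fin 5 → Fin 5 → R → U}
    (ht : StS t) (gen : Z → R) {g : Fin 5 → Fin 5 → Option Z → U}
    (hg : ∀ i j, i ≠ j → ∀ o, g i j o = t i j (o.elim 1 gen)) :
    ∀ (m : List Z) (i j), i ≠ j → XW g m i j = t i j (wd gen m)
  | [], i, j, h => by simpa [XW, wd] using hg i j h none
  | [z], i, j, h => by simpa [XW, wd] using hg i j h (some z)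
  | z :: z' :: m, i, j, h => by
    rw [XW, XW_eq ht gen hg (z' :: m) _ _ (oth_ne_right i j), hg _ _ (oth_ne_left i j).symm,
      ht.mul _ _ _ (oth_ne_left i j).symm (oth_ne_right i j) h]
    simp [wd]

theorem list_le_one {Z : Type*} (m : List Z) (h : m.length ≤ 1) : ∃ o : Option Z, m = o.toList :=
  match m, h with
  | [], _ => ⟨none, rfl⟩
  | [z], _ => ⟨some z, rfl⟩
  | _ :: _ :: _, h => by simp at h

/-- a finitely presented group carrying a generating Steinberg system above a given one -/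
theorem exists_fp_cover {R : Type} [Ring R] (hfp : RingFP R) (two : (1 + 1 : R) = 0)
    {U : Type} [Group U] {t : Fin 5 → Fin 5 → R → U} (ht : StS t) :
    ∃ (Γ : Type) (_ : Group Γ) (_ : Group.IsFinitelyPresented Γ) (x : Fin 5 → Fin 5 → R → Γ)
      (π : Γ →* U), StS x ∧ Subgroup.closure {y | ∃ i j r, i ≠ j ∧ y = x i j r} = ⊤ ∧
      ∀ i j, i ≠ j → ∀ r, π (x i j r) = t i j r := by
  obtain ⟨Z, _, gen, rels, hfin, hgen, hrels, huniv⟩ := hfp
  let F := FreeGroup (Fin 5 × Fin 5 × Option Z)
  let g0 : Fin 5 → Fin 5 → Option Z → F := fun i j o => FreeGroup.of (i, j, o)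
  let f : F →* U := FreeGroup.lift fun p => if p.1 = p.2.1 then 1 else t p.1 p.2.1 (p.2.2.elim 1 gen)
  have hf0 : ∀ i j o, f (g0 i j o) = if i = j then 1 else t i j (o.elim 1 gen) :=
    fun i j o => FreeGroup.lift_apply_of
  have hf : ∀ m i j, i ≠ j → f (XW g0 m i j) = t i j (wd gen m) := fun m i j hij => by
    rw [map_XW]
    exact XW_eq ht gen (fun i j hij o => by simp [hf0, hij]) m i j hij
  let T1 : Set F := Set.range fun p : (Fin 5 × Fin 5 × Fin 5 × Fin 5) × Option Z × Option Z =>
    ⁅XW g0 p.2.1.toList p.1.1 p.1.2.1, XW g0 p.2.2.toList p.1.2.2.1 p.1.2.2.2⁆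
  let T2 : Set F := Set.range fun p : (Fin 5 × Fin 5 × Fin 5) × Option Z × Option Z =>
    ⁅XW g0 p.2.1.toList p.1.1 p.1.2.1, XW g0 p.2.2.toList p.1.2.1 p.1.2.2⁆ *
      (XW g0 (p.2.1.toList ++ p.2.2.toList) p.1.1 p.1.2.2)⁻¹
  let T3 : Set F := Set.range fun p : Fin 5 × Fin 5 × Option Z =>
    XW g0 p.2.2.toList p.1 p.2.1 * XW g0 p.2.2.toList p.1 p.2.1
  let T4 : Set F := Set.range fun p : Fin 5 × Option Z => g0 p.1 p.1 p.2
  let T5 : Set F := (fun p : (Fin 5 × Fin 5) × Poly Z =>
    (p.2.map fun m => XW g0 m p.1.1 p.1.2).prod) '' (Set.univ ×ˢ rels)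
  let S : Set F := (T1 ∪ T2 ∪ T3 ∪ T4 ∪ T5) ∩ f.ker
  have hS : S.Finite := Set.Finite.inter_of_left
    (((((Set.finite_range _).union (Set.finite_range _)).union (Set.finite_range _)).union
      (Set.finite_range _)).union ((Set.finite_univ.prod hfin).image _)) _
  let M := Subgroup.normalClosure S
  have hM : M ≤ f.ker := Subgroup.normalClosure_le_normal Set.inter_subset_right
  let mk : F →* F ⧸ M := QuotientGroup.mk' M
  have key : ∀ q ∈ T1 ∪ T2 ∪ T3 ∪ T4 ∪ T5, f q = 1 → mk q = 1 := fun q hq hq' =>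
    (QuotientGroup.eq_one_iff q).mpr (Subgroup.subset_normalClosure ⟨hq, hq'⟩)
  have hadd : ∀ r : R, r + r = 0 := fun r => by
    calc r + r = (1 + 1) * r := by rw [add_mul, one_mul]
      _ = 0 := by rw [two, zero_mul]
  have hL : Lvl (fun i j o => mk (g0 i j o)) 1 := by
    refine ⟨fun i j k l h1 h2 h3 h4 m m' hm hm' => ?_, fun i j k h1 h2 h3 m m' hm => ?_,
      fun i j h1 m hm => ?_⟩
    · obtain ⟨o, rfl⟩ := list_le_one m hm
      obtain ⟨o', rfl⟩ := list_le_one m' hm'
      rw [← map_XW, ← map_XW, ← commutatorElement_eq_one_iff_commute, ← map_commutatorElement]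
      refine key _ (Or.inl (Or.inl (Or.inl (Or.inl ⟨((i, j, k, l), o, o'), rfl⟩)))) ?_
      rw [map_commutatorElement, hf _ _ _ h1, hf _ _ _ h2, commutatorElement_eq_one_iff_commute]
      exact ht.comm i j k l h1 h2 h3 h4 _ _
    · obtain ⟨o, rfl⟩ := list_le_one m (by omega)
      obtain ⟨o', rfl⟩ := list_le_one m' (by omega)
      rw [← map_XW, ← map_XW, ← map_XW, ← map_commutatorElement, ← mul_inv_eq_one, ← map_inv,
        ← map_mul]
      refine key _ (Or.inl (Or.inl (Or.inl (Or.inr ⟨((i, j, k), o, o'), rfl⟩)))) ?_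
      rw [map_mul, map_inv, map_commutatorElement, hf _ _ _ h1, hf _ _ _ h2, hf _ _ _ h3,
        ht.mul i j k h1 h2 h3, mul_inv_eq_one]
      simp [wd]
    · obtain ⟨o, rfl⟩ := list_le_one m hm
      rw [← map_XW, inv_eq_iff_mul_eq_one, ← map_mul]
      refine key _ (Or.inl (Or.inl (Or.inr ⟨(i, j, o), rfl⟩))) ?_
      rw [map_mul, hf _ _ _ h1, ← ht.add i j h1, hadd, ht.zero h1]
  obtain ⟨x, hx, hx'⟩ := exists_ring_system gen rels huniv hL (by
    intro P hP i j hij
    have h1 : ∀ {Γ' : Type} [Group Γ'] (φ : F →* Γ'), φ (P.map fun m => XW g0 m i j).prod =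
        (P.map fun m => φ (XW g0 m i j)).prod := fun φ => by
      rw [map_list_prod, List.map_map]; rfl
    have h2 : ∀ Q : Poly Z, (Q.map fun m => f (XW g0 m i j)).prod = t i j (evP gen Q) := by
      intro Q
      induction Q with
      | nil => simp [evP, ht.zero hij]
      | cons m Q ih =>
        have : evP gen (m :: Q) = wd gen m + evP gen Q := by simp [evP]
        rw [List.map_cons, List.prod_cons, ih, hf _ _ _ hij, this, ht.add i j hij]
    have := key _ (Or.inr ⟨((i, j), P), ⟨trivial, hP⟩, rfl⟩)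
      (by rw [h1, h2, hrels P hP, ht.zero hij])
    rw [h1] at this
    simpa only [map_XW] using this)
  let π : F ⧸ M →* U := QuotientGroup.lift M f hM
  have hπ : ∀ q, π (mk q) = f q := fun _ => rfl
  refine ⟨F ⧸ M, inferInstance, Group.IsFinitelyPresented.quotient M ⟨S, hS, rfl⟩, x, π, hx, ?_,
    fun i j hij r => ?_⟩
  · rw [eq_top_iff]
    rintro y -
    obtain ⟨q, rfl⟩ := QuotientGroup.mk'_surjective M y
    induction q using FreeGroup.induction_on with
    | C1 => rw [map_one]; exact one_mem _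
    | of p =>
      obtain ⟨i, j, o⟩ := p
      by_cases hij : i = j
      · subst hij
        have := key _ (Or.inl (Or.inr ⟨(i, o), rfl⟩)) (by simp [hf0])
        change mk (g0 i i o) ∈ _
        rw [this]; exact one_mem _
      · apply Subgroup.subset_closure
        cases o with
        | none => exact ⟨i, j, 1, hij, (hx' i j hij).1.symm⟩
        | some z => exact ⟨i, j, gen z, hij, ((hx' i j hij).2 z).symm⟩
    | inv_of p h => rw [map_inv]; exact inv_mem h
    | mul a b ha hb => rw [map_mul]; exact mul_mem ha hb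
  · refine (hx.map π).agree ht hgen (fun _ => True)
      (fun i j => ⟨oth i j, trivial, oth_ne_left i j, oth_ne_right i j⟩) (fun i j hij _ _ => ?_)
      ?_ r i j hij trivial trivial
    · rw [(hx' i j hij).1, hπ]; simp [hf0, hij]
    · rintro _ ⟨z, rfl⟩ i j hij _ _
      rw [(hx' i j hij).2, hπ]; simp [hf0, hij]

end Vale.Agent.P193
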