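import Vale.Agent.P193.Red

/-! Head normal forms. -/

namespace Vale.Agent.P193

open Sgn

universe u

abbrev Idx (D : Sgn) (G : Type u) := (List (Lt D G) × KF D G) ⊕ An D G

variable {D : Sgn} {n : ℕ} {G : Type u} [Group G]

def Lo (w d : ℕ) (μ : List (L D n)) : Prop := μ = [] ∨ wtW μ < w ∨ (wtW μ ≤ w ∧ Dm μ < d)

section defs

variable (gen : Fin n → G) (e : ℕ) {A : Type*} [Ring A] (g : L D n → A) (S : Lt D G → A)
  (θ : A →ₙ+* A)

noncomputable def tm : Idx D G → A → A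
  | .inl p, a => if p.2.isRay then wd S p.1 * (KK gen g p.2 * θ a) else a * (wd S p.1 * KK gen g p.2)
  | .inr x, a => a * annV gen g x

theorem tm_zero (i : Idx D G) : tm gen g S θ i 0 = 0 := by
  cases i <;> simp [tm]

theorem tm_add (i : Idx D G) (a b : A) :
    tm gen g S θ i (a + b) = tm gen g S θ i a + tm gen g S θ i b := by
  cases i with
  | inl p => simp only [tm]; split_ifs <;> simp [mul_add, add_mul]
  | inr x => simp [tm, add_mul]

def V (w d : ℕ) : AddSubmonoid A := AddSubmonoid.closure (wd g '' {μ | Lo w d μ})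

def V0 (w : ℕ) : AddSubmonoid A := AddSubmonoid.closure (wd g '' {μ | wtW μ < w})

def CV (w d : ℕ) : Idx D G → A → Prop
  | .inl p, a => (p.2.isRay = true → a ∈ V g w d) ∧ (p.2.isRay = false → a = 0 ∨ (a = 1 ∧ p.2.valid))
  | .inr (.sc _), a => a ∈ V g w d
  | .inr x, a => a ∈ V0 g w ∧ (a = 0 ∨ x.ok e)

omit [Group G] in
theorem CV_zero (w d : ℕ) (i : Idx D G) : CV e g w d i 0 := by
  rcases i with p | _ | _ | _ | _ <;> simp [CV]

omit [Group G] in
theorem CV_add (h2 : (1 + 1 : A) = 0) {w d : ℕ} {i : Idx D G} {a b : A} (ha : CV e g w d i a)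
    (hb : CV e g w d i b) : CV e g w d i (a + b) := by
  have key : ∀ x : An D G, a ∈ V0 g w ∧ (a = 0 ∨ x.ok e) → b ∈ V0 g w ∧ (b = 0 ∨ x.ok e) →
      a + b ∈ V0 g w ∧ (a + b = 0 ∨ x.ok e) := by
    rintro x ⟨h1, h3⟩ ⟨h4, h5⟩
    refine ⟨add_mem h1 h4, ?_⟩
    rcases h3 with rfl | h3
    · simpa using h5
    · exact Or.inr h3
  rcases i with p | _ | _ | _ | _
  · refine ⟨fun h => add_mem (ha.1 h) (hb.1 h), fun h => ?_⟩
    rcases ha.2 h with rfl | ⟨rfl, h3⟩
    · simpa using hb.2 h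
    · rcases hb.2 h with rfl | ⟨rfl, -⟩
      · simp [h3]
      · exact Or.inl h2
  · exact add_mem ha hb
  all_goals exact key _ ha hb

def HN (h2 : (1 + 1 : A) = 0) (w d : ℕ) : AddSubmonoid A where
  carrier := {x | ∃ f : Idx D G →₀ A, (∀ i, CV e g w d i (f i)) ∧ x = f.sum (tm gen g S θ)}
  zero_mem' := ⟨0, fun i => CV_zero e g w d i, by simp⟩
  add_mem' := by
    rintro _ _ ⟨f, hf, rfl⟩ ⟨f', hf', rfl⟩
    exact ⟨f + f', fun i => CV_add e g h2 (hf i) (hf' i),
      (Finsupp.sum_add_index' (tm_zero gen g S θ) (tm_add gen g S θ)).symm⟩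

variable {gen e g S θ}

theorem tm_mem_HN (h2 : (1 + 1 : A) = 0) {w d : ℕ} (i : Idx D G) (a : A) (ha : CV e g w d i a) :
    tm gen g S θ i a ∈ HN gen e g S θ h2 w d := by
  classical
  refine ⟨Finsupp.single i a, fun j => ?_, (Finsupp.sum_single_index (tm_zero gen g S θ i)).symm⟩
  rw [Finsupp.single_apply]
  split_ifs with hj
  · subst hj; exact ha
  · exact CV_zero e g w d j

theorem mem_V {w d : ℕ} {μ : List (L D n)} (h : Lo w d μ) : wd g μ ∈ V g w d :=
  AddSubmonoid.subset_closure ⟨μ, h, rfl⟩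

theorem mem_V0 {w : ℕ} {μ : List (L D n)} (h : wtW μ < w) : wd g μ ∈ V0 g w :=
  AddSubmonoid.subset_closure ⟨μ, h, rfl⟩

theorem V0_le {w d : ℕ} : V0 g w ≤ V g w d :=
  AddSubmonoid.closure_mono (Set.image_mono fun _ h => Or.inr (Or.inl h))

theorem HN_mono (h2 : (1 + 1 : A) = 0) {w d w' d' : ℕ} (hw : w < w') {x : A}
    (hx : x ∈ HN gen e g S θ h2 w d) : x ∈ HN gen e g S θ h2 w' d' := by
  obtain ⟨f, hf, rfl⟩ := hx
  refine ⟨f, fun i => ?_, rfl⟩
  have hV : V g w d ≤ V g w' d' := AddSubmonoid.closure_mono (Set.image_mono fun μ h => by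
    rcases h with h | h | h
    · exact Or.inl h
    · exact Or.inr (Or.inl (by omega))
    · exact Or.inr (Or.inl (by omega)))
  have hV0 : V0 g w ≤ V0 g w' := AddSubmonoid.closure_mono (Set.image_mono fun μ (h : _ < _) =>
    lt_trans h hw)
  have := hf i
  rcases i with p | _ | _ | _ | _
  · exact ⟨fun h => hV (this.1 h), this.2⟩
  · exact hV this
  all_goals exact ⟨hV0 this.1, this.2⟩

end defs

variable {gen : Fin n → G} {e : ℕ} {A : Type*} [Ring A] {g : L D n → A} {θ : A →ₙ+* A}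

theorem Sys.word_HN (h : Sys gen e g θ) (hD : D.Good) (hs : Function.Surjective (gw gen))
    (w d : ℕ) (μ : List (L D n)) (hμ : Lo w (d + 1) μ) :
    wd g μ ∈ HN gen e g (SA gen g) θ h.two w d := by
  induction w using Nat.strong_induction_on generalizing d μ with
  | _ w ih =>
  have H : (wtW μ = 0 ∧ Dm μ = 0) ∨ wtW μ < w ∨ (wtW μ ≤ w ∧ Dm μ ≤ d) := by
    rcases hμ with rfl | h1 | h1
    · exact Or.inl ⟨rfl, rfl⟩
    · exact Or.inr (Or.inl h1)
    · exact Or.inr (Or.inr ⟨h1.1, by omega⟩)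
  refine AddSubmonoid.closure_le.2 ?_ (h.word_Res hD hs μ)
  intro y hy
  cases hy with
  | st α k r hv h1 h2 =>
    cases hk : k.isRay
    · have := tm_mem_HN (gen := gen) (e := e) (g := g) (S := SA gen g) (θ := θ) h.two (w := w) (d := d)
        (.inl (α, k)) 1 ⟨by simp [hk], fun _ => Or.inr ⟨rfl, hv⟩⟩
      simpa [tm, KR, hk] using this
    · have := tm_mem_HN (gen := gen) (e := e) (g := g) (S := SA gen g) (θ := θ) h.two (w := w) (d := d)
        (.inl (α, k)) (wd g r) ⟨fun _ => mem_V (by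
          rcases r with _ | ⟨ζ, r⟩
          · exact Or.inl rfl
          · simp only [List.length_cons] at h2
            unfold Lo
            omega), by simp [hk]⟩
      simpa [tm, KR, hk] using this
  | low ν h1 =>
    exact HN_mono h.two (w := wtW ν) (d := Dm ν) (by omega)
      (ih _ (by omega) _ ν (Or.inr (Or.inr ⟨le_rfl, Nat.lt_succ_self _⟩)))
  | sc ν c h1 h2 =>
    exact tm_mem_HN h.two (.inr (.sc c)) (wd g ν) (mem_V (by unfold Lo; omega))
  | an ν x hx h1 =>
    refine tm_mem_HN h.two (.inr x) (wd g ν) ?_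
    have h3 : wd g ν ∈ V0 g w := mem_V0 (by omega)
    cases x with
    | sc c => exact V0_le h3
    | _ => exact ⟨h3, Or.inr hx⟩

end Vale.Agent.P193
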