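import Vale.Agent.P193.HN

/-! Test letters. -/

namespace Vale.Agent.P193

open Sgn Filter

universe u

variable {D : Sgn} {n : ℕ} {G : Type u}

def dumN (D : Sgn) (N : ℕ) : D.St := Function.update nil D.dum (List.replicate N D.fl)

theorem dumN_ne (N : ℕ) (i) (hi : i ≠ D.dum) : dumN D N i = [] := by simp [dumN, hi, nil]

def Lt.pad (N : ℕ) : Lt D G → Lt D G
  | .ray m => .ray (m + N)
  | .conf s => .conf (app s (dumN D N))
  | .dis x s => .dis x (app s (dumN D N))

def Lt.ht : Lt D G → ℕ
  | .ray m => m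
  | .conf s => (s D.dum).length
  | .dis _ s => (s D.dum).length

theorem ht_pad (N : ℕ) (c : Lt D G) : (c.pad N).ht = c.ht + N := by
  cases c <;> simp [Lt.pad, Lt.ht, app, dumN]

def KF.bd : KF D G → ℕ
  | .dn j => j + 1
  | .cd _ t _ => (t D.dum).length
  | .dd _ t => (t D.dum).length
  | _ => 0

theorem val_pad (hD : D.Good) (e : ℕ) (q : D.Q) (u : D.St) :
    (∀ N, (val e q (app u (dumN D N)) : Poly (L D n)) = val e q u) ∨ ∃ q' u', ∀ N,
      (val e q (app u (dumN D N)) : Poly (L D n))
        = [l0 (Z.aD :: popW (encO q' (app u' (dumN D N))))] := by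
  obtain ⟨h1, h2⟩ := orig_spec (e := e) hD (q, u)
  have h3 : ∀ N, orig e (q, app u (dumN D N))
      = ((orig e (q, u)).1, app (orig e (q, u)).2 (dumN D N)) := fun N => by
    refine orig_eq hD (rtg_app h1 _) ?_
    rintro ⟨c', ρ, s, rfl, h⟩
    obtain ⟨h4, h5⟩ := Prod.mk.inj h
    obtain ⟨s', hs, -⟩ := split_dum (dumN_ne N) (hD.rhs_dum e ρ) h5
    exact h2 ⟨_, ρ, s', rfl, Prod.ext h4 hs⟩
  by_cases hq : (orig e (q, u)).1 = D.q0
  · left
    intro N
    simp [val, h3, hq, app, dumN_ne N _ hD.inp_dum]
  · by_cases hr : D.Reach e (orig e (q, u))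
    · left
      intro N
      obtain ⟨v, hv⟩ := hr
      have : D.Reach e ((orig e (q, u)).1, app (orig e (q, u)).2 (dumN D N)) := ⟨_, rtg_app hv _⟩
      simp [val, h3, hq, this, show D.Reach e (orig e (q, u)) from ⟨v, hv⟩]
    · right
      refine ⟨(orig e (q, u)).1, (orig e (q, u)).2, fun N => ?_⟩
      have := (Gen.app_dum hD (show D.Gen e ((orig e (q, u)).1, (orig e (q, u)).2) from ⟨h2, hq, hr⟩)
        (dumN_ne N)).2.2
      simp [val, h3, hq, this]

variable [Group G]

open Classical in
noncomputable def kf : KF D G → Lt D G → Option (Lt D G)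
  | .up i, .ray m => some (.ray (m + i))
  | .dn j, .ray m => if j + 1 ≤ m then some (.ray (m - (j + 1))) else none
  | .cc s, .conf u => some (.conf (app s u))
  | .cd x t s, .conf u =>
      if ∀ i, t i <+: app s u i then some (.dis x fun i => (app s u i).drop (t i).length) else none
  | .dd x t, .dis y u =>
      if ∀ i, t i <+: u i then some (.dis (x * y) fun i => (u i).drop (t i).length) else none
  | _, _ => none

theorem kf_ht {k : KF D G} {c c' : Lt D G} (h : kf k c = some c') : c.ht ≤ c'.ht + k.bd := by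
  cases k <;> cases c <;> simp only [kf, reduceCtorEq] at h
  all_goals try split_ifs at h
  all_goals obtain rfl := Option.some.inj h
  all_goals simp only [Lt.ht, KF.bd, app, List.length_append, List.length_drop]
  all_goals omega

theorem kf_far (k : KF D G) (c0 : Lt D G) (β : List (Lt D G)) :
    ∀ᶠ N in atTop, ∀ c', kf k (c0.pad N) = some c' → c' ∉ β := by
  filter_upwards [eventually_gt_atTop (k.bd + (β.map Lt.ht).sum)] with N hN c' h hc
  have h1 := kf_ht h
  have h2 := List.single_le_sum (l := β.map Lt.ht) (fun _ _ => Nat.zero_le _) _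
    (List.mem_map_of_mem hc)
  rw [ht_pad] at h1
  omega

theorem kf_inj {k k' : KF D G} (hv : k.valid) (hv' : k'.valid) {c d : Lt D G}
    (h : kf k c = some d) (h' : kf k' c = some d) : k = k' := by
  cases k <;> cases c <;> simp only [kf, reduceCtorEq] at h
  all_goals try split_ifs at h
  all_goals obtain rfl := Option.some.inj h
  all_goals cases k' <;> simp only [kf, reduceCtorEq] at h'
  all_goals try split_ifs at h'
  all_goals simp only [Option.some.injEq, Lt.ray.injEq, reduceCtorEq, Lt.conf.injEq,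
    Lt.dis.injEq] at h'
  all_goals try (first | omega | (congr 1; omega))
  · rw [app_right_cancel h']
  · rename_i x t s u h1 x' t' s' h2
    obtain ⟨rfl, h3⟩ := h'
    have key : ∀ i, t i = t' i ∧ s i = s' i := by
      intro i
      obtain ⟨v, hv1⟩ := h1 i
      obtain ⟨v', hv2⟩ := h2 i
      have h4 := congrFun h3 i
      simp only [← hv1, ← hv2, List.drop_left] at h4
      subst h4
      simp only [app] at hv1 hv2
      have l1 := congrArg List.length hv1
      have l2 := congrArg List.length hv2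
      simp only [List.length_append] at l1 l2
      rcases hv i with h5 | h5 <;> rcases hv' i with h6 | h6 <;>
        simp only [h5, h6, List.nil_append, List.length_nil] at hv1 hv2 l1 l2 ⊢
      · exact ⟨trivial, List.append_cancel_right (hv1.symm.trans hv2)⟩
      · exact ⟨(List.eq_nil_of_length_eq_zero (by omega)).symm,
          List.eq_nil_of_length_eq_zero (by omega)⟩
      · exact ⟨List.eq_nil_of_length_eq_zero (by omega),
          (List.eq_nil_of_length_eq_zero (by omega)).symm⟩
      · exact ⟨List.append_cancel_right (hv1.trans hv2.symm), trivial⟩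
    rw [funext fun i => (key i).1, funext fun i => (key i).2]
  · rename_i x t y u h1 x' t' h2
    obtain ⟨h3, h4⟩ := h'
    obtain rfl := mul_right_cancel h3
    congr 1
    funext i
    obtain ⟨v, hv1⟩ := h1 i
    obtain ⟨v', hv2⟩ := h2 i
    have h5 := congrFun h4 i
    have h6 : (u i).drop (t i).length = v := by rw [← hv1, List.drop_left]
    have h7 : (u i).drop (t' i).length = v' := by rw [← hv2, List.drop_left]
    simp only [h6, h7] at h5
    subst h5
    exact List.append_cancel_right (hv1.trans hv2.symm)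

theorem kf_ex (k : KF D G) (hv : k.valid) : ∃ c0 : Lt D G, ∀ N, ∃ d, kf k (c0.pad N) = some d := by
  cases k with
  | up i => exact ⟨.ray 0, fun N => ⟨_, rfl⟩⟩
  | dn j => exact ⟨.ray (j + 1), fun N => ⟨_, if_pos (by omega)⟩⟩
  | cc s => exact ⟨.conf nil, fun N => ⟨_, rfl⟩⟩
  | cd x t s =>
    refine ⟨.conf t, fun N => ⟨_, if_pos fun i => ?_⟩⟩
    rcases hv i with h | h <;> simp [app, h]
  | dd x t => exact ⟨.dis 1 t, fun N => ⟨_, if_pos fun i => by simp [app]⟩⟩

theorem isolate {ι B : Type*} [Ring B] (f : ι →₀ B) (F F' : ι → B → B) (h0 : f.sum F = 0)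
    (h0' : f.sum F' = 0) (L R R' : B) (i0 : ι) (y : B)
    (hne : ∀ i ∈ f.support, i ≠ i0 → L * (F i (f i) * R) = L * (F' i (f i) * R'))
    (h1 : i0 ∈ f.support → L * (F i0 (f i0) * R) = y + L * (F' i0 (f i0) * R'))
    (hy : i0 ∉ f.support → y = 0) : y = 0 := by
  by_cases hi : i0 ∈ f.support
  swap
  · exact hy hi
  have e1 : ∑ i ∈ f.support, (L * (F i (f i) * R) - L * (F' i (f i) * R')) = 0 := by
    rw [Finset.sum_sub_distrib, ← Finset.mul_sum, ← Finset.mul_sum, ← Finset.sum_mul,
      ← Finset.sum_mul]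
    rw [Finsupp.sum] at h0 h0'
    rw [h0, h0']
    simp
  rw [Finset.sum_eq_single_of_mem i0 hi fun i hi' hne' => by rw [hne i hi' hne', sub_self],
    h1 hi, add_sub_cancel_right] at e1
  exact e1

theorem transfer {ι B : Type*} [Ring B] (f : ι →₀ B) (F F' : ι → B → B) (h0 : f.sum F = 0)
    (R R' : B) (hne : ∀ i ∈ f.support, F i (f i) * R = F' i (f i) * R') : f.sum F' * R' = 0 := by
  rw [← zero_mul R, ← h0, Finsupp.sum, Finsupp.sum, Finset.sum_mul, Finset.sum_mul]
  exact Finset.sum_congr rfl fun i hi => (hne i hi).symm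

namespace Act

variable {gen : Fin n → G} {e : ℕ} {A : Type*} [Ring A] {g : L D n → A} {S : Lt D G → A}
  {θ : A →ₙ+* A} (h : Act gen e g S θ)
include h

theorem y1_pow (j m : ℕ) :
    g (0, .y1) ^ j * S (.ray m) = if j ≤ m then S (.ray (m - j)) else 0 := by
  induction j generalizing m with
  | zero => simp
  | succ j ih =>
    rw [pow_succ, mul_assoc, h.top _ _ rfl]
    cases m <;> simp [tf, ih]

theorem KK_S (hs : Function.Surjective (gw gen)) (k : KF D G) (c : Lt D G)
    (hk : k.isRay = c.isRay ∨ k.isRay = false) : KK gen g k * S c = (kf k c).elim 0 S := by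
  cases k <;> cases c <;> simp only [KF.isRay, Lt.isRay, reduceCtorEq, or_self] at hk <;>
    simp only [KK, KW, wd_append, wd_cons, wd_nil, mul_one, mul_assoc, wd_replicate, kf,
      h.top .pC _ rfl, h.top .pD _ rfl, tf, Option.elim_none, Option.elim_some, mul_zero,
      h.pushW_conf, h.dl_conf, h.popW_dis, h.x1_pow, h.y1_pow]
  all_goals split_ifs <;> simp [h.lamW_dis, gw_wOf hs]

theorem tm_N (hs : Function.Surjective (gw gen)) (α : List (Lt D G)) (k : KF D G) (a : A)
    (ha : k.isRay = false → a = 0 ∨ (a = 1 ∧ k.valid)) (c : Lt D G) :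
    tm gen g S θ (.inl (α, k)) a * S c = (kf k c).elim 0 fun c' => wd S (α ++ [c']) * a := by
  cases hk : k.isRay
  · simp only [tm, hk, Bool.false_eq_true, if_false, mul_assoc, h.KK_S hs k c (Or.inr hk)]
    rcases ha hk with rfl | ⟨rfl, -⟩ <;> cases kf k c <;> simp
  · simp only [tm, hk, if_true, mul_assoc, h.th_S]
    cases hc : c.isRay
    · cases k <;> cases c <;> simp_all [KF.isRay, Lt.isRay, kf]
    · rw [if_pos rfl, ← mul_assoc (KK gen g k), h.KK_S hs k c (Or.inl (hk.trans hc.symm))]
      cases kf k c <;> simp [mul_assoc]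

theorem sc_far (hs : Function.Surjective (gw gen)) (c c0 : Lt D G) :
    ∀ᶠ N in atTop, Sst gen g c * S (c0.pad N) = 0 := by
  filter_upwards [eventually_gt_atTop c.ht] with N hN
  rw [h.Sst_S hs, if_neg]
  intro hh
  have := ht_pad N c0
  rw [hh] at this
  omega

theorem enc_far (q : D.Q) (u : D.St) (d : Lt D G) : ∀ᶠ N in atTop,
    evP g [l0 (Z.aD :: popW (encO q (app u (dumN D N))))] * S d = 0 := by
  filter_upwards [eventually_gt_atTop d.ht] with N hN
  simp only [evP_cons, evP_nil, add_zero, wd_l0, wd_cons]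
  rw [h.aD_popW, if_neg]
  rintro rfl
  simp [Lt.ht, encO, app, dumN] at hN
  omega

variable (hD : D.Good)
include hD

open Classical in
theorem t1_S (c : Lt D G) : g (0, .T D.q0) * g (0, .push D.inp D.hash) * S c
    = if ∃ s, c = .conf s then 1 else 0 := by
  cases c with
  | conf s =>
    have := h.T0_inW hD [D.hash] s
    rw [List.singleton_append, ev_other hD.th_hash.symm fun i => (hD.inI_hash i).symm] at this
    simpa [inW, h.one] using this
  | _ => simp [mul_assoc, h.top (.push _ _) _ rfl, tf]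

open Classical in
theorem an_const (hs : Function.Surjective (gw gen)) (x : An D G) (c0 d : Lt D G) :
    ∃ C, ∀ᶠ N in atTop, annV gen g x * (S (c0.pad N) * S d) = C := by
  cases x with
  | sc c => exact ⟨0, (h.sc_far hs c c0).mono fun N hN => by rw [← mul_assoc, annV, hN, zero_mul]⟩
  | tj j =>
    cases c0 with
    | conf s => exact ⟨_, .of_forall fun N => by
        rw [← mul_assoc, annV, Lt.pad, h.tj_conf hD, app, dumN_ne N _ hD.inp_dum]⟩
    | _ => exact ⟨0, .of_forall fun N => by
        rw [← mul_assoc, annV, h.tj_nonconf _ _ (by simp [Lt.pad]), zero_mul]⟩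
  | t1 =>
    refine ⟨(if ∃ s, c0 = .conf s then 1 else 0) * S d, .of_forall fun N => ?_⟩
    rw [← mul_assoc, annV, h.t1_S hD]
    cases c0 <;> simp [Lt.pad]
  | gn q u =>
    cases c0 with
    | conf s =>
      simp only [← mul_assoc, annV, Lt.pad, h.T_pushW_conf, ← app_assoc]
      rcases val_pad (n := n) hD e q (app u s) with h1 | ⟨q', u', h1⟩
      · exact ⟨_, .of_forall fun N => by rw [h1]⟩
      · exact ⟨0, (h.enc_far q' u' d).mono fun N hN => by rw [h1, hN]⟩
    | _ => exact ⟨0, .of_forall fun N => by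
        rw [← mul_assoc, annV, h.T_pushW_nonconf _ _ _ (by simp [Lt.pad]), zero_mul]⟩

end Act

end Vale.Agent.P193
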