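import Vale.Agent.P193.Ind

/-! Independence of head normal forms in a faithful action. -/

namespace Vale.Agent.P193

open Sgn Filter

universe u

variable {D : Sgn} {n : ℕ} {G : Type u} [Group G]

theorem pre_concat {β : Type*} {a b : List β} {c d : β} (h : a ++ [c] <+: b ++ [d]) (hc : c ∉ b) :
    a = b ∧ c = d := by
  rcases List.prefix_concat_iff.1 h with h1 | h1
  · obtain ⟨h2, h3⟩ := List.append_inj' h1 rfl
    exact ⟨h2, by simpa using h3⟩
  · exact absurd (h1.subset (by simp)) hc

noncomputable def cst {A : Type*} [Ring A] (g : L D n → A) (θ : A →ₙ+* A) (l : List D.Sg) :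
    Idx D G → A → A
  | .inr (.tj j), a => a * θ^[j] (evP g (ev l))
  | .inr .t1, a => a
  | _, _ => 0

def ex {A : Type*} [Ring A] (g : L D n → A) : Idx D G → A
  | .inr (.tj j) => g (j, .one)
  | _ => 1

namespace Act

variable {gen : Fin n → G} {e : ℕ} {A : Type*} [Ring A] {g : L D n → A} {S : Lt D G → A}
  {θ : A →ₙ+* A} (h : Act gen e g S θ)
include h

theorem th_aD (β : List (Lt D G)) (hβ : ∀ c ∈ β, c.isRay = true) (j : ℕ) :
    θ^[j] (g (0, .aD)) * (wd S β * S (.dis 1 nil)) = if j = β.length then wd S β else 0 := by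
  induction β generalizing j with
  | nil => cases j <;> simp [h.annD, Function.iterate_succ_apply', h.th_S, Lt.isRay]
  | cons c β ih =>
    have hc := hβ c List.mem_cons_self
    rw [wd_cons, mul_assoc, ← mul_assoc]
    cases j with
    | zero =>
      rw [Function.iterate_zero_apply, h.annD, if_neg (by rintro rfl; simp [Lt.isRay] at hc)]
      simp
    | succ j =>
      rw [Function.iterate_succ_apply', h.th_S, if_pos hc, mul_assoc,
        ih fun c hc => hβ c (List.mem_cons_of_mem _ hc)]
      simp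

variable (hx : ∀ f f' : A, (∀ c, f * S c = f' * S c) → f = f')
include hx

theorem th_one_zero (m : ℕ) (a : A) (ha : ∀ β : List (Lt D G), (∀ c ∈ β, c.isRay = true) →
    β.length = m → a * wd S β = 0) : a * θ^[m] 1 = 0 := by
  induction m generalizing a with
  | zero => simpa using ha [] (by simp) rfl
  | succ m ih =>
    apply hx
    intro c
    rw [Function.iterate_succ_apply', mul_assoc, h.th_S, zero_mul]
    split_ifs with hc
    · rw [← mul_assoc]
      refine ih _ fun β h1 h2 => ?_
      rw [mul_assoc, ← wd_cons]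
      exact ha _ (by simpa [hc] using h1) (by simp [h2])
    · simp

variable (hD : D.Good) (hs : Function.Surjective (gw gen)) (f : Idx D G →₀ A)
  (h0 : f.sum (tm gen g S θ) = 0)
include hD hs h0

theorem ind_N (hN : ∀ p : List (Lt D G) × KF D G, p.2.isRay = false →
    f (.inl p) = 0 ∨ (f (.inl p) = 1 ∧ p.2.valid)) (p0 : List (Lt D G) × KF D G) :
    f (.inl p0) = 0 := by
  obtain ⟨α0, k0⟩ := p0
  have hval : ∀ p : List (Lt D G) × KF D G, .inl p ∈ f.support → p.2.valid := by
    intro p hp
    cases hk : p.2.isRay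
    · exact ((hN p hk).resolve_left (Finsupp.mem_support_iff.1 hp)).2
    · obtain ⟨α, k⟩ := p
      cases k <;> trivial
  by_contra hne
  have hv0 := hval (α0, k0) (Finsupp.mem_support_iff.2 hne)
  apply hne
  apply hx
  intro d
  rw [zero_mul]
  obtain ⟨c0, hc0⟩ := kf_ex k0 hv0
  choose C hC using fun x => h.an_const hD hs x c0 d
  have E : ∀ β : List (Lt D G), ∀ᶠ N in atTop, ∀ i ∈ f.support,
      (∀ x, i = .inr x → annV gen g x * (S (c0.pad N) * S d) = C x) ∧
      (∀ α k, i = .inl (α, k) → (∀ c', kf k0 (c0.pad N) = some c' → c' ∉ α) ∧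
        ∀ c', kf k (c0.pad N) = some c' → c' ∉ β) := by
    intro β
    rw [eventually_all_finset]
    rintro (⟨α, k⟩ | x) -
    · filter_upwards [kf_far k0 c0 α, kf_far k c0 β] with N h1 h2
      refine ⟨by simp, ?_⟩
      rintro _ _ ⟨⟩
      exact ⟨h1, h2⟩
    · filter_upwards [hC x] with N h1
      refine ⟨?_, by simp⟩
      rintro _ ⟨⟩
      exact h1
  obtain ⟨N, hN1⟩ := (E α0).exists
  obtain ⟨d0, hd0⟩ := hc0 N
  obtain ⟨N', hN2⟩ := (E (α0 ++ [d0])).exists
  have hz : ∀ α k, .inl (α, k) ∈ f.support → SSt gen g (α0 ++ [d0]) *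
      (tm gen g S θ (.inl (α, k)) (f (.inl (α, k))) * (S (c0.pad N') * S d)) = 0 := by
    intro α k hi
    rw [← mul_assoc (tm _ _ _ _ _ _), h.tm_N hs α k _ (hN (α, k))]
    rcases hk : kf k (c0.pad N') with _ | c'
    · simp
    · have h3 := ((hN2 _ hi).2 α k rfl).2 c' hk
      rw [Option.elim_some, ← mul_assoc, ← mul_assoc, h.SSt_incomp hs]
      · simp
      · intro hp
        exact h3 (by simp [(pre_concat hp (((hN1 _ hi).2 α k rfl).1 d0 hd0)).2])
      · intro hp
        exact h3 (hp.subset (by simp))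
  refine isolate f _ _ h0 h0 (SSt gen g (α0 ++ [d0])) (S (c0.pad N) * S d) (S (c0.pad N') * S d)
    (.inl (α0, k0)) _ ?_ ?_ ?_
  · rintro (⟨α, k⟩ | x) hi hne'
    · rw [hz α k hi, ← mul_assoc (tm _ _ _ _ _ _), h.tm_N hs α k _ (hN (α, k))]
      rcases hk : kf k (c0.pad N) with _ | c'
      · simp
      · have key : ¬ (α0 = α ∧ d0 = c') := by
          rintro ⟨rfl, rfl⟩
          exact hne' (by rw [kf_inj (k := k) (k' := k0) (hval _ hi) hv0 hk hd0])
        rw [Option.elim_some, ← mul_assoc, ← mul_assoc, h.SSt_incomp hs]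
        · simp
        · exact fun hp => key (pre_concat hp (((hN1 _ hi).2 α k rfl).1 d0 hd0))
        · intro hp
          have := pre_concat hp (((hN1 _ hi).2 α k rfl).2 c' hk)
          exact key ⟨this.1.symm, this.2.symm⟩
    · simp only [tm, mul_assoc, (hN1 _ hi).1 x rfl, (hN2 _ hi).1 x rfl]
  · intro hi
    rw [hz α0 k0 hi, ← mul_assoc (tm _ _ _ _ _ _), h.tm_N hs α0 k0 _ (hN (α0, k0)), hd0,
      Option.elim_some, ← mul_assoc, ← mul_assoc, h.SSt_self hs]
    simp
  · intro hi
    rw [Finsupp.notMem_support_iff.1 hi, zero_mul]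

theorem ind (hN : ∀ p : List (Lt D G) × KF D G, p.2.isRay = false →
    f (.inl p) = 0 ∨ (f (.inl p) = 1 ∧ p.2.valid))
    (hG : ∀ q u, f (.inr (.gn q u)) = 0 ∨ D.Gen e (q, u)) (i : Idx D G) : f i * ex g i = 0 := by
  have h1 := h.ind_N hx hD hs f h0 hN
  have hsupp : ∀ i ∈ f.support, ∃ x, i = .inr x ∧ x.ok e := by
    rintro (p | x) hi
    · exact absurd (h1 p) (Finsupp.mem_support_iff.1 hi)
    · refine ⟨x, rfl, ?_⟩
      cases x with
      | gn q u => exact (hG q u).resolve_left (Finsupp.mem_support_iff.1 hi)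
      | _ => trivial
  have hsc : ∀ c0 : Lt D G, ∀ᶠ N in atTop, ∀ i ∈ f.support, ∀ c, i = .inr (.sc c) →
      Sst gen g c * S (c0.pad N) = 0 := by
    intro c0
    rw [eventually_all_finset]
    rintro (p | c | j | _ | _) -
    case inr.sc => exact (h.sc_far hs c c0).mono fun N hN _ hc => by cases hc; exact hN
    all_goals exact .of_forall (by simp)
  have hgn : ∀ q u N, D.Gen e (q, u) → annV gen g (.gn q u) * S ((Lt.conf nil).pad N)
      = evP g [l0 (Z.aD :: popW (encO q (app u (dumN D N))))] := by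
    intro q u N hg
    rw [annV, Lt.pad, h.T_pushW_conf, nil_app, val_gen hD (Gen.app_dum hD hg (dumN_ne N))]
  have hrest : ∀ (s : D.St) N a, tm gen g S θ (.inr .t1) a * S ((Lt.conf s).pad N)
      = cst g θ (s D.inp) (.inr .t1 : Idx D G) a ∧ ∀ j, tm gen g S θ (.inr (.tj j)) a *
        S ((Lt.conf s).pad N) = cst g θ (s D.inp) (.inr (.tj j) : Idx D G) a := by
    intro s N a
    refine ⟨by simp only [tm, annV, cst, mul_assoc a, h.t1_S hD, Lt.pad]; simp, fun j => ?_⟩
    simp [tm, annV, cst, mul_assoc, Lt.pad, h.tj_conf hD, app, dumN_ne N _ hD.inp_dum]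
  have h2 : f.sum (cst g θ []) = 0 := by
    apply hx
    intro d
    rw [zero_mul]
    have E : ∀ᶠ N in atTop, ∀ i ∈ f.support, ∀ q u, i = .inr (.gn q u) →
        evP g [l0 (Z.aD :: popW (encO q (app u (dumN D N))))] * S d = 0 := by
      rw [eventually_all_finset]
      rintro (p | c | j | _ | ⟨q, u⟩) -
      case inr.gn => exact (h.enc_far q u d).mono fun N hN _ _ hc => by cases hc; exact hN
      all_goals exact .of_forall (by simp)
    obtain ⟨N, hN1, hN2⟩ := (E.and (hsc (.conf nil))).exists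
    refine transfer f _ _ h0 (S ((Lt.conf nil).pad N) * S d) _ fun i hi => ?_
    obtain ⟨x, rfl, hx⟩ := hsupp i hi
    rw [← mul_assoc]
    cases x with
    | sc c => simp [tm, annV, cst, mul_assoc (f _), hN2 _ hi c rfl]
    | tj j => rw [(hrest nil N _).2]; rfl
    | t1 => rw [(hrest nil N _).1]; rfl
    | gn q u => rw [tm, mul_assoc (f _), hgn q u N hx, mul_assoc, hN1 _ hi q u rfl]; simp [cst]
  have h3 : ∀ q u, f (.inr (.gn q u)) = 0 := by
    intro q0 u0
    obtain ⟨N, hN2⟩ := (hsc (.conf nil)).exists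
    refine isolate f _ _ h0 h2 1 (S ((Lt.conf nil).pad N) *
      S (.dis 1 (encO q0 (app u0 (dumN D N))))) (S (.dis 1 (encO q0 (app u0 (dumN D N)))))
      (.inr (.gn q0 u0)) _ ?_ ?_ Finsupp.notMem_support_iff.1
    · intro i hi hne
      obtain ⟨x, rfl, hx⟩ := hsupp i hi
      rw [one_mul, one_mul, ← mul_assoc]
      cases x with
      | sc c => simp [tm, annV, cst, mul_assoc (f _), hN2 _ hi c rfl]
      | tj j => rw [(hrest nil N _).2]; rfl
      | t1 => rw [(hrest nil N _).1]; rfl
      | gn q u =>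
        rw [tm, mul_assoc (f _), hgn q u N hx, mul_assoc]
        simp only [evP_cons, evP_nil, add_zero, wd_l0, wd_cons]
        rw [h.aD_popW, if_neg]
        · simp [cst]
        · intro hh
          simp only [Lt.dis.injEq, true_and] at hh
          have h4 := congrFun hh D.dum
          simp only [encO, Function.update_self, List.cons.injEq] at h4
          apply hne
          rw [hD.stl_inj h4.1]
          congr 2
          apply app_right_cancel (a := dumN D N)
          funext i
          by_cases hi : i = D.dum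
          · subst hi; exact h4.2.symm
          · simpa [encO, hi] using (congrFun hh i).symm
    · intro hi
      obtain ⟨x, hx1, hx⟩ := hsupp _ hi
      cases hx1
      rw [one_mul, ← mul_assoc, tm, mul_assoc (f _), hgn _ _ N hx, mul_assoc]
      simp only [evP_cons, evP_nil, add_zero, wd_l0, wd_cons]
      rw [h.aD_popW]
      simp [cst]
  have h4 : ∀ l, f.sum (cst g θ l) = 0 := by
    intro l
    obtain ⟨N, hN2⟩ := (hsc (.conf (Function.update nil D.inp l))).exists
    rw [← mul_one (f.sum _)]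
    refine transfer f _ _ h0 (S ((Lt.conf (Function.update nil D.inp l)).pad N)) _ fun i hi => ?_
    obtain ⟨x, rfl, hx⟩ := hsupp i hi
    cases x with
    | sc c => simp [tm, annV, cst, mul_assoc (f _), hN2 _ hi c rfl]
    | tj j => rw [(hrest _ N _).2]; simp
    | t1 => rw [(hrest _ N _).1]; simp
    | gn q u => exact absurd (h3 q u) (Finsupp.mem_support_iff.1 hi)
  have hc : ∀ P : Poly (Z D n), evP g (ev ((code P).map D.inI)) = evP (fun z => g (0, z)) P := by
    intro P
    rw [← List.append_nil (List.map _ _), ev_in hD, (h.lv hx).code_val]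
    simp [ev, h.one]
  have hz : f.sum (fun _ _ => (0 : A)) = 0 := by simp [Finsupp.sum]
  have h5 : f (.inr .t1) = 0 := by
    refine isolate f _ _ (h4 ((code ([] : Poly (Z D n))).map D.inI)) hz 1 1 1 (.inr .t1) _ ?_ ?_
      Finsupp.notMem_support_iff.1
    · rintro (p | c | j | _ | _) - hne <;> simp [cst, hc] at hne ⊢
    · simp [cst]
  have h6 : ∀ m, f (.inr (.tj m)) * g (m, .one) = 0 := by
    intro m
    rw [← h.iter_one]
    refine h.th_one_zero hx m _ fun β hβ hm => ?_
    refine isolate f _ _ (h4 ((code ([[Z.aD]] : Poly (Z D n))).map D.inI)) hz 1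
      (wd S β * S (.dis 1 nil)) 1 (.inr (.tj m)) _ ?_ ?_ ?_
    · rintro (p | c | j | _ | _) - hne <;> simp [cst, hc, h5, mul_assoc, h.th_aD β hβ] at hne ⊢
      simp [hm, hne]
    · simp [cst, hc, mul_assoc, h.th_aD β hβ, hm]
    · intro hi
      rw [Finsupp.notMem_support_iff.1 hi, zero_mul]
  have h7 : ∀ c, f (.inr (.sc c)) = 0 := by
    intro c0
    refine isolate f _ _ h0 hz 1 (S c0) 1 (.inr (.sc c0)) _ ?_ ?_ Finsupp.notMem_support_iff.1
    · rintro (p | c | j | _ | _) - hne
      · simp [h1, tm_zero]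
      · simp only [ne_eq, Sum.inr.injEq, An.sc.injEq] at hne
        simp [tm, annV, mul_assoc, h.Sst_S hs, Ne.symm hne]
      · have := (h.base hx hD (Sm := ∅) (.e3 j)).resolve_left (by simp)
        simp only [evP_cons, evP_nil, add_zero, wd_cons] at this
        simp only [tm, annV]
        rw [h.eq_of_add this, ← mul_assoc (f _), h6]
        simp
      · simp [h5, tm_zero]
      · simp [h3, tm_zero]
    · simp [tm, annV, mul_assoc, h.Sst_S hs]
  rcases i with p | c | j | _ | _ <;> simp [ex, h1, h3, h5, h6, h7]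

end Act

end Vale.Agent.P193
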