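import Vale.Agent.P193.Faith

/-! Locality and its consequences. -/

namespace Vale.Agent.P193

open Sgn

universe u

variable {D : Sgn} {n : ℕ} {G : Type u}

theorem incomp {β : Type*} {v c c' : β} {a b : List β} {M : ℕ} (hc : c ≠ v) (hb : b.length ≤ M)
    (h : a ++ List.replicate M v ++ [c] <+: b ++ List.replicate M v ++ [c']) : a = b ∧ c = c' := by
  rcases List.prefix_concat_iff.1 h with h1 | ⟨t, ht⟩
  · obtain ⟨h2, h3⟩ := List.append_inj' h1 rfl
    exact ⟨List.append_cancel_right h2, by simpa using h3⟩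
  · have := congrArg (List.drop b.length) ht
    rw [List.drop_left, List.append_assoc, List.drop_append_of_le_length (by simp; omega)] at this
    have h2 : c ∈ List.replicate M v := by rw [← this]; simp
    exact absurd (List.eq_of_mem_replicate h2) hc

section

variable {A : Type*} [Ring A] (S : Lt D G → A)

def Sp (w : ℕ) : AddSubmonoid A := AddSubmonoid.closure (wd S '' {β | szL β ≤ w})

theorem mem_Sp {w : ℕ} {β : List (Lt D G)} (h : szL β ≤ w) : wd S β ∈ Sp S w :=
  AddSubmonoid.subset_closure ⟨β, h, rfl⟩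

theorem Sp_vac {w : ℕ} {y : A} (h : y ∈ Sp S w) (K : ℕ) : y * S (.ray 0) ^ K ∈ Sp S w := by
  refine closure_mul_mem _ ?_ h
  rintro _ ⟨β, hβ, rfl⟩
  rw [← wd_replicate, ← wd_append]
  exact mem_Sp S (by simpa [szL, Lt.sz] using hβ)

def Sq (w : ℕ) : AddSubmonoid A where
  carrier := {x | ∃ K, x * S (.ray 0) ^ K ∈ Sp S w}
  zero_mem' := ⟨0, by simp⟩
  add_mem' := by
    rintro a b ⟨K, ha⟩ ⟨K', hb⟩
    refine ⟨K + K', ?_⟩
    rw [add_mul]
    refine add_mem ?_ ?_
    · rw [pow_add, ← mul_assoc]; exact Sp_vac S ha _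
    · rw [add_comm, pow_add, ← mul_assoc]; exact Sp_vac S hb _

variable {S}

theorem mem_Sq {w : ℕ} {β : List (Lt D G)} (h : szL β ≤ w) : wd S β ∈ Sq S w :=
  ⟨0, by simpa using mem_Sp S h⟩

theorem Sq_mono {w w' : ℕ} (hw : w ≤ w') {x : A} (h : x ∈ Sq S w) : x ∈ Sq S w' := by
  obtain ⟨K, h⟩ := h
  exact ⟨K, AddSubmonoid.closure_mono (Set.image_mono fun _ hβ => le_trans hβ hw) h⟩

theorem Sq_mul {w w' : ℕ} (a : A) (ha : ∀ β, szL β ≤ w → a * wd S β ∈ Sq S w') {x : A}
    (h : x ∈ Sq S w) : a * x ∈ Sq S w' := by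
  obtain ⟨K, h⟩ := h
  obtain ⟨K', h'⟩ := mul_mem_closure (T := Sq S w') a (by rintro _ ⟨β, hβ, rfl⟩; exact ha β hβ) h
  exact ⟨K + K', by rwa [pow_add, ← mul_assoc, mul_assoc a]⟩

theorem Sp_finset (h2 : ∀ r : A, r + r = 0) {w : ℕ} {y : A} (h : y ∈ Sp S w) :
    ∃ F : Finset (List (Lt D G)), y = ∑ β ∈ F, wd S β := by
  classical
  induction h using AddSubmonoid.closure_induction_left with
  | zero => exact ⟨∅, by simp⟩
  | add_left x hx y _ ih =>
    obtain ⟨β, -, rfl⟩ := hx
    obtain ⟨F, rfl⟩ := ih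
    by_cases hβ : β ∈ F
    · exact ⟨F.erase β, by rw [← Finset.add_sum_erase F _ hβ, ← add_assoc, h2, zero_add]⟩
    · exact ⟨insert β F, by rw [Finset.sum_insert hβ]⟩

end

variable [Group G]

namespace Act

variable {gen : Fin n → G} {e : ℕ} {A : Type*} [Ring A] {g : L D n → A} {S : Lt D G → A}
  {θ : A →ₙ+* A} (h : Act gen e g S θ)
include h

theorem loc (hD : D.Good) (N : ℕ) (μ : List (L D n)) (α : List (Lt D G))
    (hN : wtW μ + szL α ≤ N) : wd g μ * wd S α ∈ Sq S (wtW μ + szL α) := by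
  induction N using Nat.strong_induction_on generalizing μ α with
  | _ N ih =>
  have letter : ∀ j z (β : List (Lt D G)), wz z + szL β ≤ N →
      g (j, z) * wd S β ∈ Sq S (wz z + szL β) := by
    intro j z
    have red : ∀ j, (∀ c (γ : List (Lt D G)), wz z + szL (c :: γ) ≤ N →
        g (j, z) * wd S (c :: γ) ∈ Sq S (wz z + szL (c :: γ))) →
        ∀ β : List (Lt D G), wz z + szL β ≤ N → g (j, z) * wd S β ∈ Sq S (wz z + szL β) := by
      intro j H β hβ
      cases β with
      | cons c γ => exact H c γ hβ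
      | nil =>
        obtain ⟨K, hK⟩ := H (.ray 0) [] hβ
        exact ⟨K + 1, by simpa [pow_succ', mul_assoc, Lt.sz] using hK⟩
    induction j with
    | succ j ihj =>
      refine red _ fun c γ hc => ?_
      rw [wd_cons, ← mul_assoc, ← h.th_g, h.th_S]
      split_ifs
      · rw [mul_assoc]
        refine Sq_mul _ (fun β hβ => ?_) (ihj γ (by simp only [szL_cons] at hc; omega))
        rw [← wd_cons]
        exact mem_Sq (by simp only [szL_cons]; omega)
      · simp
    | zero =>
      refine red _ fun c γ hc => ?_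
      by_cases hz : isTop z = true
      · rw [wd_cons, ← mul_assoc, h.top z c hz]
        rcases htf : tf gen z c with _ | c'
        · simp
        · have h2 := tf_sz gen z c c' htf
          rw [Option.elim_some, ← wd_cons]
          exact mem_Sq (by simp only [szL_cons]; omega)
      · cases z <;> simp only [isTop, not_true_eq_false] at hz
        · rw [h.cre0, ← wd_cons]; exact mem_Sq (by simp [Lt.sz])
        · rw [wd_cons, ← mul_assoc, h.ann0]
          split_ifs
          · rw [one_mul]; exact mem_Sq (by simp only [szL_cons]; omega)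
          · simp
        · rw [h.creC, ← wd_cons]; exact mem_Sq (by simp [Lt.sz])
        · rw [wd_cons, ← mul_assoc, h.annD]
          split_ifs
          · rw [one_mul]; exact mem_Sq (by simp only [szL_cons]; omega)
          · simp
        · rw [wd_cons, ← mul_assoc, h.T_S]
          refine evP_mul_mem fun ν hν => ?_
          have h4 := vT_wt hD e _ c ν hν
          simp only [szL_cons, wz] at hc ⊢
          exact Sq_mono (by omega) (ih (wtW ν + szL γ) (by omega) ν γ le_rfl)
  induction μ with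
  | nil => simpa using mem_Sq le_rfl
  | cons ζ μ ihμ =>
    rw [wtW_cons] at hN ⊢
    rw [wd_cons, mul_assoc]
    exact Sq_mul _ (fun β hβ => Sq_mono (by omega) (letter ζ.1 ζ.2 β (by omega))) (ihμ (by omega))

open Classical in
theorem SS (hs : Function.Surjective (gw gen)) {M : ℕ} {a b : List (Lt D G)} {c c' : Lt D G}
    (ha : a.length ≤ M) (hb : b.length ≤ M) (hc : c ≠ .ray 0) (hc' : c' ≠ .ray 0) :
    SSt gen g (a ++ List.replicate M (.ray 0) ++ [c]) * (wd S b *
      wd S (List.replicate M (.ray 0) ++ [c'])) = if a = b ∧ c = c' then 1 else 0 := by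
  rw [← wd_append, ← List.append_assoc]
  split_ifs with h1
  · rw [h1.1, h1.2, h.SSt_self hs]
  · refine h.SSt_incomp hs _ _ (fun hp => h1 (incomp hc hb hp)) fun hp => h1 ?_
    have := incomp hc' ha hp
    exact ⟨this.1.symm, this.2.symm⟩

variable (hD : D.Good) (hspan : ∀ r, r ∈ AddSubmonoid.closure (Set.range (wd g)))
include hD hspan

theorem loc_all (r : A) (α : List (Lt D G)) : ∃ w, r * wd S α ∈ Sq S w := by
  have hr := hspan r
  induction hr using AddSubmonoid.closure_induction with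
  | zero => exact ⟨0, by simp⟩
  | add a b _ _ ha hb =>
    obtain ⟨w, ha⟩ := ha
    obtain ⟨w', hb⟩ := hb
    exact ⟨w + w', by rw [add_mul]; exact add_mem (Sq_mono (by omega) ha) (Sq_mono (by omega) hb)⟩
  | mem a ha =>
    obtain ⟨μ, rfl⟩ := ha
    exact ⟨_, h.loc hD _ μ α le_rfl⟩

theorem loc_fin (r : A) (α : List (Lt D G)) : ∃ K, ∀ K', K ≤ K' →
    ∃ F : Finset (List (Lt D G)), r * wd S α * S (.ray 0) ^ K' = ∑ β ∈ F, wd S β := by
  obtain ⟨w, K, hK⟩ := h.loc_all hD hspan r α
  refine ⟨K, fun K' hK' => ?_⟩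
  obtain ⟨m, rfl⟩ := Nat.exists_eq_add_of_le hK'
  rw [pow_add, ← mul_assoc]
  exact Sp_finset h.add_self (Sp_vac S hK m)

variable (hs : Function.Surjective (gw gen))
  (hnz : ∀ r : A, r ≠ 0 → ∃ α, ∀ K, r * wd S α * S (.ray 0) ^ K ≠ 0)
include hs

omit hD hspan in
theorem sel (F : Finset (List (Lt D G))) {M : ℕ} (hF : ∀ β ∈ F, β.length ≤ M) {β0}
    (h0 : β0 ∈ F) : SSt gen g (β0 ++ List.replicate M (.ray 0) ++ [.ray 1]) * ((∑ β ∈ F, wd S β) *
      wd S (List.replicate M (.ray 0) ++ [.ray 1])) = 1 := by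
  rw [Finset.sum_mul, Finset.mul_sum, Finset.sum_eq_single_of_mem β0 h0]
  · rw [h.SS hs (hF _ h0) (hF _ h0) (by simp) (by simp), if_pos ⟨rfl, rfl⟩]
  · intro β hβ hne
    rw [h.SS hs (hF _ h0) (hF _ hβ) (by simp) (by simp), if_neg fun hh => hne hh.1.symm]

theorem gp (F : Finset A) : ∃ a b w ψ : A, b * a = 1 ∧ ψ * w = 1 ∧
    ∀ r ∈ F, ψ * r * a = 0 ∧ b * r * w = 0 := by
  choose K hK using fun r => h.loc_fin hD hspan r []
  let K0 := F.sup K
  have hK0 : ∀ r : F, ∃ F' : Finset (List (Lt D G)), r.1 * S (.ray 0) ^ K0 = ∑ β ∈ F', wd S β :=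
    fun r => by simpa using hK r K0 (Finset.le_sup r.2)
  choose F' hF' using hK0
  let M := K0 + Finset.univ.sup fun r : F => (F' r).sup List.length
  have hM : ∀ r : F, ∀ β ∈ F' r, β.length ≤ M := fun r β hβ =>
    le_trans (le_trans (Finset.le_sup hβ) (Finset.le_sup (f := fun r : F => (F' r).sup List.length)
      (Finset.mem_univ r))) (Nat.le_add_left _ _)
  have hv : (List.replicate K0 (Lt.ray 0 : Lt D G)).length ≤ M := by simp [M]
  have key : ∀ r ∈ F, ∀ c c' : Lt D G, c ≠ .ray 0 → c' ≠ .ray 0 → c ≠ c' →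
      SSt gen g (List.replicate K0 (.ray 0) ++ List.replicate M (.ray 0) ++ [c]) * r *
        (wd S (List.replicate K0 (.ray 0)) * wd S (List.replicate M (.ray 0) ++ [c'])) = 0 := by
    intro r hr c c' h1 h2 h3
    rw [mul_assoc, ← mul_assoc r, wd_replicate, hF' ⟨r, hr⟩, Finset.sum_mul, Finset.mul_sum]
    exact Finset.sum_eq_zero fun β hβ => by
      rw [h.SS hs hv (hM _ β hβ) h1 h2, if_neg fun hh => h3 hh.2]
  refine ⟨_, _, _, _, ?_, ?_, fun r hr => ⟨key r hr (.ray 2) (.ray 1) (by simp) (by simp) (by simp),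
    key r hr (.ray 1) (.ray 2) (by simp) (by simp) (by simp)⟩⟩
  · rw [h.SS hs hv hv (by simp) (by simp), if_pos ⟨rfl, rfl⟩]
  · rw [h.SS hs hv hv (by simp) (by simp), if_pos ⟨rfl, rfl⟩]

include hnz

theorem pinf (r : A) (hr : r ≠ 0) : ∃ s t, s * r * t = 1 := by
  obtain ⟨α, hα⟩ := hnz r hr
  obtain ⟨K, hK⟩ := h.loc_fin hD hspan r α
  obtain ⟨F, hF⟩ := hK K le_rfl
  obtain ⟨β0, h0⟩ : F.Nonempty := by
    rw [Finset.nonempty_iff_ne_empty]
    rintro rfl
    exact hα K (by simpa using hF)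
  have := h.sel hs F (M := F.sup List.length) (fun β hβ => Finset.le_sup hβ) h0
  rw [← hF] at this
  exact ⟨_, _, by simpa only [mul_assoc] using this⟩

theorem nc (x : Aˣ) (hx : x ≠ 1) : ∃ a b b' : A, b' * a = 1 ∧ b * a = 0 ∧ b * x * a = 1 := by
  classical
  obtain ⟨α, hα⟩ := hnz ((x : A) - 1) (by rw [sub_ne_zero]; exact fun hh => hx (Units.ext hh))
  obtain ⟨K, hK⟩ := h.loc_fin hD hspan x α
  obtain ⟨F, hF⟩ := hK K le_rfl
  have hα' := hα K
  rw [mul_assoc, ← wd_replicate, ← wd_append] at hF hα'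
  generalize α ++ List.replicate K (.ray 0) = α' at hF hα'
  obtain ⟨β0, h0, h1⟩ : ∃ β0 ∈ F, β0 ≠ α' := by
    by_contra hh
    push Not at hh
    apply hα'
    rcases Finset.subset_singleton_iff.1 (fun β hβ => Finset.mem_singleton.2 (hh β hβ)) with rfl | rfl
    · rw [Finset.sum_empty, Units.mul_right_eq_zero] at hF
      rw [hF, mul_zero]
    · rw [sub_mul, hF]; simp
  have hM : ∀ β ∈ F, β.length ≤ F.sup List.length + α'.length := fun β hβ =>
    le_trans (Finset.le_sup hβ) (Nat.le_add_right _ _)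
  have := h.sel hs F hM h0
  rw [← hF] at this
  refine ⟨_, _, SSt gen g (α' ++ List.replicate (F.sup List.length + α'.length) (.ray 0) ++ [.ray 1]),
    ?_, ?_, by simpa only [mul_assoc] using this⟩
  · rw [h.SS hs (by omega) (by omega) (by simp) (by simp), if_pos ⟨rfl, rfl⟩]
  · rw [h.SS hs (hM _ h0) (by omega) (by simp) (by simp), if_neg fun hh => h1 hh.1]

end Act

theorem model_nz {C : Type u} {vac : C} (f : EE vac) (hf : f ≠ 0) :
    ∃ α : List C, ∀ K, f * wd ins α * ins vac ^ K ≠ 0 := by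
  obtain ⟨ω, hω⟩ : ∃ ω, f (Finsupp.single ω 1) ≠ 0 := by
    by_contra hh
    push Not at hh
    exact hf (ext_single fun ω => by simpa using hh ω)
  obtain ⟨α, rfl⟩ := ω.exists_list
  refine ⟨α, fun K hK => hω ?_⟩
  have h1 : ∀ K, ((ins vac : EE vac) ^ K) (Finsupp.single Om.star 1) = Finsupp.single Om.star 1 := by
    intro K
    induction K with
    | zero => rfl
    | succ K ih => rw [pow_succ', Module.End.mul_apply, ih, ins_single, Om.cons_star]
  have h2 : ∀ α : List C, (wd ins α : EE vac) (Finsupp.single Om.star 1)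
      = Finsupp.single (α.foldr Om.cons Om.star) 1 := by
    intro α
    induction α with
    | nil => rfl
    | cons c α ih => rw [wd_cons, Module.End.mul_apply, ih, ins_single]; rfl
  have := congrArg (fun F : EE vac => F (Finsupp.single Om.star 1)) hK
  simpa [h1, h2] using this

end Vale.Agent.P193
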