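import Vale.Agent.P193.Defs

/-! The universal family of rewriting machines, obtained from the stack machines of Mathlib. -/

namespace Vale.Agent.P193

open Turing Turing.PartrecToTM2

namespace Mach

abbrev ST := TM2.Stmt (fun _ : K' => Γ') Λ' (Option Γ')

abbrev CF := TM2.Cfg (fun _ : K' => Γ') Λ' (Option Γ')

def tr' : Λ' → ST := tr

/-- the statements reachable from the label set `S` -/
abbrev SS (S : Finset Λ') := {q : ST // some q ∈ TM2.stmts tr' S}

instance (S : Finset Λ') : Finite (SS S) := by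
  have h : {q : ST | some q ∈ TM2.stmts tr' S}.Finite :=
    (TM2.stmts tr' S).finite_toSet.preimage (Option.some_injective _).injOn
  exact h

inductive Q (S : Finset Λ') : Type
  | q0 | rd | acc
  | tm (st : SS S) (v : Option Γ')

inductive Rl (S : Finset Λ') : Type
  | start
  | read (i : Fin 8)
  | fin
  | op (st : SS S) (v a : Option Γ')

inductive Sg (S : Finset Λ') : Type
  | inI (i : Fin 8)
  | th | hash | fl | bot
  | g (x : Γ')
  | stl (q : Q S)
  | h (ρ : Rl S)

instance (S : Finset Λ') : Finite (Q S) := by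
  let f : Fin 3 ⊕ (SS S × Option Γ') → Q S := fun x =>
    match x with
    | .inl i => ![.q0, .rd, .acc] i
    | .inr p => .tm p.1 p.2
  refine Finite.of_surjective f fun z => ?_
  cases z with
  | q0 => exact ⟨.inl 0, rfl⟩
  | rd => exact ⟨.inl 1, rfl⟩
  | acc => exact ⟨.inl 2, rfl⟩
  | tm st v => exact ⟨.inr (st, v), rfl⟩

instance (S : Finset Λ') : Finite (Rl S) := by
  let f : Bool ⊕ Fin 8 ⊕ (SS S × Option Γ' × Option Γ') → Rl S := fun x =>
    match x with
    | .inl true => .start
    | .inl false => .fin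
    | .inr (.inl i) => .read i
    | .inr (.inr p) => .op p.1 p.2.1 p.2.2
  refine Finite.of_surjective f fun z => ?_
  cases z with
  | start => exact ⟨.inl true, rfl⟩
  | fin => exact ⟨.inl false, rfl⟩
  | read i => exact ⟨.inr (.inl i), rfl⟩
  | op st v a => exact ⟨.inr (.inr (st, v, a)), rfl⟩

instance (S : Finset Λ') : Finite (Sg S) := by
  let f : Fin 8 ⊕ Fin 4 ⊕ Γ' ⊕ Q S ⊕ Rl S → Sg S := fun x =>
    match x with
    | .inl i => .inI i
    | .inr (.inl i) => ![.th, .hash, .fl, .bot] i
    | .inr (.inr (.inl x)) => .g x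
    | .inr (.inr (.inr (.inl q))) => .stl q
    | .inr (.inr (.inr (.inr ρ))) => .h ρ
  refine Finite.of_surjective f fun z => ?_
  cases z with
  | inI i => exact ⟨.inl i, rfl⟩
  | th => exact ⟨.inr (.inl 0), rfl⟩
  | hash => exact ⟨.inr (.inl 1), rfl⟩
  | fl => exact ⟨.inr (.inl 2), rfl⟩
  | bot => exact ⟨.inr (.inl 3), rfl⟩
  | g x => exact ⟨.inr (.inr (.inl x)), rfl⟩
  | stl q => exact ⟨.inr (.inr (.inr (.inl q))), rfl⟩
  | h ρ => exact ⟨.inr (.inr (.inr (.inr ρ))), rfl⟩

/-- stack read by a statement -/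
def kk : ST → K'
  | .push k _ _ => k
  | .peek k _ _ => k
  | .pop k _ _ => k
  | _ => .main

/-- next statement and variable -/
def nxt : ST → Option Γ' → Option Γ' → Option (ST × Option Γ')
  | .push _ _ q, v, _ => some (q, v)
  | .peek _ f q, v, a => some (q, f v a)
  | .pop _ f q, v, a => some (q, f v a)
  | .load f q, v, _ => some (q, f v)
  | .branch f q₁ q₂, v, _ => some (cond (f v) q₁ q₂, v)
  | .goto f, v, _ => some (tr' (f v), v)
  | .halt, _, _ => none

/-- new stack contents -/
def newT : ST → Option Γ' → (K' → List Γ') → (K' → List Γ')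
  | .push k f _, v, T => Function.update T k (f v :: T k)
  | .pop k _ _, _, T => Function.update T k (T k).tail
  | _, _, T => T

/-- the stack machine halts -/
def H (c : CF) : Prop := (StateTransition.eval (TM2.step tr') c).Dom

theorem H_step {c c' : CF} (h : TM2.step tr' c = some c') : H c ↔ H c' := by
  unfold H
  rw [StateTransition.reaches_eval (Relation.ReflTransGen.single (show c' ∈ TM2.step tr' c from h))]

theorem H_halt {c : CF} (h : TM2.step tr' c = none) : H c :=
  Part.dom_iff_mem.2 ⟨c, StateTransition.mem_eval.2 ⟨Relation.ReflTransGen.refl, h⟩⟩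

theorem nxt_some {st st' : ST} {v v' : Option Γ'} {T : K' → List Γ'}
    (h : nxt st v (T (kk st)).head? = some (st', v')) :
    H (TM2.stepAux st v T) ↔ H (TM2.stepAux st' v' (newT st v T)) := by
  cases st with
  | goto f =>
    simp only [nxt, Option.some.injEq, Prod.mk.injEq] at h
    obtain ⟨rfl, rfl⟩ := h
    exact H_step rfl
  | halt => simp [nxt] at h
  | branch f q₁ q₂ =>
    simp only [nxt, Option.some.injEq, Prod.mk.injEq] at h
    obtain ⟨rfl, rfl⟩ := h
    cases hf : f v <;> simp [TM2.stepAux, newT, hf]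
  | _ =>
    simp only [nxt, Option.some.injEq, Prod.mk.injEq] at h
    obtain ⟨rfl, rfl⟩ := h
    rfl

theorem nxt_none {st : ST} {v a : Option Γ'} {T : K' → List Γ'} (h : nxt st v a = none) :
    H (TM2.stepAux st v T) := by
  cases st with
  | halt => exact H_halt rfl
  | _ => simp [nxt] at h

/-- closure of the label set -/
def Cl (S : Finset Λ') : Prop := ∀ q ∈ S, TM2.SupportsStmt S (tr' q)

theorem mem_tr {S : Finset Λ'} {l : Λ'} (h : l ∈ S) : some (tr' l) ∈ TM2.stmts tr' S := by
  classical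
  simp only [TM2.stmts, Finset.mem_insertNone, Finset.mem_biUnion, Option.mem_def,
    Option.some.injEq, forall_eq']
  exact ⟨l, h, TM2.stmts₁_self⟩

theorem supp_of_mem {S : Finset Λ'} (hS : Cl S) {q : ST} (h : some q ∈ TM2.stmts tr' S) :
    TM2.SupportsStmt S q := by
  simp only [TM2.stmts, Finset.mem_insertNone, Finset.mem_biUnion, Option.mem_def,
    Option.some.injEq, forall_eq'] at h
  obtain ⟨l, hl, h⟩ := h
  exact TM2.stmts₁_supportsStmt_mono h (hS l hl)

theorem nxt_mem {S : Finset Λ'} (hS : Cl S) {st st' : ST} {v v' a : Option Γ'}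
    (hst : some st ∈ TM2.stmts tr' S) (h : nxt st v a = some (st', v')) :
    some st' ∈ TM2.stmts tr' S := by
  classical
  cases st with
  | goto f =>
    simp only [nxt, Option.some.injEq, Prod.mk.injEq] at h
    obtain ⟨rfl, rfl⟩ := h
    exact mem_tr (supp_of_mem hS hst v)
  | halt => simp [nxt] at h
  | branch f q₁ q₂ =>
    simp only [nxt, Option.some.injEq, Prod.mk.injEq] at h
    obtain ⟨rfl, rfl⟩ := h
    refine TM2.stmts_trans ?_ hst
    cases f v <;> simp [TM2.stmts₁, TM2.stmts₁_self]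
  | _ =>
    simp only [nxt, Option.some.injEq, Prod.mk.injEq] at h
    obtain ⟨rfl, rfl⟩ := h
    refine TM2.stmts_trans ?_ hst
    simp [TM2.stmts₁, TM2.stmts₁_self]

variable {S : Finset Λ'}

open Classical in
/-- the state of a statement -/
noncomputable def toQ (S : Finset Λ') : Option (ST × Option Γ') → Q S
  | none => .acc
  | some (q, v) => if h : some q ∈ TM2.stmts tr' S then .tm ⟨q, h⟩ v else .rd

theorem toQ_some {q : ST} (h : some q ∈ TM2.stmts tr' S) (v : Option Γ') :
    toQ S (some (q, v)) = .tm ⟨q, h⟩ v := by simp [toQ, h]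

theorem toQ_ne (x : Option (ST × Option Γ')) : toQ S x ≠ .q0 := by
  rcases x with _ | ⟨q, v⟩
  · simp [toQ]
  · simp only [toQ]; split_ifs <;> simp

def src : Rl S → Q S
  | .start => .q0
  | .read _ => .rd
  | .fin => .rd
  | .op st v _ => .tm st v

noncomputable def dst (l0 : Λ') : Rl S → Q S
  | .start => .rd
  | .read _ => .rd
  | .fin => toQ S (some (tr' l0, none))
  | .op st v a => toQ S (nxt st.1 v a)

def li : Rl S → List (Sg S)
  | .read i => [.inI i]
  | .fin => [.hash]
  | _ => []

def lt : Option Γ' → Sg S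
  | none => .bot
  | some x => .g x

def only (k : K') (l : List (Sg S)) : K' → List (Sg S) := fun k' => if k' = k then l else []

def lT : Rl S → K' → List (Sg S)
  | .op st _ a => only (kk st.1) [lt a]
  | _ => fun _ => []

def bt (n : ℕ) : Γ' := if n = 0 then .bit0 else .bit1

def bits3 (i : Fin 8) : List Γ' := [bt (i.val % 2), bt (i.val / 2 % 2), bt (i.val / 4)]

def put : ST → Option Γ' → Option Γ' → List (Sg S)
  | .push _ f _, v, a => [.g (f v), lt a]
  | .pop _ _ _, _, some _ => []
  | _, _, a => [lt a]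

def rT (e : ℕ) : Rl S → K' → List (Sg S)
  | .start => fun k => if k = .main then
      [.g .bit1, .g .cons] ++ List.replicate e (.g .bit0) ++ [.g .bit1, .g .cons, .bot] else [.bot]
  | .read i => only .main ((bits3 i).map .g)
  | .fin => fun _ => []
  | .op st v a => only (kk st.1) (put st.1 v a)

/-- all eight stacks -/
def cfg (i f h d : List (Sg S)) (U : K' → List (Sg S)) : Fin 8 → List (Sg S) :=
  ![i, f, h, d, U .main, U .rev, U .aux, U .stack]

/-- the machine -/
@[reducible] noncomputable def mach (S : Finset Λ') (l0 : Λ') : Sgn where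
  k := 8
  Q := Q S
  Sg := Sg S
  Rl := Rl S
  fQ := inferInstance
  fS := inferInstance
  fR := inferInstance
  q0 := .q0
  acc := .acc
  inp := 0
  fuel := 1
  hist := 2
  dum := 3
  inI := .inI
  th := .th
  hash := .hash
  fl := .fl
  stl := .stl
  src := src
  dst := dst l0
  lhs ρ := cfg (li ρ) [.fl] [] [] (lT ρ)
  rhs e ρ := cfg [] [] [.h ρ] [] (rT e ρ)

theorem cfg_surj (s : Fin 8 → List (Sg S)) : ∃ i f h d U, s = cfg i f h d U := by
  refine ⟨s 0, s 1, s 2, s 3, fun k => match k with
    | .main => s 4 | .rev => s 5 | .aux => s 6 | .stack => s 7, ?_⟩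
  funext j
  fin_cases j <;> rfl

theorem cfg_inj {i f h d i' f' h' d' : List (Sg S)} {U U' : K' → List (Sg S)}
    (e : cfg i f h d U = cfg i' f' h' d' U') : i = i' ∧ f = f' ∧ h = h' ∧ d = d' ∧ U = U' := by
  refine ⟨congrFun e 0, congrFun e 1, congrFun e 2, congrFun e 3, funext fun k => ?_⟩
  cases k
  exacts [congrFun e 4, congrFun e 5, congrFun e 6, congrFun e 7]

theorem app_cfg {l0 : Λ'} (i f h d i' f' h' d' : List (Sg S)) (U U' : K' → List (Sg S)) :
    Sgn.app (D := mach S l0) (cfg i f h d U) (cfg i' f' h' d' U') =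
      cfg (i ++ i') (f ++ f') (h ++ h') (d ++ d') (fun k => U k ++ U' k) := by
  funext j
  fin_cases j <;> rfl

theorem step_iff {l0 : Λ'} {e : ℕ} {q : Q S} {i f h d : List (Sg S)} {U : K' → List (Sg S)}
    {c' : (mach S l0).Cfg} : (mach S l0).Step e (q, cfg i f h d U) c' ↔
      ∃ (ρ : Rl S) (i' f' : List (Sg S)) (U' : K' → List (Sg S)), q = src ρ ∧ i = li ρ ++ i' ∧ f = .fl :: f' ∧ (∀ k, U k = lT ρ k ++ U' k) ∧
        c' = (dst l0 ρ, cfg i' f' (.h ρ :: h) d (fun k => rT e ρ k ++ U' k)) := by
  constructor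
  · rintro ⟨ρ, s, h1, rfl⟩
    obtain ⟨i', f', h', d', U', rfl⟩ := cfg_surj s
    rw [app_cfg] at h1
    obtain ⟨h2, h3⟩ := Prod.mk.inj h1
    obtain ⟨rfl, rfl, rfl, rfl, rfl⟩ := cfg_inj h3
    exact ⟨ρ, i', f', U', h2, rfl, rfl, fun k => rfl, by rw [app_cfg]; rfl⟩
  · rintro ⟨ρ, i', f', U', rfl, rfl, rfl, hU, rfl⟩
    obtain rfl : U = fun k => lT ρ k ++ U' k := funext hU
    exact ⟨ρ, cfg i' f' h d U', by rw [app_cfg]; rfl, by rw [app_cfg]; rfl⟩

theorem lt_inj {a a' : Option Γ'} (h : (lt a : Sg S) = lt a') : a = a' := by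
  cases a <;> cases a' <;> simp_all [lt]

theorem good (l0 : Λ') : (mach S l0).Good where
  inI_inj := fun _ _ h => Sg.inI.inj h
  inI_th := fun _ h => by cases h
  inI_hash := fun _ h => by cases h
  th_hash := fun h => by cases h
  stl_inj := fun _ _ h => Sg.stl.inj h
  inp_fuel := (by decide : (0 : Fin 8) ≠ 1)
  inp_hist := (by decide : (0 : Fin 8) ≠ 2)
  inp_dum := (by decide : (0 : Fin 8) ≠ 3)
  detf := by
    intro ρ ρ' s s' h1 h2
    obtain ⟨i, f, h, d, U, rfl⟩ := cfg_surj s
    obtain ⟨i', f', h', d', U', rfl⟩ := cfg_surj s'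
    rw [app_cfg, app_cfg] at h2
    obtain ⟨h3, -, -, -, h4⟩ := cfg_inj h2
    cases ρ <;> cases ρ' <;> simp only [src, reduceCtorEq, Q.tm.injEq] at h1 <;>
      simp only [li, List.cons_append, List.nil_append, List.cons.injEq, reduceCtorEq, false_and,
        Sg.inI.injEq] at h3
    · rfl
    · rw [h3.1]
    · rfl
    · obtain ⟨rfl, rfl⟩ := h1
      rename_i st v a a'
      have := congrFun h4 (kk st.1)
      simp only [lT, only, if_true, List.cons_append, List.nil_append, List.cons.injEq] at this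
      rw [lt_inj this.1]
  detb := by
    intro e ρ ρ' s s' _ h2
    have := congrFun h2 2
    exact Sg.h.inj (List.cons.inj this).1
  fuel_lt := fun _ _ => Nat.zero_lt_one
  hist_lt := fun _ _ => Nat.zero_lt_one
  size_le := by
    intro e ρ
    cases ρ <;> exact by simp [cfg, li]
  dst_ne := by
    intro ρ
    cases ρ
    · exact fun h => by cases h
    · exact fun h => by cases h
    · exact toQ_ne (some (tr' l0, none))
    · exact toQ_ne (nxt _ _ _)
  src_ne := by
    intro ρ
    cases ρ <;> exact fun h => by cases h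
  lhs_dum := fun _ => rfl
  rhs_dum := fun _ _ => rfl

/-- representation of stack contents -/
def Rep (U : K' → List (Sg S)) (T : K' → List Γ') : Prop :=
  ∀ k, ∃ j, U k = (T k).map .g ++ .bot :: j

theorem rep_head {U U' : K' → List (Sg S)} {T : K' → List Γ'} (hR : Rep U T) {st : SS S}
    {v a : Option Γ'} (hU : ∀ k, U k = lT (.op st v a) k ++ U' k) : a = (T (kk st.1)).head? := by
  obtain ⟨j, hj⟩ := hR (kk st.1)
  rw [hU] at hj
  simp only [lT, only, if_true] at hj
  rcases hT : T (kk st.1) with _ | ⟨x, t⟩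
  · rw [hT] at hj
    exact lt_inj (List.cons.inj hj).1
  · rw [hT] at hj
    exact lt_inj (List.cons.inj hj).1

theorem rep_new {e : ℕ} {U U' : K' → List (Sg S)} {T : K' → List Γ'} (hR : Rep U T) {st : SS S}
    {v a : Option Γ'} (hU : ∀ k, U k = lT (.op st v a) k ++ U' k) :
    Rep (fun k => rT e (.op st v a) k ++ U' k) (newT st.1 v T) := by
  have ha := rep_head hR hU
  intro k
  obtain ⟨j, hj⟩ := hR k
  rw [hU] at hj
  refine ⟨j, ?_⟩
  obtain ⟨st, hst⟩ := st
  simp only [lT, rT, only] at hj ha ⊢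
  by_cases hk : k = kk st
  · subst hk
    simp only [if_true] at hj ⊢
    cases st with
    | push k f q =>
      simp only [kk, newT, put, Function.update_self, List.map_cons, List.cons_append] at hj ⊢
      rw [← hj]
    | pop k f q =>
      simp only [kk, newT, Function.update_self] at hj ha ⊢
      rcases hT : T k with _ | ⟨x, t⟩
      · rw [hT] at hj ha
        subst ha
        simpa [put] using hj
      · rw [hT] at hj ha
        subst ha
        simpa [put, lt] using hj
    | _ => simpa [put, newT] using hj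
  · simp only [if_neg hk] at hj ⊢
    cases st with
    | push k' f q =>
      simp only [kk] at hk
      simpa [newT, Function.update_of_ne hk] using hj
    | pop k' f q =>
      simp only [kk] at hk
      simpa [newT, Function.update_of_ne hk] using hj
    | _ => simpa [newT] using hj

theorem rep_ex {U : K' → List (Sg S)} {T : K' → List Γ'} (hR : Rep U T) (st : SS S)
    (v : Option Γ') : ∃ U' : K' → List (Sg S), ∀ k, U k = lT (.op st v (T (kk st.1)).head?) k ++ U' k := by
  refine ⟨fun k => if k = kk st.1 then (U k).tail else U k, fun k => ?_⟩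
  simp only [lT, only]
  by_cases hk : k = kk st.1
  · subst hk
    obtain ⟨j, hj⟩ := hR (kk st.1)
    simp only [if_true]
    rw [hj]
    cases T (kk st.1) <;> simp [lt]
  · simp [hk]

theorem sound_tm (hS : Cl S) {l0 : Λ'} {e : ℕ} {u : (mach S l0).St} {c : (mach S l0).Cfg}
    (hc : Relation.ReflTransGen ((mach S l0).Step e) c (.acc, u)) :
    ∀ st v i f h d U T, c = (.tm st v, cfg i f h d U) → Rep U T → H (TM2.stepAux st.1 v T) := by
  induction hc using Relation.ReflTransGen.head_induction_on with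
  | refl => intro st v i f h d U T hc; cases (Prod.mk.inj hc).1
  | head h1 _ ih =>
    rintro st v i f h d U T rfl hR
    obtain ⟨ρ, i', f', U', h2, -, -, hU, rfl⟩ := step_iff.1 h1
    cases ρ with
    | op st' v' a =>
      obtain ⟨rfl, rfl⟩ := Q.tm.inj h2
      have ha := rep_head hR hU
      rcases hn : nxt st.1 v a with _ | ⟨st', v'⟩
      · exact nxt_none hn
      · have hm := nxt_mem hS st.2 hn
        rw [ha] at hn
        rw [nxt_some hn]
        refine ih ⟨st', hm⟩ v' i' f' (.h (.op st v a) :: h) d _ _ ?_ (rep_new (e := e) hR hU)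
        rw [← ha] at hn
        simp only [dst, hn, toQ_some hm]
    | _ => cases h2

theorem trNat_bit (n r : ℕ) (hn : 1 ≤ n) (hr : r < 2) : trNat (2 * n + r) = bt r :: trNat n := by
  have h1 : ∀ b, trNat (Nat.bit b n) = cond b Γ'.bit1 Γ'.bit0 :: trNat n := by
    intro b
    unfold trNat
    rw [← Num.ofNat'_eq, Num.ofNat'_bit, Num.ofNat'_eq]
    rcases hp : (n : Num) with _ | p
    · have : ((n : Num) : ℕ) = 0 := by rw [hp]; rfl
      rw [Num.to_of_nat] at this
      omega
    · cases b <;> rfl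
  interval_cases r
  · have := h1 false
    simpa [Nat.bit, bt] using this
  · have := h1 true
    simpa [Nat.bit, bt] using this

theorem trNat_oct (n : ℕ) (hn : 1 ≤ n) (i : Fin 8) : trNat (8 * n + i.val) = bits3 i ++ trNat n := by
  have hi := i.2
  have h : 8 * n + i.val = 2 * (2 * (2 * n + i.val / 4) + i.val / 2 % 2) + i.val % 2 := by omega
  rw [h, trNat_bit _ _ (by omega) (by omega), trNat_bit _ _ (by omega) (by omega),
    trNat_bit _ _ hn (by omega)]
  rfl

theorem trNat_one : trNat 1 = [Γ'.bit1] := by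
  unfold trNat
  rw [Nat.cast_one]; rfl

theorem trNat_pow (e : ℕ) : trNat (2 ^ e) = List.replicate e Γ'.bit0 ++ [Γ'.bit1] := by
  induction e with
  | zero => exact trNat_one
  | succ e ih =>
    have := trNat_bit (2 ^ e) 0 Nat.one_le_two_pow (by omega)
    rw [pow_succ, mul_comm, ← add_zero (2 * 2 ^ e), this, ih]
    rfl

/-- stack contents with the pair `n, 2^e` as input -/
def T0 (n e : ℕ) : K' → List Γ' := K'.elim (trList [n, 2 ^ e]) [] [] []

theorem rep_read {e n : ℕ} (hn : 1 ≤ n) {U : K' → List (Sg S)} (hR : Rep U (T0 n e)) (i : Fin 8) :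
    Rep (fun k => rT e (.read i) k ++ U k) (T0 (8 * n + i.val) e) := by
  intro k
  obtain ⟨j, hj⟩ := hR k
  refine ⟨j, ?_⟩
  cases k <;> simp [rT, only, T0, hj, trNat_oct n hn, K'.elim]

theorem rep_start {e : ℕ} (U : K' → List (Sg S)) :
    Rep (fun k => rT e .start k ++ U k) (T0 1 e) := by
  intro k
  refine ⟨U k, ?_⟩
  cases k <;> simp [rT, T0, K'.elim, trNat_one, trNat_pow]

theorem sound_rd (hS : Cl S) {l0 : Λ'} (h0 : l0 ∈ S) {e : ℕ} {u : (mach S l0).St}
    {c : (mach S l0).Cfg} (hc : Relation.ReflTransGen ((mach S l0).Step e) c (.acc, u)) :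
    ∀ i f h d U n, c = (.rd, cfg i f h d U) → 1 ≤ n → Rep U (T0 n e) →
      ∃ (l : List (Fin 8)) (j : List (Sg S)), i = l.map .inI ++ .hash :: j ∧
        H ⟨some l0, none, T0 (l.foldl (fun m i => 8 * m + i.val) n) e⟩ := by
  induction hc using Relation.ReflTransGen.head_induction_on with
  | refl => intro i f h d U n hc; cases (Prod.mk.inj hc).1
  | head h1 h2 ih =>
    rintro i f h d U n rfl hn hR
    obtain ⟨ρ, i', f', U', h3, rfl, -, hU, rfl⟩ := step_iff.1 h1
    cases ρ with
    | read a =>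
      obtain rfl : U = U' := funext hU
      obtain ⟨l, j, rfl, hH⟩ := ih _ _ _ _ _ (8 * n + a.val) rfl (by omega) (rep_read hn hR a)
      exact ⟨a :: l, j, rfl, hH⟩
    | fin =>
      obtain rfl : U = U' := funext hU
      refine ⟨[], i', rfl, ?_⟩
      have := sound_tm hS h2 ⟨tr' l0, mem_tr h0⟩ none _ _ _ _ _ (T0 n e)
        (by simp only [dst, toQ_some (mem_tr h0)]; rfl) hR
      exact (H_step rfl).2 this
    | _ => cases h3

/-- acceptance with enough fuel -/
def RF (l0 : Λ') (e : ℕ) (q : Q S) (i : List (Sg S)) (U : K' → List (Sg S)) : Prop :=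
  ∀ h, ∃ m, (mach S l0).Reach e (q, cfg i (List.replicate m .fl) h [] U)

theorem RF.back {l0 : Λ'} {e : ℕ} {ρ : Rl S} {i : List (Sg S)} {U U' : K' → List (Sg S)}
    (hU : ∀ k, U k = lT ρ k ++ U' k) (h : RF l0 e (dst l0 ρ) i (fun k => rT e ρ k ++ U' k)) :
    RF l0 e (src ρ) (li ρ ++ i) U := by
  intro h0
  obtain ⟨m, u, hu⟩ := h (.h ρ :: h0)
  exact ⟨m + 1, u, hu.head (step_iff.2 ⟨ρ, i, _, U', rfl, rfl, rfl, hU, rfl⟩)⟩

theorem comp_aux (hS : Cl S) {l0 : Λ'} {e : ℕ} (i : List (Sg S)) (st : ST) :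
    ∀ (hst : some st ∈ TM2.stmts tr' S) v U T, Rep U T →
      (∀ l v' T' U', TM2.stepAux st v T = ⟨some l, v', T'⟩ → ∀ hl : l ∈ S, Rep U' T' →
        RF l0 e (.tm ⟨tr' l, mem_tr hl⟩ v') i U') → RF l0 e (.tm ⟨st, hst⟩ v) i U := by
  have key : ∀ (st : ST) (hst : some st ∈ TM2.stmts tr' S) v U T, Rep U T →
      (∀ U', Rep U' (newT st v T) → RF l0 e (toQ S (nxt st v (T (kk st)).head?)) i U') →
      RF l0 e (.tm ⟨st, hst⟩ v) i U := by
    intro st hst v U T hR h
    obtain ⟨U', hU⟩ := rep_ex hR ⟨st, hst⟩ v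
    exact RF.back (ρ := .op ⟨st, hst⟩ v _) hU (h _ (rep_new hR hU))
  induction st with
  | goto f =>
    intro hst v U T hR h
    refine key _ hst v U T hR fun U' hU' => ?_
    have hl := supp_of_mem hS hst v
    simp only [nxt, toQ_some (mem_tr hl)]
    exact h _ _ _ _ rfl hl hU'
  | halt =>
    intro hst v U T hR h
    exact key _ hst v U T hR fun U' _ h0 => ⟨0, _, Relation.ReflTransGen.refl⟩
  | branch f q₁ q₂ ih₁ ih₂ =>
    intro hst v U T hR h
    refine key _ hst v U T hR fun U' hU' => ?_
    have hm := nxt_mem (a := none) (v := v) hS hst rfl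
    cases hf : f v
    · simp only [hf, cond_false] at hm
      simp only [nxt, hf, cond_false, toQ_some hm]
      exact ih₂ hm v U' T hU' fun l v' T' U'' h1 => h l v' T' U'' (by simpa [hf] using h1)
    · simp only [hf, cond_true] at hm
      simp only [nxt, hf, cond_true, toQ_some hm]
      exact ih₁ hm v U' T hU' fun l v' T' U'' h1 => h l v' T' U'' (by simpa [hf] using h1)
  | load f q ih =>
    intro hst v U T hR h
    refine key _ hst v U T hR fun U' hU' => ?_
    have hm := nxt_mem (a := none) (v := v) hS hst rfl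
    simp only [nxt, toQ_some hm]
    exact ih hm _ U' _ hU' h
  | push k f q ih =>
    intro hst v U T hR h
    refine key _ hst v U T hR fun U' hU' => ?_
    have hm := nxt_mem (a := none) (v := v) hS hst rfl
    simp only [nxt, toQ_some hm]
    exact ih hm _ U' _ hU' h
  | peek k f q ih =>
    intro hst v U T hR h
    refine key _ hst v U T hR fun U' hU' => ?_
    have hm := nxt_mem (a := none) (v := v) hS hst rfl
    simp only [nxt, toQ_some hm]
    exact ih hm _ U' _ hU' h
  | pop k f q ih =>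
    intro hst v U T hR h
    refine key _ hst v U T hR fun U' hU' => ?_
    have hm := nxt_mem (a := none) (v := v) hS hst rfl
    simp only [nxt, toQ_some hm]
    exact ih hm _ U' _ hU' h

theorem comp_tm (hS : Cl S) {l0 : Λ'} {e : ℕ} (i : List (Sg S)) {c : CF} (hc : H c) :
    ∀ l v T U, c = ⟨some l, v, T⟩ → ∀ hl : l ∈ S, Rep U T →
      RF l0 e (.tm ⟨tr' l, mem_tr hl⟩ v) i U := by
  obtain ⟨b, hb⟩ := Part.dom_iff_mem.1 hc
  refine StateTransition.evalInduction hb fun a _ ih => ?_
  rintro l v T U rfl hl hR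
  exact comp_aux hS i _ _ v U T hR fun l' v' T' U' h1 => ih _ rfl l' v' T' U' h1

theorem comp_rd (hS : Cl S) {l0 : Λ'} (h0 : l0 ∈ S) {e : ℕ} (l : List (Fin 8)) :
    ∀ (n : ℕ) (U : K' → List (Sg S)), 1 ≤ n → Rep U (T0 n e) →
      H ⟨some l0, none, T0 (l.foldl (fun m i => 8 * m + i.val) n) e⟩ →
      RF l0 e .rd (l.map .inI ++ [.hash]) U := by
  induction l with
  | nil =>
    intro n U _ hR hH
    refine RF.back (ρ := .fin) (i := []) (U' := U) (fun k => rfl) ?_
    simp only [dst, toQ_some (mem_tr h0)]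
    exact comp_tm hS _ hH l0 none _ _ rfl h0 hR
  | cons a l ih =>
    intro n U hn hR hH
    exact RF.back (ρ := .read a) (U' := U) (fun k => rfl)
      (ih (8 * n + a.val) _ (by omega) (rep_read hn hR a) hH)

theorem spec (hS : Cl S) {l0 : Λ'} (h0 : l0 ∈ S)
    (hH : ∀ n e, H ⟨some l0, none, T0 n e⟩ ↔
      ((Denumerable.ofNat Nat.Partrec.Code e).eval n).Dom) : (mach S l0).Spec where
  sound := by
    rintro e s ⟨u, hu⟩
    obtain ⟨i, f, h, d, U, rfl⟩ := cfg_surj s
    rcases hu.cases_head with h1 | ⟨c, h1, h2⟩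
    · cases (Prod.mk.inj h1).1
    obtain ⟨ρ, i', f', U', h3, rfl, -, hU, rfl⟩ := step_iff.1 h1
    cases ρ with
    | start =>
      obtain ⟨l, j, h4, h5⟩ := sound_rd hS h0 h2 _ _ _ _ _ 1 rfl le_rfl (rep_start U')
      exact ⟨l, j, h4, (hH _ _).1 h5⟩
    | _ => cases h3
  complete := by
    intro e l hl
    have h1 := comp_rd hS h0 l 1 _ le_rfl (rep_start (e := e) fun _ => []) ((hH _ _).2 hl)
    obtain ⟨m, hm⟩ := RF.back (ρ := .start) (U := fun _ => []) (fun k => rfl) h1 []
    refine ⟨m, ?_⟩
    have h2 : (mach S l0).initSt l m = cfg (li Rl.start ++ (l.map .inI ++ [.hash]))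
        (List.replicate m .fl) [] [] fun _ => [] := by
      funext j
      fin_cases j <;> rfl
    rw [h2]
    exact hm

theorem prim_replicate {α : Type} [Primcodable α] (a : α) :
    Primrec fun e : ℕ => List.replicate e a := by
  have : Primrec fun e : ℕ => (fun l : List α => a :: l)^[e] [] :=
    Primrec.nat_iterate Primrec.id (Primrec.const [])
      (Primrec.list_cons.comp (Primrec.const a) Primrec.snd).to₂
  refine this.of_eq fun e => ?_
  induction e with
  | zero => rfl
  | succ e ih => rw [Function.iterate_succ_apply', ih]; rfl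

noncomputable instance : Primcodable (Sg S) := finPrim _

theorem prim (l0 : Λ') (ρ : Rl S) (i : Fin 8) :
    Primrec fun e => (mach S l0).rhs e ρ i := by
  cases ρ with
  | start =>
    fin_cases i
    any_goals exact Primrec.const _
    exact Primrec.list_append.comp (Primrec.list_append.comp (Primrec.const _)
      (prim_replicate _)) (Primrec.const _)
  | read a => exact Primrec.const ((mach S l0).rhs 0 (.read a) i)
  | fin => exact Primrec.const ((mach S l0).rhs 0 .fin i)
  | op st v a => exact Primrec.const ((mach S l0).rhs 0 (.op st v a) i)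

/-- universal function with the program number given as a power of two -/
def U (n m : ℕ) : Part ℕ :=
  (Nat.rfind fun e => Part.some (decide (2 ^ e = m))).bind fun e =>
    (Denumerable.ofNat Nat.Partrec.Code e).eval n

theorem U_partrec : Partrec₂ U := by
  have hp : Primrec₂ fun a b : ℕ => a ^ b := Primrec₂.unpaired'.1 Nat.Primrec.pow
  refine Partrec.bind (Partrec.rfind ?_) ?_
  · refine Computable₂.partrec₂ (Primrec₂.to_comp ?_)
    exact (Primrec.eq.comp (hp.comp (Primrec.const 2) Primrec.snd)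
      (Primrec.snd.comp Primrec.fst)).decide
  · exact Nat.Partrec.Code.eval_part.comp ((Computable.ofNat _).comp Computable.snd)
      (Computable.fst.comp Computable.fst)

theorem U_pow (n e : ℕ) : U n (2 ^ e) = (Denumerable.ofNat Nat.Partrec.Code e).eval n := by
  have : (Nat.rfind fun e' => Part.some (decide (2 ^ e' = 2 ^ e))) = Part.some e := by
    refine Part.eq_some_iff.2 (Nat.mem_rfind.2 ⟨by simp, fun {m} hm => ?_⟩)
    have : 2 ^ m ≠ 2 ^ e := (Nat.pow_lt_pow_right (by norm_num) hm).ne
    simp [this]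
  unfold U
  rw [this, Part.bind_some]

end Mach

theorem exists_machine : ∃ D : Sgn, D.Good ∧ D.Spec ∧
    ∀ ρ i, Primrec fun e => D.rhs e ρ i := by
  obtain ⟨c, hc⟩ := ToPartrec.Code.exists_code (Nat.Partrec'.part_iff₂.2 Mach.U_partrec)
  have hs := tr_supports c Cont'.halt
  refine ⟨Mach.mach (codeSupp c .halt) (trNormal c .halt), Mach.good _,
    Mach.spec hs.2 hs.1 fun n e => ?_, Mach.prim _⟩
  have h1 := tr_eval c [n, 2 ^ e]
  have h2 := hc ⟨[n, 2 ^ e], rfl⟩
  change (StateTransition.eval (TM2.step tr) (init c [n, 2 ^ e])).Dom ↔ _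
  rw [h1, h2, ← Mach.U_pow]
  rfl

end Vale.Agent.P193
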