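import Mathlib

/-! The stack module over a letter type with a vacuum letter. -/

namespace Vale.Agent.P193

universe u

/-- eventually-vacuum words, run-length encoded -/
abbrev Om {C : Type u} (vac : C) : Type u := List (ℕ × {c // c ≠ vac})

namespace Om

variable {C : Type u} {vac : C}

def bump : Om vac → Om vac
  | [] => []
  | (k, d) :: l => (k + 1, d) :: l

open Classical in
noncomputable def cons (c : C) (ω : Om vac) : Om vac :=
  if h : c = vac then bump ω else (0, ⟨c, h⟩) :: ω

theorem cons_vac (ω : Om vac) : cons vac ω = bump ω := by simp [cons]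

theorem cons_ne {c : C} (h : c ≠ vac) (ω : Om vac) : cons c ω = (0, ⟨c, h⟩) :: ω := by
  simp [cons, h]

def head : Om vac → C
  | [] => vac
  | (0, d) :: _ => d.1
  | (_ + 1, _) :: _ => vac

def tail : Om vac → Om vac
  | [] => []
  | (0, _) :: l => l
  | (k + 1, d) :: l => (k, d) :: l

@[simp] theorem head_cons (c : C) (ω : Om vac) : head (cons c ω) = c := by
  by_cases h : c = vac
  · subst h
    rw [cons_vac]
    rcases ω with _ | ⟨⟨k, d⟩, l⟩ <;> rfl
  · rw [cons_ne h]; rfl

@[simp] theorem tail_cons (c : C) (ω : Om vac) : tail (cons c ω) = ω := by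
  by_cases h : c = vac
  · subst h
    rw [cons_vac]
    rcases ω with _ | ⟨⟨k, d⟩, l⟩ <;> rfl
  · rw [cons_ne h]; rfl

theorem cons_head_tail (ω : Om vac) : cons (head ω) (tail ω) = ω := by
  rcases ω with _ | ⟨⟨_ | k, d⟩, l⟩
  · exact cons_vac _
  · exact cons_ne d.2 _
  · exact cons_vac _

theorem cons_inj (c : C) : Function.Injective (cons c : Om vac → Om vac) := fun a b h => by
  rw [← tail_cons c a, h, tail_cons]

def star : Om vac := []

theorem cons_star : cons vac (star : Om vac) = star := cons_vac _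

/-- additive measure -/
def meas (wt : C → ℕ) (ω : Om vac) : ℕ := (List.map (fun p => wt p.2.1) ω).sum

theorem meas_cons (wt : C → ℕ) (h0 : wt vac = 0) (c : C) (ω : Om vac) :
    meas wt (cons c ω) = wt c + meas wt ω := by
  by_cases h : c = vac
  · subst h
    rw [cons_vac]
    rcases ω with _ | ⟨⟨k, d⟩, l⟩ <;> simp [meas, h0, bump]
  · rw [cons_ne h]; simp [meas]

theorem exists_list (ω : Om vac) : ∃ α : List C, ω = α.foldr cons star := by
  induction ω with
  | nil => exact ⟨[], rfl⟩
  | cons p l ih =>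
    obtain ⟨k, d⟩ := p
    obtain ⟨α, hα⟩ := ih
    induction k with
    | zero => exact ⟨d.1 :: α, by rw [List.foldr_cons, ← hα, cons_ne d.2]⟩
    | succ k ihk =>
      obtain ⟨β, hβ⟩ := ihk
      exact ⟨vac :: β, by rw [List.foldr_cons, ← hβ, cons_vac]; rfl⟩

end Om

/-- the stack module -/
abbrev SE {C : Type u} (vac : C) := Om vac →₀ ZMod 2

abbrev EE {C : Type u} (vac : C) := Module.End (ZMod 2) (SE vac)

section ops

variable {C : Type u} {vac : C}

noncomputable def ins (c : C) : EE vac := Finsupp.lmapDomain _ _ (Om.cons c)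

noncomputable def mk (g : C → EE vac) : EE vac :=
  Finsupp.linearCombination (ZMod 2) fun ω => g ω.head (Finsupp.single ω.tail 1)

theorem ins_single (c : C) (ω : Om vac) :
    ins c (Finsupp.single ω 1) = Finsupp.single (Om.cons c ω) 1 := by
  simp [ins]

theorem mk_single (g : C → EE vac) (ω : Om vac) :
    mk g (Finsupp.single ω 1) = g ω.head (Finsupp.single ω.tail 1) := by
  simp [mk]

theorem ext_single {f g : EE vac} (h : ∀ ω, f (Finsupp.single ω 1) = g (Finsupp.single ω 1)) :
    f = g := by
  apply Finsupp.lhom_ext'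
  intro ω
  ext1
  simpa using h ω

@[simp] theorem mk_ins (g : C → EE vac) (c : C) : mk g * ins c = g c := by
  apply ext_single
  intro ω
  simp [ins_single, mk_single]

theorem ext_ins {f g : EE vac} (h : ∀ c, f * ins c = g * ins c) : f = g := by
  apply ext_single
  intro ω
  have := congrArg (fun F : EE vac => F (Finsupp.single ω.tail 1)) (h ω.head)
  simpa [ins_single, Om.cons_head_tail] using this

open Classical in
noncomputable def popc (c0 : C) : EE vac := mk fun c => if c = c0 then 1 else 0

noncomputable def top (f : C → Option C) : EE vac := mk fun c => (f c).elim 0 ins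

open Classical in
theorem popc_ins (c0 c : C) : (popc c0 : EE vac) * ins c = if c = c0 then 1 else 0 := by
  simp [popc]

@[simp] theorem top_ins (f : C → Option C) (c : C) :
    (top f : EE vac) * ins c = (f c).elim 0 ins := by simp [top]

theorem popc_apply (c : C) (v : SE vac) (ω : Om vac) : popc c v ω = v (Om.cons c ω) := by
  classical
  induction v using Finsupp.induction_linear with
  | zero => simp
  | add a b ha hb => simp [ha, hb]
  | single a b =>
    have : Finsupp.single a b = b • (Finsupp.single a 1 : SE vac) := by simp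
    rw [this, map_smul, popc, mk_single]
    by_cases h : a.head = c
    · simp only [h, if_true, Module.End.one_apply, Finsupp.coe_smul, Pi.smul_apply]
      congr 1
      rw [Finsupp.single_apply, Finsupp.single_apply]
      congr 1
      apply propext
      constructor
      · rintro rfl; rw [← h, Om.cons_head_tail]
      · rintro rfl; simp
    · simp only [h, if_false, LinearMap.zero_apply, smul_zero, Finsupp.coe_zero, Pi.zero_apply,
        Finsupp.coe_smul, Pi.smul_apply]
      rw [Finsupp.single_eq_of_ne, smul_zero]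
      rintro rfl
      simp at h

theorem ext_popc {f : EE vac} (h : ∀ c, popc c * f = 0) : f = 0 := by
  ext1 ω
  ext1
  ext ω'
  have := congrArg (fun F : EE vac => F (Finsupp.single ω 1) ω'.tail) (h ω'.head)
  simpa [popc_apply, Om.cons_head_tail] using this

theorem one_ne_zero_EE : (1 : EE vac) ≠ 0 := by
  intro h
  have := congrArg (fun F : EE vac => F (Finsupp.single Om.star 1) Om.star) h
  simp at this

theorem two_EE : (1 + 1 : EE vac) = 0 := by
  ext1 ω
  ext1
  simp only [LinearMap.comp_apply, LinearMap.add_apply, Module.End.one_apply, LinearMap.zero_apply,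
    Finsupp.lsingle_apply, ← Finsupp.single_add]
  have : (1 + 1 : ZMod 2) = 0 := rfl
  rw [this, Finsupp.single_zero]

/-- action below a top letter satisfying `p` -/
noncomputable def below (p : C → Bool) : EE vac →ₙ+* EE vac where
  toFun f := mk fun c => if p c then ins c * f else 0
  map_zero' := by apply ext_ins; intro c; simp
  map_add' f g := by
    apply ext_ins; intro c
    simp only [mk_ins, add_mul]
    split_ifs <;> simp [mul_add]
  map_mul' f g := by
    apply ext_ins; intro c
    simp only [mk_ins, mul_assoc]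
    split_ifs with h
    · rw [← mul_assoc (mk _), mk_ins, if_pos h, mul_assoc]
    · simp

theorem below_eq (p : C → Bool) (f : EE vac) :
    below p f = mk fun c => if p c then ins c * f else 0 := rfl

theorem below_ins (p : C → Bool) (f : EE vac) (c : C) :
    below p f * ins c = if p c then ins c * f else 0 := by
  rw [below_eq, mk_ins]

/-! filtrations -/

variable (wt : C → ℕ)

def Fil (N : ℕ) : Submodule (ZMod 2) (SE vac) :=
  Finsupp.supported _ _ {ω | Om.meas wt ω ≤ N}

theorem Fil_mono {N M : ℕ} (h : N ≤ M) : (Fil wt N : Submodule _ (SE vac)) ≤ Fil wt M :=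
  Finsupp.supported_mono fun _ hω => le_trans hω h

theorem single_mem_Fil {N : ℕ} {ω : Om vac} (h : Om.meas wt ω ≤ N) :
    (Finsupp.single ω 1 : SE vac) ∈ Fil wt N :=
  Finsupp.single_mem_supported _ _ h

theorem Fil_ind {N : ℕ} (f : EE vac) (S : Submodule (ZMod 2) (SE vac))
    (h : ∀ ω, Om.meas wt ω ≤ N → f (Finsupp.single ω 1) ∈ S) :
    ∀ v ∈ Fil wt N, f v ∈ S := by
  intro v hv
  rw [Fil, Finsupp.supported_eq_span_single] at hv
  refine (Submodule.span_le (p := S.comap f)).2 ?_ hv
  rintro _ ⟨ω, hω, rfl⟩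
  exact h ω hω

/-- `f` raises the filtration by at most `w` -/
def Bd (w : ℕ) (f : EE vac) : Prop := ∀ N, ∀ v ∈ Fil wt N, f v ∈ Fil wt (N + w)

/-- `f` and `g` agree below level `N` -/
def Ag (N : ℕ) (f g : EE vac) : Prop := ∀ m < N, ∀ v ∈ Fil wt m, f v = g v

variable {wt}

theorem Bd.mono {w w' : ℕ} {f : EE vac} (h : Bd wt w f) (hw : w ≤ w') : Bd wt w' f :=
  fun N v hv => Fil_mono wt (by omega) (h N v hv)

theorem Bd.mul {w w' : ℕ} {f g : EE vac} (h : Bd wt w f) (h' : Bd wt w' g) :
    Bd wt (w + w') (f * g) := fun N v hv => by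
  have := h _ _ (h' N v hv)
  rw [add_assoc, add_comm w'] at this
  exact this

theorem Bd.add {w : ℕ} {f g : EE vac} (h : Bd wt w f) (h' : Bd wt w g) : Bd wt w (f + g) :=
  fun N v hv => (Fil wt _).add_mem (h N v hv) (h' N v hv)

theorem Bd_zero (w : ℕ) : Bd wt w (0 : EE vac) := fun _ _ _ => (Fil wt _).zero_mem

theorem Bd_one : Bd wt 0 (1 : EE vac) := fun _ _ hv => hv

theorem Bd_ins (h0 : wt vac = 0) (c : C) : Bd wt (wt c) (ins c : EE vac) := fun N =>
  Fil_ind wt _ _ fun ω hω => by
    rw [ins_single]
    apply single_mem_Fil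
    rw [Om.meas_cons wt h0]; omega

theorem Bd_mk (h0 : wt vac = 0) {w : ℕ} {g : C → EE vac} (h : ∀ c, Bd wt (wt c + w) (g c)) :
    Bd wt w (mk g) := fun N =>
  Fil_ind wt _ _ fun ω hω => by
    rw [mk_single]
    have h1 := h ω.head _ _ (single_mem_Fil wt (ω := ω.tail) le_rfl)
    have h2 := Om.meas_cons wt h0 ω.head ω.tail
    rw [Om.cons_head_tail] at h2
    exact Fil_mono wt (by omega) h1

theorem Bd_below (h0 : wt vac = 0) (p : C → Bool) {w : ℕ} {f : EE vac} (h : Bd wt w f) :
    Bd wt w (below p f) := by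
  rw [below_eq]
  apply Bd_mk h0
  intro c
  split_ifs
  · exact (Bd_ins h0 c).mul h
  · exact Bd_zero _

theorem Ag_refl (N : ℕ) (f : EE vac) : Ag wt N f f := fun _ _ _ _ => rfl

theorem Ag.mono {N M : ℕ} {f g : EE vac} (h : Ag wt N f g) (hM : M ≤ N) : Ag wt M f g :=
  fun m hm => h m (by omega)

theorem Ag.symm {N : ℕ} {f g : EE vac} (h : Ag wt N f g) : Ag wt N g f :=
  fun m hm v hv => (h m hm v hv).symm

theorem Ag.trans {N : ℕ} {f g k : EE vac} (h : Ag wt N f g) (h' : Ag wt N g k) : Ag wt N f k :=
  fun m hm v hv => (h m hm v hv).trans (h' m hm v hv)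

theorem Ag.add {N : ℕ} {f g f' g' : EE vac} (h : Ag wt N f g) (h' : Ag wt N f' g') :
    Ag wt N (f + f') (g + g') := fun m hm v hv => by
  simp [h m hm v hv, h' m hm v hv]

theorem Ag.mul {N w : ℕ} {f g f' g' : EE vac} (h : Ag wt (N + w) f g) (h' : Ag wt N f' g')
    (hb : Bd wt w f') : Ag wt N (f * f') (g * g') := fun m hm v hv => by
  simp only [Module.End.mul_apply]
  rw [← h' m hm v hv]
  exact h (m + w) (by omega) _ (hb m v hv)

theorem Ag.mul_left {N : ℕ} {f g : EE vac} (h : Ag wt N f g) (k : EE vac) :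
    Ag wt N (k * f) (k * g) := fun m hm v hv => by
  simp only [Module.End.mul_apply, h m hm v hv]

theorem Ag_of_single {N : ℕ} {f g : EE vac}
    (h : ∀ ω, Om.meas wt ω < N → f (Finsupp.single ω 1) = g (Finsupp.single ω 1)) :
    Ag wt N f g := fun m hm v hv => by
  have := Fil_ind wt (f - g) ⊥ (N := m) (fun ω hω => by
    simp [h ω (by omega)]) v hv
  simpa [sub_eq_zero] using this

theorem Ag_mk (h0 : wt vac = 0) {N : ℕ} {g g' : C → EE vac}
    (h : ∀ c, Ag wt (N - wt c) (g c) (g' c)) : Ag wt N (mk g) (mk g') := by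
  apply Ag_of_single
  intro ω hω
  rw [mk_single, mk_single]
  have h2 := Om.meas_cons wt h0 ω.head ω.tail
  rw [Om.cons_head_tail] at h2
  exact h _ _ (by omega) _ (single_mem_Fil wt le_rfl)

theorem Ag_below (h0 : wt vac = 0) (p : C → Bool) {N : ℕ} {f g : EE vac} (h : Ag wt N f g) :
    Ag wt N (below p f) (below p g) := by
  rw [below_eq, below_eq]
  apply Ag_mk h0
  intro c
  split_ifs
  · exact (h.mono (by omega)).mul_left _
  · exact Ag_refl _ _

theorem eq_of_Ag {f g : EE vac} (h : ∀ N, Ag wt N f g) : f = g :=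
  ext_single fun ω => h (Om.meas wt ω + 1) _ (Nat.lt_succ_self _) _ (single_mem_Fil wt le_rfl)

end ops

end Vale.Agent.P193
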