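import Vale.Agent.P193.ActL
import Vale.Agent.P193.Stack

/-! The stack model. -/

namespace Vale.Agent.P193

open Sgn

universe u

variable {D : Sgn} {n : ℕ} {G : Type u} [Group G]

abbrev EM (D : Sgn) (G : Type u) := EE (Lt.ray 0 : Lt D G)

noncomputable def op0 (gen : Fin n → G) (Tf : D.Q → EM D G) : Z D n → EM D G
  | .x0 => ins (.ray 0)
  | .vC => ins (.conf nil)
  | .y0 => popc (.ray 0)
  | .aD => popc (.dis 1 nil)
  | .T q => Tf q
  | z => top (tf gen z)

noncomputable def op (gen : Fin n → G) (Tf : D.Q → EM D G) (ζ : L D n) : EM D G :=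
  (below Lt.isRay)^[ζ.1] (op0 gen Tf ζ.2)

variable (gen : Fin n → G)

theorem op0_top (Tf : D.Q → EM D G) (z : Z D n) (hz : isTop z = true) :
    op0 gen Tf z = top (tf gen z) := by
  cases z <;> first | rfl | simp [isTop] at hz

theorem tf_sz (z : Z D n) (c c' : Lt D G) (h : tf gen z c = some c') : c'.sz ≤ c.sz + wz z := by
  cases z <;> rcases c with (_ | m) | s | ⟨x, s⟩ <;> simp only [tf, reduceCtorEq, Option.some.injEq] at h <;>
    try (subst h; simp [Lt.sz])
  · rename_i i a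
    have := tot_update s i (a :: s i)
    simp only [List.length_cons] at this
    simp only [wz]; omega
  · rename_i i a
    split_ifs at h with h1
    simp only [Option.some.injEq] at h
    subst h
    have := tot_update s i (s i).tail
    simp only [List.length_tail] at this
    simp only [Lt.sz]; omega

omit [Group G] in
theorem sz0 : Lt.sz (Lt.ray 0 : Lt D G) = 0 := rfl

theorem op0_Bd {Tf : D.Q → EM D G} (hb : ∀ q, Bd Lt.sz 0 (Tf q)) (z : Z D n) :
    Bd Lt.sz (wz z) (op0 gen Tf z) := by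
  by_cases hz : isTop z = true
  · rw [op0_top gen Tf z hz]
    apply Bd_mk sz0
    intro c
    rcases h : tf gen z c with _ | c'
    · exact Bd_zero _
    · exact (Bd_ins sz0 c').mono (tf_sz gen z c c' h)
  · have hp : ∀ c0 : Lt D G, Bd Lt.sz 0 (popc c0 : EM D G) := fun c0 => by
      apply Bd_mk sz0
      intro c
      split_ifs
      · exact Bd_one.mono (Nat.zero_le _)
      · exact Bd_zero _
    cases z <;> simp only [isTop, not_true_eq_false] at hz
    · exact Bd_ins sz0 _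
    · exact hp _
    · exact (Bd_ins sz0 (Lt.conf nil)).mono (by simp [Lt.sz])
    · exact hp _
    · exact (hb _).mono (Nat.zero_le _)

theorem op_Bd {Tf : D.Q → EM D G} (hb : ∀ q, Bd Lt.sz 0 (Tf q)) (ζ : L D n) :
    Bd Lt.sz (wz ζ.2) (op gen Tf ζ) := by
  obtain ⟨j, z⟩ := ζ
  induction j with
  | zero => exact op0_Bd gen hb z
  | succ j ih =>
    unfold op at ih ⊢
    rw [Function.iterate_succ_apply']
    exact Bd_below sz0 _ ih

theorem wd_Bd {Tf : D.Q → EM D G} (hb : ∀ q, Bd Lt.sz 0 (Tf q)) (μ : List (L D n)) :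
    Bd Lt.sz (wtW μ) (wd (op gen Tf) μ) := by
  induction μ with
  | nil => exact Bd_one
  | cons ζ μ ih => rw [wd_cons, wtW_cons]; exact (op_Bd gen hb ζ).mul ih

omit [Group G] in
theorem iter_Ag {wt : Lt D G → ℕ} (h0 : wt (.ray 0) = 0) {N : ℕ} {f f' : EM D G}
    (h : Ag wt N f f') (j : ℕ) : Ag wt N ((below Lt.isRay)^[j] f) ((below Lt.isRay)^[j] f') := by
  induction j with
  | zero => exact h
  | succ j ih =>
    rw [Function.iterate_succ_apply', Function.iterate_succ_apply']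
    exact Ag_below h0 _ ih

theorem wd_Ag {T T' : D.Q → EM D G} {M : ℕ} (h : ∀ q, Ag Lt.sz M (T q) (T' q))
    (hb : ∀ q, Bd Lt.sz 0 (T q)) (μ : List (L D n)) :
    Ag Lt.sz (M + 1 - wtW μ) (wd (op gen T) μ) (wd (op gen T') μ) := by
  induction μ with
  | nil => exact Ag_refl _ _
  | cons ζ μ ih =>
    rw [wd_cons, wd_cons, wtW_cons]
    by_cases h0 : M + 1 - (wz ζ.2 + wtW μ) = 0
    · rw [h0]; intro m hm; omega
    refine Ag.mul ?_ (ih.mono (by omega)) (wd_Bd gen hb μ)
    obtain ⟨j, z⟩ := ζ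
    apply iter_Ag sz0
    cases z <;> first | exact Ag_refl _ _ | skip
    exact (h _).mono (by simp only [wz] at h0 ⊢; omega)

theorem evP_Bd {Tf : D.Q → EM D G} (hb : ∀ q, Bd Lt.sz 0 (Tf q)) (w : ℕ) (P : Poly (L D n))
    (hP : ∀ μ ∈ P, wtW μ ≤ w) : Bd Lt.sz w (evP (op gen Tf) P) := by
  induction P with
  | nil => exact Bd_zero _
  | cons μ P ih =>
    rw [evP_cons]
    exact ((wd_Bd gen hb μ).mono (hP μ List.mem_cons_self)).add
      (ih fun ν hν => hP ν (List.mem_cons_of_mem _ hν))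

theorem evP_Ag {T T' : D.Q → EM D G} {M : ℕ} (h : ∀ q, Ag Lt.sz M (T q) (T' q))
    (hb : ∀ q, Bd Lt.sz 0 (T q)) (w : ℕ) (P : Poly (L D n)) (hP : ∀ μ ∈ P, wtW μ ≤ w) :
    Ag Lt.sz (M + 1 - w) (evP (op gen T) P) (evP (op gen T') P) := by
  induction P with
  | nil => exact Ag_refl _ _
  | cons μ P ih =>
    rw [evP_cons, evP_cons]
    have := hP μ List.mem_cons_self
    exact ((wd_Ag gen h hb μ).mono (by omega)).add
      (ih fun ν hν => hP ν (List.mem_cons_of_mem _ hν))

/-- one step of the recursion defining the evaluators -/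
noncomputable def tnx (e : ℕ) (T : D.Q → EM D G) (q : D.Q) : EM D G :=
  mk fun c => evP (op gen T) (vT e q c)

noncomputable def Tn (e : ℕ) : ℕ → D.Q → EM D G
  | 0 => fun _ => 0
  | m + 1 => tnx gen e (Tn e m)

noncomputable def Tstar (e : ℕ) (q : D.Q) : EM D G :=
  Finsupp.linearCombination (ZMod 2) fun ω =>
    Tn gen e (Om.meas Lt.sz ω + 1) q (Finsupp.single ω 1)

variable (hD : D.Good) (e : ℕ)
include hD

theorem tnx_Bd {T : D.Q → EM D G} (hb : ∀ q, Bd Lt.sz 0 (T q)) (q) :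
    Bd Lt.sz 0 (tnx gen e T q) :=
  Bd_mk sz0 fun c => evP_Bd gen hb _ _ (vT_wt hD e q c)

theorem tnx_Ag {T T' : D.Q → EM D G} {M : ℕ} (h : ∀ q, Ag Lt.sz M (T q) (T' q))
    (hb : ∀ q, Bd Lt.sz 0 (T q)) (q) : Ag Lt.sz (M + 1) (tnx gen e T q) (tnx gen e T' q) :=
  Ag_mk sz0 fun c => evP_Ag gen h hb _ _ (vT_wt hD e q c)

theorem Tn_Bd (m : ℕ) : ∀ q, Bd Lt.sz 0 (Tn gen e m q : EM D G) := by
  induction m with
  | zero => exact fun _ => Bd_zero _
  | succ m ih => exact tnx_Bd gen hD e ih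

theorem Tn_Ag (m k : ℕ) : ∀ q, Ag Lt.sz m (Tn gen e m q : EM D G) (Tn gen e (m + k) q) := by
  induction m with
  | zero => intro q m hm; omega
  | succ m ih =>
    rw [show m + 1 + k = m + k + 1 by omega]
    exact tnx_Ag gen hD e ih (Tn_Bd gen hD e m)

theorem Tstar_Ag (m : ℕ) (q) : Ag Lt.sz m (Tstar gen e q : EM D G) (Tn gen e m q) := by
  apply Ag_of_single
  intro ω hω
  obtain ⟨k, rfl⟩ : ∃ k, m = Om.meas Lt.sz ω + 1 + k := ⟨m - (Om.meas Lt.sz ω + 1), by omega⟩
  rw [← Tn_Ag gen hD e _ k q _ (Nat.lt_succ_self _) _ (single_mem_Fil _ le_rfl)]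
  simp [Tstar]

theorem Tstar_Bd (q) : Bd Lt.sz 0 (Tstar gen e q : EM D G) := fun N v hv => by
  rw [Tstar_Ag gen hD e (N + 1) q N (Nat.lt_succ_self _) v hv]
  exact Tn_Bd gen hD e _ q N v hv

theorem Tstar_eq (q) : (Tstar gen e q : EM D G) = tnx gen e (Tstar gen e) q := by
  apply eq_of_Ag (wt := Lt.sz)
  intro N
  exact ((Tstar_Ag gen hD e (N + 1) q).trans
    (tnx_Ag gen hD e (Tstar_Ag gen hD e N) (Tstar_Bd gen hD e) q).symm).mono (Nat.le_succ _)

omit hD in
/-- the generators in the model -/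
noncomputable def mg : L D n → EM D G := op gen (Tstar gen e)

theorem act_model : Act gen e (mg gen e : L D n → EM D G) ins (below Lt.isRay) where
  two := two_EE
  one := by
    apply ext_ins
    intro c
    show top (tf gen .one) * _ = _
    simp [tf]
  th_g j z := by simp only [mg, op, Function.iterate_succ_apply']
  top z c hz := by
    show op0 gen _ z * _ = _
    rw [op0_top gen _ z hz, top_ins]
  cre0 := rfl
  creC := rfl
  ann0 c := by
    show popc _ * _ = _
    rw [popc_ins]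
  annD c := by
    show popc _ * _ = _
    rw [popc_ins]
  th_S r c := below_ins _ _ _
  T_S q c := by
    show Tstar gen e q * _ = _
    conv_lhs => rw [Tstar_eq gen hD e q]
    exact mk_ins _ _

end Vale.Agent.P193
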