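import Vale.Agent.P193.Model

/-! The basic relations hold in every faithful action. -/

namespace Vale.Agent.P193

open Sgn

universe u

variable {D : Sgn} {n : ℕ} {G : Type u} [Group G]

theorem val_congr {e : ℕ} {q q' : D.Q} {s s' : D.St} (h : orig e (q, s) = orig e (q', s')) :
    (val e q s : Poly (L D n)) = val e q' s' := by
  unfold val; rw [h]

theorem val_gen (hD : D.Good) {e : ℕ} {q : D.Q} {u : D.St} (hg : D.Gen e (q, u)) :
    (val e q u : Poly (L D n)) = [l0 (Z.aD :: popW (encO q u))] := by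
  have : orig e (q, u) = (q, u) := orig_eq hD .refl hg.1
  unfold val
  rw [this, if_neg hg.2.1, if_neg hg.2.2]

theorem l0_ne_nil {μ : List (Z D n)} (h : μ ≠ []) : (l0 μ : List (L D n)) ≠ [] := by
  simpa [l0] using h

theorem Base.ne_nil {Sm : Set (Poly (L D n))} {triv} {e : ℕ} (hS : ∀ P ∈ Sm, ∀ μ ∈ P, μ ≠ [])
    {P : Poly (L D n)} (hP : Base Sm triv e P) : ∀ μ ∈ P, μ ≠ [] := by
  cases hP with
  | small P h => exact hS P h
  | e1 j i =>
    intro μ hμ
    simp only [List.mem_cons, List.mem_map] at hμ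
    rcases hμ with rfl | ⟨ν, -, rfl⟩ <;> simp [tj, l0]
  | _ => simp [l0, tj]

namespace Act

variable {gen : Fin n → G} {e : ℕ} {A : Type*} [Ring A] {g : L D n → A} {S : Lt D G → A}
  {θ : A →ₙ+* A} (h : Act gen e g S θ)
include h

theorem top0 (z : Z D n) (c : Lt D G) (hz : isTop z = true) (hc : tf gen z c = none) :
    g (0, z) * S c = 0 := by rw [h.top z c hz, hc]; rfl

theorem T_pushW_conf (q) (u s : D.St) :
    g (0, .T q) * wd (fun z => g (0, z)) (pushW u) * S (.conf s) = evP g (val e q (app u s)) := by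
  rw [mul_assoc, h.pushW_conf, h.T_S]; rfl

theorem T_pushW_nonconf (q) (u : D.St) (c : Lt D G) (hc : ∀ s, c ≠ .conf s) :
    g (0, .T q) * wd (fun z => g (0, z)) (pushW u) * S c = 0 := by
  apply h.kill
  · intro z hz
    obtain ⟨i, a, rfl⟩ := pushW_mem hz
    cases c with
    | conf s => exact absurd rfl (hc s)
    | _ => exact ⟨rfl, rfl⟩
  · exact h.T_nonconf _ _ hc

theorem th_one (j) (z : Z D n) : θ 1 = g (1, .one) ∧ θ (g (j, z)) = g (j + 1, z) :=
  ⟨by rw [← h.one, h.th_g], h.th_g _ _⟩

variable (hx : ∀ f f' : A, (∀ c, f * S c = f' * S c) → f = f')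
include hx

theorem lv : Lv fun z => g (0, z) where
  y0x0 := by simp [h.cre0, h.ann0]
  y0x1 := by
    apply hx; intro c
    rw [mul_assoc, h.top _ _ rfl]
    cases c <;> simp [tf, h.ann0]
  y1x0 := by simp [h.cre0, h.top0 .y1 (.ray 0) rfl rfl]
  y1x1 := by
    apply hx; intro c
    rw [mul_assoc, h.top _ _ rfl]
    cases c <;> simp [tf, h.top .y1 _ rfl]

theorem swindle (r : A) :
    θ r = g (0, .x0) * r * g (0, .y0) + g (0, .x1) * θ r * g (0, .y1) := by
  apply hx; intro c
  simp only [add_mul, mul_assoc, h.ann0, h.top .y1 _ rfl, h.th_S, h.cre0]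
  rcases c with (_ | m) | s | ⟨x, s⟩ <;>
    simp [tf, Lt.isRay, h.th_S, ← mul_assoc, h.top .x1 _ rfl]

theorem sum_one : g (0, .x0) * g (0, .y0) + g (0, .x1) * g (0, .y1) = 1 := by
  apply hx; intro c
  simp only [add_mul, mul_assoc, h.ann0, h.top .y1 _ rfl, h.cre0]
  rcases c with (_ | m) | s | ⟨x, s⟩ <;> simp [tf, h.top .x1 _ rfl]

theorem base (hD : D.Good) {Sm : Set (Poly (L D n))} {P : Poly (L D n)}
    (hP : Base Sm (fun w => gw gen w = 1) e P) : P ∈ Sm ∨ evP g P = 0 := by
  have two : ∀ a b : A, a = b → a + (b + 0) = 0 := fun a b hab => by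
    rw [hab, add_zero, h.add_self]
  cases hP with
  | small P h => exact Or.inl h
  | rule ρ =>
    right
    apply two
    apply hx; intro c
    simp only [wd_l0, wd_cons]
    by_cases hc : ∀ s, c ≠ .conf s
    · rw [h.T_pushW_nonconf _ _ _ hc, h.T_pushW_nonconf _ _ _ hc]
    · obtain ⟨s, rfl⟩ : ∃ s, c = .conf s := by simpa using hc
      rw [h.T_pushW_conf, h.T_pushW_conf, val_congr (orig_step hD ⟨ρ, s, rfl, rfl⟩)]
  | e1 j i =>
    right
    rw [evP_cons, evP_map_append, ← add_zero (_ * wd g (tj j))]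
    apply two
    apply hx; intro c
    simp only [wd_append, wd_cons, wd_nil, mul_one, mul_assoc]
    by_cases hc : ∀ s, c ≠ .conf s
    · rw [h.tj_nonconf _ _ hc, h.top0 _ _ rfl, mul_zero, mul_zero]
      cases c with
      | conf s => exact absurd rfl (hc s)
      | _ => rfl
    · obtain ⟨s, rfl⟩ : ∃ s, c = .conf s := by simpa using hc
      rw [h.push_conf, h.tj_conf hD, h.tj_conf hD, Function.update_self, ev_inI hD, evP_mulP,
        iter_mul, h.iter_evP]
      intro μ hμ
      obtain ⟨ν, hν, rfl⟩ := List.mem_map.1 hμ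
      exact l0_ne_nil (mI_wt i ν hν).2
  | e2 j o h1 h2 =>
    right
    apply two
    apply hx; intro c
    simp only [wd_append, wd_cons, wd_nil, mul_one, mul_assoc, wd_l0]
    by_cases hc : ∀ s, c ≠ .conf s
    · rw [h.top0 _ _ rfl, h.top0 _ _ rfl, mul_zero, mul_zero, mul_zero] <;>
      cases c with
      | conf s => exact absurd rfl (hc s)
      | _ => rfl
    · obtain ⟨s, rfl⟩ : ∃ s, c = .conf s := by simpa using hc
      rw [h.push_conf, h.tj_conf hD, h.push_conf, h.T_S, vT, val_q0 hD, Function.update_self,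
        Function.update_self, ev_other h1 h2, ev_other hD.th_hash.symm fun i => (hD.inI_hash i).symm]
      simp [h.one, h.iter_one]
  | e3 j =>
    right
    apply two
    apply hx; intro c
    simp only [wd_cons, mul_assoc]
    by_cases hc : ∀ s, c ≠ .conf s
    · rw [h.tj_nonconf _ _ hc, mul_zero]
    · obtain ⟨s, rfl⟩ : ∃ s, c = .conf s := by simpa using hc
      rw [h.tj_conf hD, ← h.iter_one, ← iter_mul, one_mul]
  | e4 j =>
    right
    apply two
    simp [h.creC, h.tj_conf hD, nil, ev, h.one, h.iter_one]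
  | h0 ζ =>
    right
    have := h.swindle hx (g ζ)
    rw [h.th_g ζ.1 ζ.2] at this
    simp only [evP_cons, evP_nil, wd_cons, wd_nil, mul_one, add_zero, ← mul_assoc]
    rw [← this, h.add_self]
  | h5 ζ =>
    right
    apply two
    simp only [wd_cons, wd_nil, mul_one]
    rw [← h.th_g, ← (h.th_one 0 .one).1, ← map_mul, mul_one]
  | h6 ζ =>
    right
    apply two
    simp only [wd_cons, wd_nil, mul_one]
    rw [← h.th_g ζ.1, ← (h.th_one 0 .one).1, ← map_mul, one_mul]
  | d1 w hw =>
    right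
    apply two
    apply hx; intro c
    simp only [wd_l0, wd_append, wd_cons, wd_nil, mul_one, mul_assoc, h.top .pD _ rfl]
    cases c <;> simp [tf, h.lamW_dis, hw]
  | d2 w t hw =>
    right
    apply hx; intro c
    simp only [evP_cons, evP_nil, add_zero, wd_l0, wd_append, wd_cons, wd_nil, mul_one, mul_assoc,
      h.top .dl _ rfl, List.cons_append]
    cases c <;> simp only [tf, Option.elim_none, Option.elim_some, mul_zero, zero_mul]
    rw [h.popW_dis]
    split_ifs
    · rw [h.lamW_dis, h.annD, if_neg]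
      simp [hw]
    · simp
  | d3 t i a ht =>
    right
    apply hx; intro c
    simp only [evP_cons, evP_nil, add_zero, wd_l0, wd_append, wd_cons, wd_nil, mul_one, mul_assoc,
      h.top (.push i a) _ rfl, List.cons_append]
    cases c <;> simp only [tf, Option.elim_none, Option.elim_some, mul_zero, zero_mul]
    rw [h.dl_conf, ← mul_assoc, h.aD_popW, if_neg]
    simp only [Lt.dis.injEq, true_and]
    intro h2
    have := congrFun h2 i
    simp [ht] at this
  | d4 s i a hs =>
    right
    simp only [evP_cons, evP_nil, add_zero, wd_l0, wd_append, wd_cons, wd_nil, mul_one,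
      List.cons_append, h.creC, h.pushW_conf, h.dl_conf, h.top (.pop i a) _ rfl]
    simp [tf, hs]
  | b4 q u hg =>
    right
    apply two
    simp only [wd_l0, wd_append, wd_cons, wd_nil, mul_one, List.cons_append, h.creC]
    rw [← mul_assoc, h.T_pushW_conf, app_nil, val_gen hD hg]
    simp [wd_l0]

end Act

theorem finite_lists {α : Type*} {s : Set α} (hs : s.Finite) (m : ℕ) :
    {l : List α | l.length ≤ m ∧ ∀ a ∈ l, a ∈ s}.Finite := by
  have := hs.to_subtype
  refine ((List.finite_length_le s m).image (List.map Subtype.val)).subset ?_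
  rintro l ⟨h1, h2⟩
  refine ⟨l.pmap Subtype.mk h2, by simpa using h1, ?_⟩
  simp [List.map_pmap]

def Small (P : Poly (L D n)) : Prop :=
  P.length ≤ 4 ∧ ∀ μ ∈ P, (μ.length ≤ 3 ∧ ∀ ζ ∈ μ, ζ.1 ≤ 1) ∧ μ ≠ []

def tacc : Poly (L D n) := [[(0, Z.T D.acc)]]

def Sm (gen : Fin n → G) : Set (Poly (L D n)) :=
  {P | Small P ∧ (P = tacc ∨ ∀ e, evP (mg gen e : L D n → EM D G) P = 0)}

theorem Sm_finite (gen : Fin n → G) : (Sm gen : Set (Poly (L D n))).Finite := by
  have h1 : {ζ : L D n | ζ.1 ≤ 1}.Finite := by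
    refine ((Set.finite_Iic 1).prod (Set.finite_univ (α := Z D n))).subset ?_
    intro ζ hζ; exact ⟨hζ, trivial⟩
  refine (finite_lists (finite_lists h1 3) 4).subset ?_
  rintro P ⟨⟨h2, h3⟩, -⟩
  exact ⟨h2, fun μ hμ => (h3 μ hμ).1⟩

theorem Sm_ne_nil (gen : Fin n → G) : ∀ P ∈ (Sm gen : Set (Poly (L D n))), ∀ μ ∈ P, μ ≠ [] :=
  fun _ hP μ hμ => (hP.1.2 μ hμ).2

/-- the program number is a fixed point -/
def Fix (gen : Fin n → G) (D : Sgn) (e : ℕ) : Prop :=
  ∀ N, ((Denumerable.ofNat Nat.Partrec.Code e).eval N).Dom ↔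
    Lang (Sm gen : Set (Poly (L D n))) (fun w => gw gen w = 1) e N

open Classical in
theorem Tacc_zero (gen : Fin n → G) (hD : D.Good) (hS : D.Spec) {e : ℕ} (hf : Fix gen D e)
    (hi : Function.Injective enc) : (mg gen e (0, .T D.acc) : EM D G) = 0 := by
  have h := act_model gen hD e
  have hx : ∀ f f' : EM D G, (∀ c, f * ins c = f' * ins c) → f = f' := fun _ _ => ext_ins
  let wt : Lt D G → ℕ := fun c => if c = .ray 0 then 0 else 1
  have h0 : wt (.ray 0) = 0 := if_pos rfl
  apply eq_of_Ag (wt := wt)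
  intro N
  induction N with
  | zero => intro m hm; omega
  | succ N ih =>
    have e1 : (mg gen e (0, .T D.acc) : EM D G) = mk fun c => evP (mg gen e) (vT e D.acc c) :=
      Tstar_eq gen hD e _
    have e2 : (0 : EM D G) = mk fun _ => 0 := ext_ins fun c => by simp
    rw [e1, e2]
    apply Ag_mk h0
    intro c
    cases c with
    | ray m => exact Ag_refl _ _
    | dis x s => exact Ag_refl _ _
    | conf s =>
      have hr : D.Reach e (orig e (D.acc, s)) := ⟨s, (orig_spec hD _).1⟩
      simp only [vT, val, wt, reduceCtorEq, if_false, Nat.add_sub_cancel]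
      split_ifs with h1
      · have hr' : D.Reach e (D.q0, (orig e (D.acc, s)).2) := by rw [← h1]; exact hr
        obtain ⟨l, r, h2, h3⟩ := hS.sound e _ hr'
        obtain ⟨j, P, hP, h4⟩ := (hf _).1 h3
        obtain rfl := hi h4
        rw [h2, Act.ev_in (g := mg gen e) hD, ev_other hD.th_hash.symm fun i => (hD.inI_hash i).symm,
          (h.lv hx).code_val, h.phiP_val hD (h.lv hx), ← h.iter_evP j P (hP.ne_nil (Sm_ne_nil gen))]
        simp only [evP_cons, wd_cons, wd_nil, evP_nil, h.one, mul_one, add_zero]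
        rw [← Act.iter_zero (θ := below Lt.isRay) j]
        apply iter_Ag h0
        rcases h.base hx hD hP with ⟨-, rfl | h5⟩ | h5
        · simpa [tacc] using ih
        · rw [h5 e]; exact Ag_refl _ _
        · rw [h5]; exact Ag_refl _ _
      · exact Ag_refl _ _

theorem base_model (gen : Fin n → G) (hD : D.Good) (hS : D.Spec) {e : ℕ} (hf : Fix gen D e)
    (hi : Function.Injective enc) {P : Poly (L D n)}
    (hP : Base (Sm gen) (fun w => gw gen w = 1) e P) : evP (mg gen e : L D n → EM D G) P = 0 := by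
  rcases (act_model gen hD e).base (fun _ _ => ext_ins) hD hP with ⟨-, rfl | h5⟩ | h5
  · simpa [tacc] using Tacc_zero gen hD hS hf hi
  · exact h5 e
  · exact h5

end Vale.Agent.P193
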