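import Vale.Agent.P193.Defs

/-! Runs of the rewriting machines: origins. -/

namespace Vale.Agent.P193.Sgn

open Relation

variable {D : Sgn} {e : ℕ}

theorem app_assoc (a b c : D.St) : app (app a b) c = app a (app b c) := by
  funext i; simp [app]

@[simp] theorem app_nil (a : D.St) : app a nil = a := by funext i; simp [app, nil]

@[simp] theorem nil_app (a : D.St) : app nil a = a := by funext i; simp [app, nil]

theorem app_left_cancel {a b c : D.St} (h : app a b = app a c) : b = c := by
  funext i; simpa [app] using congrFun h i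

theorem app_right_cancel {a b c : D.St} (h : app b a = app c a) : b = c := by
  funext i; simpa [app] using congrFun h i

def tot (s : D.St) : ℕ := ∑ i, (s i).length

theorem tot_app (a b : D.St) : tot (app a b) = tot a + tot b := by
  simp [tot, app, Finset.sum_add_distrib]

@[simp] theorem tot_nil : tot (nil : D.St) = 0 := by simp [tot, nil]

theorem tot_update (s : D.St) (i : Fin D.k) (l : List D.Sg) :
    tot (Function.update s i l) + (s i).length = tot s + l.length := by
  unfold tot
  rw [← Finset.add_sum_erase _ _ (Finset.mem_univ i), ← Finset.add_sum_erase _ (fun j => (s j).length)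
    (Finset.mem_univ i)]
  have : ∑ j ∈ Finset.univ.erase i, (Function.update s i l j).length
      = ∑ j ∈ Finset.univ.erase i, (s j).length :=
    Finset.sum_congr rfl fun j hj => by rw [Function.update_of_ne (Finset.ne_of_mem_erase hj)]
  rw [this, Function.update_self]; omega

theorem len_le_tot (s : D.St) (i : Fin D.k) : (s i).length ≤ tot s :=
  Finset.single_le_sum (f := fun j => (s j).length) (fun _ _ => Nat.zero_le _) (Finset.mem_univ i)

theorem two_le_tot (s : D.St) {i j : Fin D.k} (h : i ≠ j) : (s i).length + (s j).length ≤ tot s := by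
  have := Finset.sum_le_sum_of_subset (f := fun j => (s j).length) (Finset.subset_univ {i, j})
  rwa [Finset.sum_pair h] at this

theorem Step.app {c c' : D.Cfg} (h : D.Step e c c') (s : D.St) :
    D.Step e (c.1, app c.2 s) (c'.1, app c'.2 s) := by
  obtain ⟨ρ, t, rfl, rfl⟩ := h
  exact ⟨ρ, Sgn.app t s, by simp [app_assoc], by simp [app_assoc]⟩

theorem rtg_app {c c' : D.Cfg} (h : ReflTransGen (D.Step e) c c') (s : D.St) :
    ReflTransGen (D.Step e) (c.1, app c.2 s) (c'.1, app c'.2 s) := by
  induction h with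
  | refl => exact .refl
  | tail _ h2 ih => exact ih.tail (h2.app s)

variable (hD : D.Good)
include hD

theorem step_detf {c c1 c2 : D.Cfg} (h1 : D.Step e c c1) (h2 : D.Step e c c2) : c1 = c2 := by
  obtain ⟨ρ, s, rfl, rfl⟩ := h1
  obtain ⟨ρ', s', h, rfl⟩ := h2
  obtain ⟨ha, hb⟩ := Prod.mk.inj h
  obtain rfl := hD.detf _ _ _ _ ha hb
  rw [app_left_cancel hb]

theorem step_detb {c c1 c2 : D.Cfg} (h1 : D.Step e c1 c) (h2 : D.Step e c2 c) : c1 = c2 := by
  obtain ⟨ρ, s, rfl, rfl⟩ := h1
  obtain ⟨ρ', s', rfl, h⟩ := h2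
  obtain ⟨ha, hb⟩ := Prod.mk.inj h
  obtain rfl := hD.detb _ _ _ _ _ ha hb
  rw [app_left_cancel hb]

theorem exists_orig (c : D.Cfg) : ∃ o, ReflTransGen (D.Step e) o c ∧ D.IsOrig e o := by
  induction h : (c.2 D.hist).length using Nat.strong_induction_on generalizing c with
  | _ m ih =>
    by_cases hc : D.IsOrig e c
    · exact ⟨c, .refl, hc⟩
    · obtain ⟨c', hc'⟩ := not_not.1 hc
      have : (c'.2 D.hist).length < m := by
        obtain ⟨ρ, s, rfl, rfl⟩ := hc'
        have := hD.hist_lt e ρ
        simp only [app, List.length_append] at h ⊢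
        omega
      obtain ⟨o, h1, h2⟩ := ih _ this c' rfl
      exact ⟨o, h1.tail hc', h2⟩

theorem orig_unique {o o' c : D.Cfg} (h : ReflTransGen (D.Step e) o c) (ho : D.IsOrig e o)
    (h' : ReflTransGen (D.Step e) o' c) (ho' : D.IsOrig e o') : o = o' := by
  induction h with
  | refl =>
    rcases h'.cases_tail with rfl | ⟨b, -, hb⟩
    · rfl
    · exact absurd ⟨b, hb⟩ ho
  | tail _ h2 ih =>
    rcases h'.cases_tail with rfl | ⟨b, hb1, hb⟩
    · exact absurd ⟨_, h2⟩ ho'
    · obtain rfl := step_detb hD h2 hb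
      exact ih hb1

theorem rtg_size {o c : D.Cfg} (h : ReflTransGen (D.Step e) o c) :
    (o.2 D.inp).length + (o.2 D.hist).length ≤ (c.2 D.inp).length + (c.2 D.hist).length := by
  induction h with
  | refl => exact le_rfl
  | tail _ h2 ih =>
    obtain ⟨ρ, s, rfl, rfl⟩ := h2
    have := hD.size_le e ρ
    simp only [app, List.length_append] at ih ⊢
    omega

theorem reach_step {c c' : D.Cfg} (h : D.Step e c c') : D.Reach e c ↔ D.Reach e c' := by
  constructor
  · rintro ⟨u, hu⟩
    rcases hu.cases_head with rfl | ⟨b, hb, hb2⟩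
    · obtain ⟨ρ, s, h1, -⟩ := h
      exact absurd (Prod.mk.inj h1).1.symm (hD.src_ne ρ)
    · obtain rfl := step_detf hD h hb
      exact ⟨u, hb2⟩
  · rintro ⟨u, hu⟩
    exact ⟨u, .head h hu⟩

theorem isOrig_q0 (s : D.St) : D.IsOrig e (D.q0, s) := by
  rintro ⟨c', ρ, t, -, h⟩
  exact hD.dst_ne ρ (Prod.mk.inj h).1.symm

omit hD in
theorem split_dum {p u a s : D.St} (hp : ∀ i, i ≠ D.dum → p i = []) (ha : a D.dum = [])
    (h : app u p = app a s) : ∃ s', u = app a s' ∧ s = app s' p := by
  refine ⟨Function.update s D.dum (u D.dum), ?_, ?_⟩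
  · funext i
    by_cases hi : i = D.dum
    · subst hi; simp [app, ha]
    · have := congrFun h i
      simp only [app, hp i hi, List.append_nil] at this
      simp [app, Function.update_of_ne hi, this]
  · funext i
    by_cases hi : i = D.dum
    · subst hi
      have := congrFun h D.dum
      simp only [app, ha, List.nil_append] at this
      simp [app, this]
    · simp [app, Function.update_of_ne hi, hp i hi]

theorem Gen.app_dum {q : D.Q} {u p : D.St} (hg : D.Gen e (q, u))
    (hp : ∀ i, i ≠ D.dum → p i = []) : D.Gen e (q, app u p) := by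
  refine ⟨?_, hg.2.1, ?_⟩
  · rintro ⟨c', ρ, s, rfl, h⟩
    obtain ⟨h1, h2⟩ := Prod.mk.inj h
    obtain ⟨s', hs, -⟩ := split_dum hp (hD.rhs_dum e ρ) h2
    exact hg.1 ⟨_, ρ, s', rfl, by rw [h1, hs]⟩
  · rintro ⟨v, hv⟩
    apply hg.2.2
    have key : ∀ c : D.Cfg, ReflTransGen (D.Step e) (q, app u p) c →
        ∃ u', c.2 = app u' p ∧ ReflTransGen (D.Step e) (q, u) (c.1, u') := by
      intro c hc
      induction hc with
      | refl => exact ⟨u, rfl, .refl⟩
      | tail _ h2 ih =>
        obtain ⟨u', h3, h4⟩ := ih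
        obtain ⟨ρ, s, rfl, rfl⟩ := h2
        obtain ⟨s', hs, hs'⟩ := split_dum hp (hD.lhs_dum ρ) h3.symm
        refine ⟨app (D.rhs e ρ) s', by rw [hs', app_assoc], h4.tail ⟨ρ, s', by rw [hs], rfl⟩⟩
    obtain ⟨u', -, h⟩ := key _ hv
    exact ⟨u', h⟩

omit hD in
open Classical in
/-- the origin of a configuration -/
noncomputable def orig (e : ℕ) (c : D.Cfg) : D.Cfg :=
  if h : ∃ o, ReflTransGen (D.Step e) o c ∧ D.IsOrig e o then h.choose else c

theorem orig_spec (c : D.Cfg) : ReflTransGen (D.Step e) (orig e c) c ∧ D.IsOrig e (orig e c) := by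
  have h := exists_orig (e := e) hD c
  unfold orig
  rw [dif_pos h]
  exact h.choose_spec

theorem orig_eq {o c : D.Cfg} (h : ReflTransGen (D.Step e) o c) (ho : D.IsOrig e o) :
    orig e c = o :=
  orig_unique hD (orig_spec hD c).1 (orig_spec hD c).2 h ho

theorem orig_step {c c' : D.Cfg} (h : D.Step e c c') : orig e c' = orig e c :=
  orig_eq hD ((orig_spec hD c).1.tail h) (orig_spec hD c).2

theorem orig_size (c : D.Cfg) : ((orig e c).2 D.inp).length ≤ tot c.2 := by
  have := rtg_size hD (orig_spec (e := e) hD c).1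
  have := two_le_tot c.2 hD.inp_hist
  omega

end Vale.Agent.P193.Sgn
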