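import Vale.Agent.P193.SysC

/-! Reduction of words to head normal form. -/

namespace Vale.Agent.P193

open Sgn

universe u

variable {D : Sgn} {n : ℕ} {G : Type u}

def Dm (μ : List (L D n)) : ℕ := (μ.map fun ζ => ζ.1 + 1).sum

@[simp] theorem Dm_nil : Dm ([] : List (L D n)) = 0 := rfl

@[simp] theorem Dm_cons (ζ : L D n) (μ) : Dm (ζ :: μ) = ζ.1 + 1 + Dm μ := by simp [Dm]

@[simp] theorem Dm_append (μ ν : List (L D n)) : Dm (μ ++ ν) = Dm μ + Dm ν := by simp [Dm]

def Lt.rc : Lt D G → ℕ
  | .ray m => m + 1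
  | _ => 0

def szL (α : List (Lt D G)) : ℕ := (α.map Lt.sz).sum

def rcL (α : List (Lt D G)) : ℕ := (α.map Lt.rc).sum

@[simp] theorem szL_nil : szL ([] : List (Lt D G)) = 0 := rfl
@[simp] theorem rcL_nil : rcL ([] : List (Lt D G)) = 0 := rfl
@[simp] theorem szL_cons (c : Lt D G) (α) : szL (c :: α) = c.sz + szL α := by simp [szL]
@[simp] theorem rcL_cons (c : Lt D G) (α) : rcL (c :: α) = c.rc + rcL α := by simp [rcL]
@[simp] theorem szL_append (α β : List (Lt D G)) : szL (α ++ β) = szL α + szL β := by simp [szL]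

theorem l0_append (μ ν : List (Z D n)) : l0 (μ ++ ν) = l0 μ ++ l0 ν := by simp [l0]

theorem l0_cons (z : Z D n) (ν : List (Z D n)) : l0 (z :: ν) = (0, z) :: l0 ν := rfl

theorem pushW_wt (s : D.St) : wtW (l0 (pushW s) : List (L D n)) = tot s := by
  rw [tot, Fin.sum_univ_def, pushW]
  induction List.finRange D.k with
  | nil => rfl
  | cons i I ih =>
    rw [List.flatMap_cons, l0_append, wtW_append, ih]
    simp [wtW, l0, Function.comp_def, wz]

theorem lamW_wt (w) : wtW (l0 (lamW w) : List (L D n)) = 0 := by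
  simp [wtW, l0, lamW, Function.comp_def, wz]

theorem rep_wt (m : ℕ) (z : Z D n) (hz : wz z = 0) : wtW (l0 (List.replicate m z)) = 0 := by
  simp [wtW, l0, hz]

variable [Group G]

theorem SW_wt (gen : Fin n → G) (c : Lt D G) : wtW (l0 (SW gen c)) = c.sz := by
  cases c <;> simp [SW, l0_append, l0_cons, pushW_wt, lamW_wt, rep_wt _ .x1 rfl, wz, Lt.sz, show
    (l0 [] : List (L D n)) = [] from rfl]

theorem KW_wt (gen : Fin n → G) (k : KF D G) : wtW (l0 (KW gen k)) = k.cost := by
  cases k <;> simp [KW, l0_append, l0_cons, pushW_wt, lamW_wt, popW_wt, rep_wt _ .x1 rfl,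
    rep_wt _ .y1 rfl, wz, KF.cost, show
    (l0 [] : List (L D n)) = [] from rfl]

theorem tf_rc (gen : Fin n → G) (z : Z D n) (c c' : Lt D G) (h : tf gen z c = some c') :
    c'.rc ≤ c.rc + 1 := by
  cases z <;> rcases c with (_ | m) | s | ⟨x, s⟩ <;>
    simp only [tf, reduceCtorEq, Option.some.injEq] at h <;> try (subst h; simp [Lt.rc]; done)
  · split_ifs at h
    obtain rfl := Option.some.inj h
    simp [Lt.rc]

section defs

variable (gen : Fin n → G) (e : ℕ) {A : Type*} [Ring A] (g : L D n → A) (θ : A →ₙ+* A)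

noncomputable def KR (k : KF D G) (r : List (L D n)) : A :=
  if k.isRay then KK gen g k * θ (wd g r) else KK gen g k

inductive ResS (w d : ℕ) : A → Prop
  | st (α : List (Lt D G)) (k : KF D G) (r) (hv : k.valid) (hw : szL α + k.cost + wtW r ≤ w)
      (hd : rcL α + k.dc + Dm r + r.length ≤ d) : ResS w d (wd (SA gen g) α * KR gen g θ k r)
  | low (μ) (hw : wtW μ < w) : ResS w d (wd g μ)
  | sc (μ) (c : Lt D G) (hw : wtW μ ≤ w) (hd : Dm μ < d) : ResS w d (wd g μ * Sst gen g c)
  | an (μ) (x : An D G) (hx : x.ok e) (hw : wtW μ < w) : ResS w d (wd g μ * annV gen g x)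

def Res (w d : ℕ) : AddSubmonoid A := AddSubmonoid.closure {y | ResS gen e g θ w d y}

end defs

variable {gen : Fin n → G} {e : ℕ} {A : Type*} [Ring A] {g : L D n → A} {θ : A →ₙ+* A}

theorem ResS.mem {w d : ℕ} {y : A} (h : ResS gen e g θ w d y) : y ∈ Res gen e g θ w d :=
  AddSubmonoid.subset_closure h

theorem mul_mem_closure {s : Set A} {T : AddSubmonoid A} (a : A) (h : ∀ y ∈ s, a * y ∈ T) {x : A}
    (hx : x ∈ AddSubmonoid.closure s) : a * x ∈ T := by
  induction hx using AddSubmonoid.closure_induction with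
  | zero => rw [mul_zero]; exact zero_mem _
  | add b b' _ _ h1 h2 => rw [mul_add]; exact add_mem h1 h2
  | mem b hb => exact h b hb

theorem closure_mul_mem {s : Set A} {T : AddSubmonoid A} (a : A) (h : ∀ y ∈ s, y * a ∈ T) {x : A}
    (hx : x ∈ AddSubmonoid.closure s) : x * a ∈ T := by
  induction hx using AddSubmonoid.closure_induction with
  | zero => rw [zero_mul]; exact zero_mem _
  | add b b' _ _ h1 h2 => rw [add_mul]; exact add_mem h1 h2
  | mem b hb => exact h b hb

theorem evP_mul_mem {T : AddSubmonoid A} {P : Poly (L D n)} {Y : A}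
    (h : ∀ μ ∈ P, wd g μ * Y ∈ T) : evP g P * Y ∈ T := by
  induction P with
  | nil => simp
  | cons μ P ih =>
    rw [evP_cons, add_mul]
    exact add_mem (h μ List.mem_cons_self) (ih fun ν hν => h ν (List.mem_cons_of_mem _ hν))

theorem Res_mono {w d w' d' : ℕ} (hw : w ≤ w') (hd : d ≤ d') {x : A} (hx : x ∈ Res gen e g θ w d) :
    x ∈ Res gen e g θ w' d' := by
  refine AddSubmonoid.closure_mono ?_ hx
  intro y hy
  cases hy with
  | st α k r hv h1 h2 => exact .st α k r hv (by omega) (by omega)
  | low μ h1 => exact .low μ (by omega)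
  | sc μ c h1 h2 => exact .sc μ c (by omega) (by omega)
  | an μ x hx h1 => exact .an μ x hx (by omega)

theorem word_mul {w d : ℕ} (ν : List (L D n)) {T : AddSubmonoid A}
    (hT : Res gen e g θ (w + wtW ν) (d + Dm ν) ≤ T)
    (hst : ∀ (α : List (Lt D G)) (k : KF D G) r, k.valid → szL α + k.cost + wtW r ≤ w →
      rcL α + k.dc + Dm r + r.length ≤ d → wd g ν * (wd (SA gen g) α * KR gen g θ k r) ∈ T)
    {x : A} (hx : x ∈ Res gen e g θ w d) : wd g ν * x ∈ T := by
  refine mul_mem_closure _ ?_ hx
  intro y hy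
  cases hy with
  | st α k r hv h1 h2 => exact hst α k r hv h1 h2
  | low μ h1 =>
    rw [← wd_append]
    exact hT (ResS.low _ (by rw [wtW_append]; omega)).mem
  | sc μ c h1 h2 =>
    rw [← mul_assoc, ← wd_append]
    exact hT (ResS.sc _ c (by rw [wtW_append]; omega) (by rw [Dm_append]; omega)).mem
  | an μ x hx h1 =>
    rw [← mul_assoc, ← wd_append]
    exact hT (ResS.an _ x hx (by rw [wtW_append]; omega)).mem

theorem ray_mul {w d : ℕ} (m : ℕ) {x : A} (hx : x ∈ Res gen e g θ w d) :
    SA gen g (Lt.ray m : Lt D G) * x ∈ Res gen e g θ w (d + m + 1) := by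
  have e1 : SA gen g (Lt.ray m : Lt D G) = wd g (l0 (SW gen (Lt.ray m : Lt D G))) := (wd_l0 _ _).symm
  rw [e1]
  refine word_mul _ (fun y hy => Res_mono ?_ ?_ hy) ?_ hx
  · rw [SW_wt]; rfl
  · simp [SW, Dm, l0]; omega
  · intro α k r hv h1 h2
    rw [← e1, ← mul_assoc, ← wd_cons]
    exact (ResS.st _ k r hv (by simpa [Lt.sz] using h1) (by simp only [rcL_cons, Lt.rc]; omega)).mem

theorem SA_word (α : List (Lt D G)) : ∃ μ, wd (SA gen g) α = wd g μ ∧ wtW μ = szL α := by
  induction α with
  | nil => exact ⟨[], rfl, rfl⟩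
  | cons c α ih =>
    obtain ⟨μ, h1, h2⟩ := ih
    exact ⟨l0 (SW gen c) ++ μ, by rw [wd_cons, wd_append, h1, wd_l0]; rfl, by simp [SW_wt, h2]⟩

namespace Sys

variable (h : Sys gen e g θ)
include h

theorem state_word (α : List (Lt D G)) (k : KF D G) (r : List (L D n)) :
    ∃ μ, wd (SA gen g) α * KR gen g θ k r = wd g μ ∧ wtW μ ≤ szL α + k.cost + wtW r := by
  obtain ⟨μ, h1, h2⟩ := SA_word (gen := gen) (g := g) α
  have e1 : KK gen g k = wd g (l0 (KW gen k)) := (wd_l0 _ _).symm
  unfold KR
  split_ifs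
  · by_cases hr : r = []
    · subst hr
      refine ⟨μ ++ (l0 (KW gen k) ++ [(1, .one)]), by simp [h1, e1, h.th1], ?_⟩
      simp [h2, KW_wt, wz]
    · refine ⟨μ ++ (l0 (KW gen k) ++ sh 1 r), by simp [h1, e1, th_wd' h.th_g r hr], ?_⟩
      simp [h2, KW_wt, add_assoc]
  · exact ⟨μ ++ l0 (KW gen k), by simp [h1, e1], by simp [h2, KW_wt]⟩

variable (hD : D.Good) (hs : Function.Surjective (gw gen))
include hD

theorem th_KK (a b : A) (k : KF D G) (hk : k.isRay = true) :
    θ a * (KK gen g k * θ b) = KK gen g k * θ (a * b) := by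
  cases k <;> simp only [KF.isRay, reduceCtorEq] at hk
  · simp only [KK, KW, wd_replicate]
    rw [← mul_assoc, h.th_x1p hD, mul_assoc, map_mul]
  · simp only [KK, KW, wd_replicate]
    rw [← mul_assoc, h.th_y1p hD, mul_assoc, map_mul]

theorem y0_dn (a : A) (j : ℕ) :
    g (0, .y0) * (g (0, .y1) ^ j * θ a) = a * Sst gen g (Lt.ray j : Lt D G) := by
  rw [← h.th_y1p hD, ← mul_assoc, h.y0_th hD]
  simp [Sst, SstW, mul_assoc]

theorem step_ray (z : Z D n) (k : KF D G) (hk : k.isRay = true) (r : List (L D n))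
    (h0 : z ≠ .x0) (h1 : z ≠ .vC) : g (0, z) * KR gen g θ k r ∈
      Res gen e g θ (wtW r) (k.dc + Dm r + r.length + 1) := by
  have l := h.lv hD
  have hst : ∀ k' : KF D G, k'.isRay = true → k'.dc ≤ k.dc + 1 → KK gen g k' * θ (wd g r) ∈
      Res gen e g θ (wtW r) (k.dc + Dm r + r.length + 1) := by
    intro k' h2 h3
    have := (ResS.st (gen := gen) (e := e) (g := g) (θ := θ) (w := wtW r)
      (d := k.dc + Dm r + r.length + 1) [] k' r (by cases k' <;> simp_all [KF.valid, KF.isRay])
      (by cases k' <;> simp_all [KF.cost, KF.isRay]) (by simp only [rcL_nil]; omega)).mem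
    rwa [wd_nil, one_mul, KR, if_pos h2] at this
  have hu : θ 1 * (KK gen g k * θ (wd g r)) = KK gen g k * θ (wd g r) := by
    rw [h.th_KK hD _ _ _ hk, one_mul]
  have hsc : ∀ j, wd g r * Sst gen g (Lt.ray j : Lt D G) ∈
      Res gen e g θ (wtW r) (k.dc + Dm r + r.length + 1) := fun j =>
    (ResS.sc r _ le_rfl (by omega)).mem
  rw [KR, if_pos hk]
  cases z <;> first | exact absurd rfl h0 | exact absurd rfl h1 | skip
  all_goals first | (rw [h.killU hD _ (Or.inl rfl) hu]; exact zero_mem _) |
    (rw [h.killU hD _ (Or.inr rfl) hu]; exact zero_mem _) | skip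
  · rw [h.one, one_mul]; exact hst k hk (by omega)
  · cases k <;> simp only [KF.isRay, reduceCtorEq] at hk
    · rename_i i
      have := hst (.up (i + 1)) rfl (by simp [KF.dc])
      simpa [KK, KW, pow_succ', mul_assoc] using this
    · rename_i j
      have e1 : g (0, .x1) * g (0, .y1) = 1 + g (0, .x0) * g (0, .y0) := by
        rw [← h.sum_one hD, add_right_comm, h.add_self, zero_add]
      simp only [KK, KW, wd_replicate]
      rw [pow_succ', mul_assoc, ← mul_assoc, e1, add_mul, one_mul, mul_assoc, h.y0_dn hD]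
      refine add_mem ?_ ?_
      · cases j with
        | zero => simpa [KK, KW] using hst (.up 0) rfl (by simp [KF.dc])
        | succ j => simpa [KK, KW] using hst (.dn j) rfl (by simp only [KF.dc]; omega)
      · rw [← mul_assoc, ← wd_cons]
        exact (ResS.sc _ _ (by simp [wz]) (by simp only [Dm_cons, KF.dc]; omega)).mem
  · cases k <;> simp only [KF.isRay, reduceCtorEq] at hk
    · rename_i i
      cases i with
      | zero => simpa [KK, KW, ← h.y0_dn hD] using hsc 0
      | succ i => simp [KK, KW, pow_succ', mul_assoc, l.y0x1']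
    · rename_i j
      simpa [KK, KW, ← h.y0_dn hD] using hsc (j + 1)
  · cases k <;> simp only [KF.isRay, reduceCtorEq] at hk
    · rename_i i
      cases i with
      | zero => simpa [KK, KW] using hst (.dn 0) rfl (by simp [KF.dc])
      | succ i => simpa [KK, KW, pow_succ', mul_assoc, l.y1x1'] using hst (.up i) rfl (by simp [KF.dc])
    · rename_i j
      have := hst (.dn (j + 1)) rfl (by simp [KF.dc])
      simpa [KK, KW, pow_succ', mul_assoc] using this

include hs

theorem step_non (z : Z D n) (k : KF D G) (hk : k.isRay = false) (hv : k.valid)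
    (h0 : z ≠ .x0) (h1 : z ≠ .vC) : g (0, z) * KK gen g k ∈ Res gen e g θ (k.cost + wz z) 1 := by
  by_cases hz : isTop z = true
  · rw [h.kt_eq hD hs z hz k hk hv]
    rcases hkt : kt gen z k with _ | k'
    · exact zero_mem _
    · obtain ⟨h2, h3, h4⟩ := kt_spec gen z k k' hk hv hkt
      have := (ResS.st (gen := gen) (e := e) (g := g) (θ := θ) (w := k.cost + wz z) (d := 1) [] k' []
        h3 (by simpa using h4) (by cases k' <;> simp_all [KF.dc, KF.isRay])).mem
      simpa [KR, h2] using this
  · have hsc : ∀ c : Lt D G, Sst gen g c ∈ Res gen e g θ (k.cost + wz z) 1 := fun c => by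
      simpa using (ResS.sc (gen := gen) (e := e) (g := g) (θ := θ) (w := k.cost + wz z) (d := 1) [] c
        (by simp) (by simp)).mem
    cases z <;> simp only [isTop, not_true_eq_false] at hz
    · exact absurd rfl h0
    · rw [h.y0K hD (h.K_CD hD k hk)]; exact zero_mem _
    · exact absurd rfl h1
    · cases k <;> simp only [KF.isRay, reduceCtorEq] at hk
      · rw [h.killC hD _ rfl (h.C_cc hD _)]; exact zero_mem _
      · rw [h.aD_cd hD hs _ _ _ hv]
        split_ifs
        · exact hsc _
        · exact zero_mem _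
      · rw [h.aD_dd hD]; exact hsc _
    · cases k <;> simp only [KF.isRay, reduceCtorEq] at hk
      · rename_i q s
        obtain ⟨P, x, h2, h3, h4⟩ := h.T_red hD q s
        simp only [KK, KW, wd_append, wd_cons, wd_nil, mul_one]
        rw [← (h.C_Pu hD s).eq, ← mul_assoc, h.srcC hD _ rfl, h4]
        exact evP_mul_mem fun μ hμ => (ResS.an μ x h3 (Nat.lt_succ_of_le (h2 μ hμ))).mem
      · rw [h.killD hD _ rfl (h.D_cd hD _ _ _)]; exact zero_mem _
      · rw [h.killD hD _ rfl (h.D_dd hD _ _)]; exact zero_mem _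

theorem step (α : List (Lt D G)) (k : KF D G) (r : List (L D n)) (hv : k.valid) (j : ℕ)
    (z : Z D n) : g (j, z) * (wd (SA gen g) α * KR gen g θ k r) ∈
      Res gen e g θ (szL α + k.cost + wtW r + wz z) (rcL α + k.dc + Dm r + r.length + j + 1) := by
  have ha := h.act hD hs
  by_cases h0 : j = 0 ∧ z = .x0
  · obtain ⟨rfl, rfl⟩ := h0
    rw [ha.cre0, ← mul_assoc, ← wd_cons]
    exact (ResS.st _ k r hv (by simp [Lt.sz]) (by simp only [rcL_cons, Lt.rc]; omega)).mem
  by_cases h1 : j = 0 ∧ z = .vC
  · obtain ⟨rfl, rfl⟩ := h1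
    rw [ha.creC, ← mul_assoc, ← wd_cons]
    exact (ResS.st _ k r hv (by simp [Lt.sz]) (by simp only [rcL_cons, Lt.rc]; omega)).mem
  cases α with
  | nil =>
    rw [wd_nil, one_mul]
    cases j with
    | zero =>
      cases hk : k.isRay
      · rw [KR, if_neg (by simp [hk])]
        exact Res_mono (by omega) (by omega)
          (h.step_non hD hs z k hk hv (by simpa using h0) (by simpa using h1))
      · exact Res_mono (by omega) (by simp)
          (h.step_ray hD z k hk r (by simpa using h0) (by simpa using h1))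
    | succ j =>
      rw [← h.th_g]
      cases hk : k.isRay
      · rw [KR, if_neg (by simp [hk]), h.thC hD _ (h.K_CD hD k hk)]
        exact zero_mem _
      · have := (ResS.st (gen := gen) (e := e) (g := g) (θ := θ) [] k ((j, z) :: r) hv le_rfl
          le_rfl).mem
        rw [wd_nil, one_mul, KR, if_pos hk, wd_cons] at this
        rw [KR, if_pos hk, h.th_KK hD _ _ _ hk]
        exact Res_mono (by simp; omega) (by simp; omega) this
  | cons c α =>
    rw [wd_cons, mul_assoc, ← mul_assoc]
    have hst := (ResS.st (gen := gen) (e := e) (g := g) (θ := θ) α k r hv le_rfl le_rfl).mem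
    cases j with
    | succ j =>
      rw [← h.th_g, ha.th_S]
      cases c with
      | ray m =>
        rw [if_pos (show (Lt.ray m : Lt D G).isRay = true from rfl), mul_assoc]
        exact Res_mono (by simp [Lt.sz]) (by simp only [rcL_cons, Lt.rc]; omega)
          (ray_mul m (step α k r hv j z))
      | _ => simp [Lt.isRay]
    | zero =>
      by_cases hz : isTop z = true
      · rw [ha.top z c hz]
        rcases htf : tf gen z c with _ | c'
        · simp
        · have h2 := tf_sz gen z c c' htf
          have h3 := tf_rc gen z c c' htf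
          rw [Option.elim_some, ← mul_assoc, ← wd_cons]
          exact (ResS.st _ k r hv (by simp only [szL_cons]; omega)
            (by simp only [rcL_cons]; omega)).mem
      · cases z <;> simp only [isTop, not_true_eq_false] at hz
        · simp at h0
        · rw [ha.ann0]
          split_ifs
          · rw [one_mul]; exact Res_mono (by simp; omega) (by simp; omega) hst
          · simp
        · simp at h1
        · rw [ha.annD]
          split_ifs
          · rw [one_mul]; exact Res_mono (by simp; omega) (by simp; omega) hst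
          · simp
        · rw [ha.T_S]
          obtain ⟨ν, h2, h3⟩ := h.state_word α k r
          refine evP_mul_mem fun μ hμ => ?_
          have h4 := vT_wt hD e _ c μ hμ
          rw [h2, ← wd_append]
          exact (ResS.low _ (by simp only [wtW_append, szL_cons, wz]; omega)).mem

theorem word_Res (μ : List (L D n)) : wd g μ ∈ Res gen e g θ (wtW μ) (Dm μ) := by
  induction μ with
  | nil =>
    rw [wd_nil, ← h.res hD]
    refine add_mem (add_mem ?_ ?_) ?_
    · simpa [KR, KK, KW, KF.isRay, KF.cost, KF.dc] using (ResS.st (gen := gen) (e := e) (g := g) (θ := θ) [] (.up 0)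
        [] trivial le_rfl le_rfl).mem
    · simpa [KR, KK, KW, KF.isRay, pushW_nil, KF.cost, KF.dc] using
        (ResS.st (gen := gen) (e := e) (g := g) (θ := θ) [] (.cc nil) [] trivial le_rfl le_rfl).mem
    · simpa [KR, KK, KW, KF.isRay, popW_nil, KF.cost, KF.dc,
        h.La_triv _ (gw_wOf hs 1) (h.srcD hD .pD rfl)] using
        (ResS.st (gen := gen) (e := e) (g := g) (θ := θ) [] (.dd 1 nil) [] trivial le_rfl le_rfl).mem
  | cons ζ μ ih =>
    have : wd g (ζ :: μ) = wd g [ζ] * wd g μ := by simp
    rw [this]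
    refine word_mul [ζ] (fun y hy => Res_mono (by simp; omega) (by simp; omega) hy) ?_ ih
    intro α k r hv h1 h2
    rw [wd_cons, wd_nil, mul_one]
    exact Res_mono (by simp; omega) (by simp; omega) (h.step hD hs α k r hv ζ.1 ζ.2)

end Sys

end Vale.Agent.P193
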