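import Vale.Agent.P193.ModelB

/-! The ring defined by all shifts of the basic relations. -/

namespace Vale.Agent.P193

open Sgn

universe u

variable {D : Sgn} {n : ℕ}

inductive ARel (Sm : Set (Poly (L D n))) (triv : List (Fin n × Bool) → Prop) (e : ℕ) :
    FreeRing (L D n) → FreeRing (L D n) → Prop
  | two : ARel Sm triv e (1 + 1) 0
  | one : ARel Sm triv e (FreeRing.of (0, Z.one)) 1
  | base (j P) (h : Base Sm triv e P) : ARel Sm triv e (evP FreeRing.of (shP j P)) 0

abbrev AR (Sm : Set (Poly (L D n))) (triv : List (Fin n × Bool) → Prop) (e : ℕ) : Type :=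
  RingQuot (ARel Sm triv e)

section

variable (Sm : Set (Poly (L D n))) (triv : List (Fin n × Bool) → Prop) (e : ℕ)

noncomputable def ag (ζ : L D n) : AR Sm triv e := RingQuot.mkRingHom _ (FreeRing.of ζ)

theorem A_two : (1 + 1 : AR Sm triv e) = 0 := by
  have := RingQuot.mkRingHom_rel (ARel.two (Sm := Sm) (triv := triv) (e := e))
  rwa [map_add, map_one, map_zero] at this

theorem A_one : ag Sm triv e (0, .one) = 1 := by
  have := RingQuot.mkRingHom_rel (ARel.one (Sm := Sm) (triv := triv) (e := e))
  rwa [map_one] at this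

theorem A_base (j) {P} (h : Base Sm triv e P) : evP (ag Sm triv e) (shP j P) = 0 := by
  have := RingQuot.mkRingHom_rel (ARel.base j P h)
  rwa [map_zero, map_evP] at this

theorem A_lift {B : Type*} [Ring B] (h2 : (1 + 1 : B) = 0) (f : L D n → B) (h1 : f (0, .one) = 1)
    (hb : ∀ j P, Base Sm triv e P → evP f (shP j P) = 0) :
    ∃ h : AR Sm triv e →+* B, ∀ ζ, h (ag Sm triv e ζ) = f ζ := by
  refine ⟨RingQuot.lift ⟨FreeRing.lift f, ?_⟩, fun ζ => ?_⟩
  · intro x y hxy
    cases hxy with
    | two => simpa using h2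
    | one => simpa using h1
    | base j P h =>
      rw [map_zero, map_evP]
      simpa using hb j P h
  · rw [ag, RingQuot.lift_mkRingHom_apply, FreeRing.lift_of]

theorem A_span (r : AR Sm triv e) :
    r ∈ AddSubmonoid.closure (Set.range (wd (ag Sm triv e))) := by
  obtain ⟨x, rfl⟩ := RingQuot.mkRingHom_surjective _ r
  have hn : ∀ r : AR Sm triv e, -r = r := fun r => by
    have : r + r = 0 := by
      calc r + r = (1 + 1) * r := by rw [add_mul, one_mul]
        _ = 0 := by rw [A_two, zero_mul]
    exact neg_eq_of_add_eq_zero_left this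
  induction x using FreeRing.induction_on with
  | hn1 => rw [map_neg, hn, map_one]; exact AddSubmonoid.subset_closure ⟨[], rfl⟩
  | hb b => exact AddSubmonoid.subset_closure ⟨[b], by simp [ag]⟩
  | ha x y hx hy => rw [map_add]; exact add_mem hx hy
  | hm x y hx hy =>
    rw [map_mul]
    generalize RingQuot.mkRingHom _ x = a at hx
    generalize RingQuot.mkRingHom _ y = b at hy
    induction hx using AddSubmonoid.closure_induction with
    | zero => rw [zero_mul]; exact zero_mem _
    | add a a' _ _ h1 h2 => rw [add_mul]; exact add_mem h1 h2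
    | mem a ha =>
      obtain ⟨μ, rfl⟩ := ha
      induction hy using AddSubmonoid.closure_induction with
      | zero => rw [mul_zero]; exact zero_mem _
      | add b b' _ _ h1 h2 => rw [mul_add]; exact add_mem h1 h2
      | mem b hb =>
        obtain ⟨ν, rfl⟩ := hb
        exact AddSubmonoid.subset_closure ⟨μ ++ ν, wd_append _ _ _⟩

theorem shP_zero (P : Poly (L D n)) : shP 0 P = P := by
  simp [shP, show (sh 0 : List (L D n) → _) = id from by funext μ; simp [sh]]

theorem exists_theta (hS : ∀ P ∈ Sm, ∀ μ ∈ P, μ ≠ []) : ∃ θ : AR Sm triv e →ₙ+* AR Sm triv e,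
    ∀ j z, θ (ag Sm triv e (j, z)) = ag Sm triv e (j + 1, z) := by
  set g := ag Sm triv e with hg
  have eq2 : ∀ a b : AR Sm triv e, a + b = 0 → a = b := fun a b hab => by
    have : b + b = 0 := by
      calc b + b = (1 + 1) * b := by rw [add_mul, one_mul]
        _ = 0 := by rw [A_two, zero_mul]
    calc a = a + (b + b) := by rw [this, add_zero]
      _ = b := by rw [← add_assoc, hab, zero_add]
  have h5 : ∀ ζ : L D n, g (ζ.1 + 1, ζ.2) * g (1, .one) = g (ζ.1 + 1, ζ.2) := fun ζ => by
    have := A_base Sm triv e 0 (Base.h5 ζ)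
    rw [shP_zero] at this
    exact eq2 _ _ (by simpa using this)
  have h6 : ∀ ζ : L D n, g (1, .one) * g (ζ.1 + 1, ζ.2) = g (ζ.1 + 1, ζ.2) := fun ζ => by
    have := A_base Sm triv e 0 (Base.h6 ζ)
    rw [shP_zero] at this
    exact eq2 _ _ (by simpa using this)
  have idem : IsIdempotentElem (g (1, .one)) := h5 (0, .one)
  let f : L D n → idem.Corner := fun ζ =>
    ⟨g (ζ.1 + 1, ζ.2), (Subsemigroup.mem_corner_iff idem).2 ⟨h6 ζ, h5 ζ⟩⟩
  let ι : idem.Corner →ₙ+* AR Sm triv e :=
    { toFun := fun x => x.1, map_zero' := rfl, map_add' := fun _ _ => rfl,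
      map_mul' := fun _ _ => rfl }
  have hι : Function.Injective ι := fun a b h => Subtype.ext h
  have hw : ∀ μ : List (L D n), μ ≠ [] → ι (wd f μ) = wd g (sh 1 μ) := by
    intro μ hμ
    induction μ with
    | nil => exact absurd rfl hμ
    | cons ζ μ ih =>
      by_cases h2 : μ = []
      · subst h2; simp [sh]; rfl
      · have := ih h2
        simp only [sh, wd_cons, map_mul, List.map_cons] at this ⊢
        rw [this]; rfl
  have hP : ∀ P : Poly (L D n), (∀ μ ∈ P, μ ≠ []) → ι (evP f P) = evP g (shP 1 P) := by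
    intro P hP
    induction P with
    | nil => simp [shP]
    | cons μ P ih =>
      have := ih fun ν hν => hP ν (List.mem_cons_of_mem _ hν)
      simp only [shP, evP_cons, map_add, List.map_cons] at this ⊢
      rw [this, hw μ (hP μ List.mem_cons_self)]
  obtain ⟨ψ, hψ⟩ := A_lift Sm triv e (B := idem.Corner) (hι (by
    rw [map_add, map_zero, ← one_mul (ι 1), ← add_mul, A_two, zero_mul])) f rfl (by
      intro j P h
      apply hι
      rw [map_zero, hP]
      · have := A_base Sm triv e (j + 1) h
        rw [← this]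
        congr 1
        simp [shP, sh, Function.comp_def, add_assoc]
      · intro μ hμ
        obtain ⟨ν, hν, rfl⟩ := List.mem_map.1 hμ
        simpa [sh] using h.ne_nil hS ν hν)
  refine ⟨ι.comp ψ, fun j z => ?_⟩
  show ι (ψ (ag Sm triv e (j, z))) = _
  rw [hψ]; rfl

end

variable {G : Type u} [Group G]

/-- abstract properties of the ring -/
structure Sys (gen : Fin n → G) (e : ℕ) {A : Type*} [Ring A] (g : L D n → A) (θ : A →ₙ+* A) :
    Prop where
  two : (1 + 1 : A) = 0
  one : g (0, .one) = 1
  th_g : ∀ j z, θ (g (j, z)) = g (j + 1, z)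
  base : ∀ P, Base (Sm gen) (fun w => gw gen w = 1) e P → evP g P = 0
  span : ∀ r, r ∈ AddSubmonoid.closure (Set.range (wd g))

theorem exists_sys (gen : Fin n → G) (e : ℕ) :
    ∃ θ, Sys gen e (ag (Sm gen : Set (Poly (L D n))) (fun w => gw gen w = 1) e) θ := by
  obtain ⟨θ, hθ⟩ := exists_theta (Sm gen : Set (Poly (L D n))) (fun w => gw gen w = 1) e
    (Sm_ne_nil gen)
  exact ⟨θ, A_two _ _ _, A_one _ _ _, hθ, fun P h => by
    have := A_base _ _ _ 0 h
    rwa [shP_zero] at this, A_span _ _ _⟩

theorem exists_rho (gen : Fin n → G) (hD : D.Good) (hS : D.Spec) {e : ℕ} (hf : Fix gen D e)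
    (hi : Function.Injective enc) :
    ∃ ρ : AR (Sm gen : Set (Poly (L D n))) (fun w => gw gen w = 1) e →+* EM D G,
      ∀ ζ, ρ (ag _ _ _ ζ) = mg gen e ζ := by
  have h := act_model gen hD e
  apply A_lift _ _ _ h.two _ h.one
  intro j P hP
  rw [← h.iter_evP j P (hP.ne_nil (Sm_ne_nil gen)), base_model gen hD hS hf hi hP, Act.iter_zero]

end Vale.Agent.P193
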