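import Vale.Agent.P193.RingA

/-! Small relations in the ring. -/

namespace Vale.Agent.P193

open Sgn

universe u

section PW

variable {A : Type*} [Monoid A] {k : ℕ} {β : Type} (f : Fin k → β → A)

def PW (s : Fin k → List β) : A := ((List.finRange k).map fun i => wd (f i) (s i)).prod

theorem commute_wd {α : Type*} {x : A} {f : α → A} {l : List α} (h : ∀ a ∈ l, Commute x (f a)) :
    Commute x (wd f l) :=
  Commute.list_prod_right _ _ fun y hy => by
    obtain ⟨a, ha, rfl⟩ := List.mem_map.1 hy
    exact h a ha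

theorem commute_PW {x : A} {s : Fin k → List β} (h : ∀ i, ∀ a ∈ s i, Commute x (f i a)) :
    Commute x (PW f s) :=
  Commute.list_prod_right _ _ fun y hy => by
    obtain ⟨i, -, rfl⟩ := List.mem_map.1 hy
    exact commute_wd (h i)

theorem PW_app (hc : ∀ i j a b, i ≠ j → Commute (f i a) (f j b)) (s t : Fin k → List β) :
    PW f s * PW f t = PW f fun i => s i ++ t i := by
  have key : ∀ I : List (Fin k), I.Nodup → (I.map fun i => wd (f i) (s i)).prod *
      (I.map fun i => wd (f i) (t i)).prod = (I.map fun i => wd (f i) (s i ++ t i)).prod := by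
    intro I hI
    induction I with
    | nil => simp
    | cons i I ih =>
      rw [List.nodup_cons] at hI
      have hcm : Commute (wd (f i) (t i)) (I.map fun i => wd (f i) (s i)).prod :=
        Commute.list_prod_right _ _ fun y hy => by
          obtain ⟨j, hj, rfl⟩ := List.mem_map.1 hy
          refine commute_wd fun b _ => (commute_wd fun a _ => ?_).symm
          exact hc j i b a fun hh => hI.1 (hh ▸ hj)
      simp only [List.map_cons, List.prod_cons]
      rw [← ih hI.2]
      simp only [wd_append, mul_assoc]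
      rw [← mul_assoc _ (wd (f i) (t i)), ← hcm.eq, mul_assoc]
  exact key _ (List.nodup_finRange k)

theorem PW_single (i : Fin k) (l : List β) :
    PW f (Function.update (fun _ => []) i l) = wd (f i) l := by
  have key : ∀ I : List (Fin k), I.Nodup →
      (I.map fun j => wd (f j) (Function.update (fun _ => ([] : List β)) i l j)).prod
        = if i ∈ I then wd (f i) l else 1 := by
    intro I hI
    induction I with
    | nil => simp
    | cons j I ih =>
      rw [List.nodup_cons] at hI
      rw [List.map_cons, List.prod_cons, ih hI.2]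
      by_cases hj : j = i
      · subst hj; simp [hI.1]
      · simp [hj, Ne.symm hj]
  rw [PW, key _ (List.nodup_finRange k), if_pos (List.mem_finRange i)]

theorem PW_upd (hc : ∀ i j a b, i ≠ j → Commute (f i a) (f j b)) (s : Fin k → List β) (i a) :
    f i a * PW f s = PW f (Function.update s i (a :: s i)) := by
  have := PW_single f i [a]
  rw [wd_cons, wd_nil, mul_one] at this
  rw [← this, PW_app f hc]
  congr 1
  funext j
  by_cases hj : j = i
  · subst hj; simp
  · simp [hj]

theorem PW_nil : PW f (fun _ => []) = 1 := by simp [PW]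

end PW

variable {D : Sgn} {n : ℕ} {G : Type u} [Group G]

theorem wd_pushW {A : Type*} [Monoid A] (f : Z D n → A) (s : D.St) :
    wd f (pushW s) = PW (fun i a => f (.push i a)) s := by
  rw [pushW, wd_flatMap]
  simp only [wd_map]
  rfl

theorem wd_popW {A : Type*} [Monoid A] (f : Z D n → A) (s : D.St) :
    wd f (popW s) = PW (fun i a => f (.pop i a)) fun i => (s i).reverse := by
  rw [popW, wd_flatMap]
  simp only [wd_map]
  rfl

noncomputable def tfW (gen : Fin n → G) (μ : List (Z D n)) (c : Lt D G) : Option (Lt D G) :=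
  μ.foldr (fun z o => o.bind (tf gen z)) (some c)

theorem Act.topW {gen : Fin n → G} {e : ℕ} {A : Type*} [Ring A] {g : L D n → A} {S : Lt D G → A}
    {θ : A →ₙ+* A} (h : Act gen e g S θ) (μ : List (Z D n)) (hμ : ∀ z ∈ μ, isTop z = true)
    (c : Lt D G) : wd (fun z => g (0, z)) μ * S c = (tfW gen μ c).elim 0 S := by
  induction μ with
  | nil => simp [tfW]
  | cons z μ ih =>
    rw [wd_cons, mul_assoc, ih fun z hz => hμ z (List.mem_cons_of_mem _ hz)]
    show _ = ((tfW gen μ c).bind (tf gen z)).elim 0 S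
    rcases tfW gen μ c with _ | c'
    · simp
    · simpa using h.top z c' (hμ z List.mem_cons_self)

def sC : Z D n → Bool
  | .pC | .push _ _ | .dl | .T _ => true
  | _ => false

def sD : Z D n → Bool
  | .pD | .lam _ | .pop _ _ | .aD => true
  | _ => false

def neu : Z D n → Bool
  | .one | .x1 | .y1 => true
  | _ => false

namespace Sys

variable {gen : Fin n → G} {e : ℕ} {A : Type*} [Ring A] {g : L D n → A}
  {θ : A →ₙ+* A} (h : Sys gen e g θ)
include h

theorem add_self (r : A) : r + r = 0 := by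
  calc r + r = (1 + 1) * r := by rw [add_mul, one_mul]
    _ = 0 := by rw [h.two, zero_mul]

theorem eq_of_add {a b : A} (hab : a + b = 0) : a = b := by
  have := h.add_self b
  calc a = a + (b + b) := by rw [this, add_zero]
    _ = b := by rw [← add_assoc, hab, zero_add]

theorem base2 {μ ν : List (L D n)} (hb : Base (Sm gen) (fun w => gw gen w = 1) e [μ, ν]) :
    wd g μ = wd g ν := h.eq_of_add (by simpa using h.base _ hb)

theorem base1 {μ : List (L D n)} (hb : Base (Sm gen) (fun w => gw gen w = 1) e [μ]) :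
    wd g μ = 0 := by simpa using h.base _ hb

theorem th1 : θ 1 = g (1, .one) := by rw [← h.one, h.th_g]

theorem Tacc : g (0, .T D.acc) = 0 := by
  simpa using h.base1 (μ := [(0, .T D.acc)]) (.small _ ⟨by simp [Small, -Prod.forall], Or.inl rfl⟩)

variable (hD : D.Good)
include hD

theorem sm (P : Poly (L D n)) (hs : Small P)
    (hv : ∀ {B : Type u} [Ring B] {g' : L D n → B} {S θ' e'}, Act gen e' g' S θ' →
      (∀ f f' : B, (∀ c, f * S c = f' * S c) → f = f') → ∀ c, evP g' P * S c = 0) :
    evP g P = 0 :=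
  h.base _ (.small _ ⟨hs, Or.inr fun e' => ext_ins fun c => by
    rw [hv (act_model gen hD e') (fun _ _ => ext_ins) c, zero_mul]⟩)

theorem sm2 (μ ν : List (L D n)) (hs : Small [μ, ν])
    (hv : ∀ {B : Type u} [Ring B] {g' : L D n → B} {S θ' e'}, Act gen e' g' S θ' →
      (∀ f f' : B, (∀ c, f * S c = f' * S c) → f = f') → ∀ c, wd g' μ * S c = wd g' ν * S c) :
    wd g μ = wd g ν :=
  h.eq_of_add (by
    simpa using h.sm hD _ hs fun h' hx c => by
      simp [add_mul, hv h' hx c, h'.add_self])

theorem sm1 (μ : List (L D n)) (hs : Small [μ])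
    (hv : ∀ {B : Type u} [Ring B] {g' : L D n → B} {S θ' e'}, Act gen e' g' S θ' →
      (∀ f f' : B, (∀ c, f * S c = f' * S c) → f = f') → ∀ c, wd g' μ * S c = 0) :
    wd g μ = 0 := by
  simpa using h.sm hD _ hs fun h' hx c => by simp [hv h' hx c]

theorem top2 (μ ν : List (Z D n)) (hs : Small [l0 μ, l0 ν]) (h1 : ∀ z ∈ μ, isTop z = true)
    (h2 : ∀ z ∈ ν, isTop z = true) (hv : ∀ c, tfW gen μ c = tfW gen ν c) :
    wd (fun z => g (0, z)) μ = wd (fun z => g (0, z)) ν := by
  rw [← wd_l0, ← wd_l0]
  exact h.sm2 hD _ _ hs fun h' hx c => by rw [wd_l0, wd_l0, h'.topW μ h1, h'.topW ν h2, hv]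

theorem top1 (μ : List (Z D n)) (hs : Small [l0 μ]) (h1 : ∀ z ∈ μ, isTop z = true)
    (hv : ∀ c, tfW gen μ c = none) : wd (fun z => g (0, z)) μ = 0 := by
  rw [← wd_l0]
  exact h.sm1 hD _ hs fun h' hx c => by rw [wd_l0, h'.topW μ h1, hv]; rfl

theorem lv : Lv fun z => g (0, z) where
  y0x0 := by
    simpa [h.one] using h.sm2 hD [(0, .y0), (0, .x0)] [(0, .one)] (by simp [Small, -Prod.forall])
      fun h' hx c => by simp [(h'.lv hx).y0x0, h'.one]
  y0x1 := by
    simpa using h.sm1 hD [(0, .y0), (0, .x1)] (by simp [Small, -Prod.forall])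
      fun h' hx c => by simp [(h'.lv hx).y0x1]
  y1x0 := by
    simpa using h.sm1 hD [(0, .y1), (0, .x0)] (by simp [Small, -Prod.forall])
      fun h' hx c => by simp [(h'.lv hx).y1x0]
  y1x1 := by
    simpa [h.one] using h.sm2 hD [(0, .y1), (0, .x1)] [(0, .one)] (by simp [Small, -Prod.forall])
      fun h' hx c => by simp [(h'.lv hx).y1x1, h'.one]

theorem sum_one : g (0, .x0) * g (0, .y0) + g (0, .x1) * g (0, .y1) = 1 := by
  apply h.eq_of_add
  simpa [h.one, add_assoc] using h.sm hD [[(0, .x0), (0, .y0)], [(0, .x1), (0, .y1)], [(0, .one)]]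
    (by simp [Small, -Prod.forall]) fun h' hx c => by
      simp [← add_assoc, h'.sum_one hx, h'.one, h'.two]

theorem res : θ 1 + g (0, .pC) + g (0, .pD) = 1 := by
  apply h.eq_of_add
  simpa [h.one, add_assoc, h.th1] using h.sm hD [[(1, .one)], [(0, .pC)], [(0, .pD)], [(0, .one)]]
    (by simp [Small, -Prod.forall]) fun h' hx c => by
      simp only [evP_cons, wd_cons, wd_nil, mul_one, evP_nil, add_zero, add_mul,
        ← (h'.th_one 0 .one).1, h'.th_S, h'.one, h'.top .pC _ rfl, h'.top .pD _ rfl]
      cases c <;> simp [tf, Lt.isRay, h'.add_self]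

theorem srcC (z : Z D n) (hz : sC z = true) : g (0, z) * g (0, .pC) = g (0, z) := by
  simpa using h.sm2 hD [(0, z), (0, .pC)] [(0, z)] (by simp [Small, -Prod.forall]) fun h' hx c => by
    simp only [wd_cons, wd_nil, mul_one, mul_assoc, h'.top .pC _ rfl]
    cases z <;> simp only [sC, reduceCtorEq] at hz <;> cases c <;>
      simp [tf, h'.top .pC _ rfl, h'.top .dl _ rfl, h'.top (.push _ _) _ rfl, h'.T_nonconf]

theorem srcD (z : Z D n) (hz : sD z = true) : g (0, z) * g (0, .pD) = g (0, z) := by
  simpa using h.sm2 hD [(0, z), (0, .pD)] [(0, z)] (by simp [Small, -Prod.forall]) fun h' hx c => by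
    simp only [wd_cons, wd_nil, mul_one, mul_assoc, h'.top .pD _ rfl]
    cases z <;> simp only [sD, reduceCtorEq] at hz <;> cases c <;>
      simp [tf, h'.top .pD _ rfl, h'.top (.lam _) _ rfl, h'.top (.pop _ _) _ rfl, h'.annD]

theorem neuC (z : Z D n) (hz : neu z = true) : g (0, z) * g (0, .pC) = g (0, .pC) := by
  simpa using h.sm2 hD [(0, z), (0, .pC)] [(0, .pC)] (by simp [Small, -Prod.forall]) fun h' hx c => by
    simp only [wd_cons, wd_nil, mul_one, mul_assoc, h'.top .pC _ rfl]
    cases z <;> simp only [neu, reduceCtorEq] at hz <;> cases c <;>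
      simp [tf, h'.one, h'.top .x1 _ rfl, h'.top .y1 _ rfl]

theorem neuD (z : Z D n) (hz : neu z = true) : g (0, z) * g (0, .pD) = g (0, .pD) := by
  simpa using h.sm2 hD [(0, z), (0, .pD)] [(0, .pD)] (by simp [Small, -Prod.forall]) fun h' hx c => by
    simp only [wd_cons, wd_nil, mul_one, mul_assoc, h'.top .pD _ rfl]
    cases z <;> simp only [neu, reduceCtorEq] at hz <;> cases c <;>
      simp [tf, h'.one, h'.top .x1 _ rfl, h'.top .y1 _ rfl]

theorem y0C : g (0, .y0) * g (0, .pC) = 0 := by
  simpa using h.sm1 hD [(0, .y0), (0, .pC)] (by simp [Small, -Prod.forall]) fun h' hx c => by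
    simp only [wd_cons, wd_nil, mul_one, mul_assoc, h'.top .pC _ rfl]
    cases c <;> simp [tf, h'.ann0]

theorem y0D : g (0, .y0) * g (0, .pD) = 0 := by
  simpa using h.sm1 hD [(0, .y0), (0, .pD)] (by simp [Small, -Prod.forall]) fun h' hx c => by
    simp only [wd_cons, wd_nil, mul_one, mul_assoc, h'.top .pD _ rfl]
    cases c <;> simp [tf, h'.ann0]

theorem CD : g (0, .pC) * g (0, .pD) = 0 := by
  simpa using h.top1 hD [.pC, .pD] (by simp [Small, l0, -Prod.forall]) (by simp [isTop])
    (by rintro (_ | _ | _) <;> rfl)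

theorem DC : g (0, .pD) * g (0, .pC) = 0 := by
  simpa using h.top1 hD [.pD, .pC] (by simp [Small, l0, -Prod.forall]) (by simp [isTop])
    (by rintro (_ | _ | _) <;> rfl)

theorem uC : θ 1 * g (0, .pC) = 0 := by
  simpa [h.th1] using h.sm1 hD [(1, .one), (0, .pC)] (by simp [Small, -Prod.forall]) fun h' hx c => by
    simp only [wd_cons, wd_nil, mul_one, mul_assoc, h'.top .pC _ rfl, ← (h'.th_one 0 .one).1]
    cases c <;> simp [tf, h'.th_S, Lt.isRay]

theorem uD : θ 1 * g (0, .pD) = 0 := by
  simpa [h.th1] using h.sm1 hD [(1, .one), (0, .pD)] (by simp [Small, -Prod.forall]) fun h' hx c => by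
    simp only [wd_cons, wd_nil, mul_one, mul_assoc, h'.top .pD _ rfl, ← (h'.th_one 0 .one).1]
    cases c <;> simp [tf, h'.th_S, Lt.isRay]

theorem Cu : g (0, .pC) * θ 1 = 0 := by
  simpa [h.th1] using h.sm1 hD [(0, .pC), (1, .one)] (by simp [Small, -Prod.forall]) fun h' hx c => by
    simp only [wd_cons, wd_nil, mul_one, mul_assoc, ← (h'.th_one 0 .one).1, h'.th_S]
    cases c <;> simp [tf, h'.top .pC _ rfl, Lt.isRay]

theorem Du : g (0, .pD) * θ 1 = 0 := by
  simpa [h.th1] using h.sm1 hD [(0, .pD), (1, .one)] (by simp [Small, -Prod.forall]) fun h' hx c => by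
    simp only [wd_cons, wd_nil, mul_one, mul_assoc, ← (h'.th_one 0 .one).1, h'.th_S]
    cases c <;> simp [tf, h'.top .pD _ rfl, Lt.isRay]

theorem C_push (i a) : g (0, .pC) * g (0, .push i a) = g (0, .push i a) := by
  simpa using h.top2 hD [.pC, .push i a] [.push i a] (by simp [Small, l0, -Prod.forall]) (by simp [isTop])
    (by simp [isTop]) (by rintro (_ | _ | _) <;> rfl)

theorem D_dl : g (0, .pD) * g (0, .dl) = g (0, .dl) := by
  simpa using h.top2 hD [.pD, .dl] [.dl] (by simp [Small, l0, -Prod.forall]) (by simp [isTop])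
    (by simp [isTop]) (by rintro (_ | _ | _) <;> rfl)

theorem D_lam (a) : g (0, .pD) * g (0, .lam a) = g (0, .lam a) := by
  simpa using h.top2 hD [.pD, .lam a] [.lam a] (by simp [Small, l0, -Prod.forall]) (by simp [isTop])
    (by simp [isTop]) (by rintro (_ | _ | _) <;> rfl)

theorem D_pop (i a) : g (0, .pD) * g (0, .pop i a) = g (0, .pop i a) := by
  simpa using h.top2 hD [.pD, .pop i a] [.pop i a] (by simp [Small, l0, -Prod.forall]) (by simp [isTop])
    (by simp [isTop]) (by
      rintro (_ | _ | _)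
      · rfl
      · rfl
      · simp only [tfW, tf, List.foldr, Option.bind_some]
        split_ifs <;> rfl)

theorem C_vC : g (0, .pC) * g (0, .vC) = g (0, .vC) := by
  simpa using h.sm2 hD [(0, .pC), (0, .vC)] [(0, .vC)] (by simp [Small, -Prod.forall]) fun h' hx c => by
    simp [h'.creC, h'.top .pC _ rfl, tf]

theorem aD_dl_vC : g (0, .aD) * (g (0, .dl) * g (0, .vC)) = 1 := by
  simpa [h.one] using h.sm2 hD [(0, .aD), (0, .dl), (0, .vC)] [(0, .one)] (by simp [Small, -Prod.forall])
    fun h' hx c => by simp [h'.creC, h'.dl_conf, h'.annD, h'.one]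

theorem push_comm (i j a b) (hij : i ≠ j) : Commute (g (0, .push i a)) (g (0, .push j b)) := by
  simpa [Commute, SemiconjBy] using h.top2 hD [.push i a, .push j b] [.push j b, .push i a]
    (by simp [Small, l0, -Prod.forall]) (by simp [isTop]) (by simp [isTop]) (by
      rintro (_ | _ | _)
      · rfl
      · simp [tfW, tf, hij, hij.symm, Function.update_comm hij]
      · rfl)

theorem pop_comm (i j a b) (hij : i ≠ j) : Commute (g (0, .pop i a)) (g (0, .pop j b)) := by
  simpa [Commute, SemiconjBy] using h.top2 hD [.pop i a, .pop j b] [.pop j b, .pop i a]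
    (by simp [Small, l0, -Prod.forall]) (by simp [isTop]) (by simp [isTop]) (by
      rintro (_ | _ | ⟨x, s⟩)
      · rfl
      · rfl
      · simp only [tfW, tf, List.foldr, Option.bind_some]
        by_cases h1 : (s i).head? = some a <;> by_cases h2 : (s j).head? = some b <;>
          simp [h1, h2, tf, hij, hij.symm, Function.update_comm hij])

theorem pop_lam (i a b) : Commute (g (0, .pop i a)) (g (0, .lam b)) := by
  simpa [Commute, SemiconjBy] using h.top2 hD [.pop i a, .lam b] [.lam b, .pop i a]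
    (by simp [Small, l0, -Prod.forall]) (by simp [isTop]) (by simp [isTop]) (by
      rintro (_ | _ | ⟨x, s⟩)
      · rfl
      · rfl
      · simp only [tfW, tf, List.foldr, Option.bind_some]
        split_ifs <;> rfl)

theorem pop_dl_push (i a) : g (0, .pop i a) * (g (0, .dl) * g (0, .push i a)) = g (0, .dl) := by
  simpa using h.top2 hD [.pop i a, .dl, .push i a] [.dl]
    (by simp [Small, l0, -Prod.forall]) (by simp [isTop]) (by simp [isTop]) (by
      rintro (_ | _ | ⟨x, s⟩)
      · rfl
      · simp [tfW, tf]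
      · rfl)

theorem pop_dl_push' (i a b) (hab : b ≠ a) :
    g (0, .pop i a) * (g (0, .dl) * g (0, .push i b)) = 0 := by
  simpa using h.top1 hD [.pop i a, .dl, .push i b]
    (by simp [Small, l0, -Prod.forall]) (by simp [isTop]) (by
      rintro (_ | _ | ⟨x, s⟩)
      · rfl
      · simp [tfW, tf, hab]
      · rfl)

theorem t0 (i a) (hi : i ≠ D.inp) : g (0, .T D.q0) * g (0, .push i a) = g (0, .T D.q0) := by
  simpa using h.sm2 hD [(0, .T D.q0), (0, .push i a)] [(0, .T D.q0)] (by simp [Small, -Prod.forall])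
    fun h' hx c => by
      simp only [wd_cons, wd_nil, mul_one, mul_assoc, h'.top (.push i a) _ rfl]
      cases c <;> simp [tf, h'.T_S, vT, Act.val_q0 hD, hi.symm]

theorem t1 (i a) : g (0, .T D.q0) * (g (0, .push D.inp D.hash) * g (0, .push i a))
    = g (0, .T D.q0) * g (0, .push D.inp D.hash) := by
  simpa using h.sm2 hD [(0, .T D.q0), (0, .push D.inp D.hash), (0, .push i a)]
    [(0, .T D.q0), (0, .push D.inp D.hash)] (by simp [Small, -Prod.forall]) fun h' hx c => by
      simp only [wd_cons, wd_nil, mul_one, mul_assoc, h'.top (.push _ _) _ rfl]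
      cases c <;> simp [tf, h'.T_S, vT, Act.val_q0 hD, h'.push_conf,
        ev_other hD.th_hash.symm fun i => (hD.inI_hash i).symm]

theorem e5 : g (0, .T D.q0) * (g (0, .push D.inp D.hash) * g (0, .vC)) = 1 := by
  simpa [h.one] using h.sm2 hD [(0, .T D.q0), (0, .push D.inp D.hash), (0, .vC)]
    [(0, .one)] (by simp [Small, -Prod.forall]) fun h' hx c => by
      simp [h'.creC, h'.T_S, vT, Act.val_q0 hD, h'.push_conf,
        ev_other hD.th_hash.symm fun i => (hD.inI_hash i).symm]

theorem swindle (r : A) :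
    θ r = g (0, .x0) * r * g (0, .y0) + g (0, .x1) * θ r * g (0, .y1) := by
  have l := h.lv hD
  have hg : ∀ ζ, θ (g ζ) = g (0, .x0) * g ζ * g (0, .y0) + g (0, .x1) * θ (g ζ) * g (0, .y1) := by
    intro ζ
    apply h.eq_of_add
    have := h.base _ (.h0 ζ)
    rw [h.th_g ζ.1 ζ.2]
    simpa [mul_assoc] using this
  have hr := h.span r
  induction hr using AddSubmonoid.closure_induction with
  | zero => simp
  | add a b _ _ ha hb =>
    rw [map_add]
    conv_lhs => rw [ha, hb]
    simp only [mul_add, add_mul]; abel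
  | mem a ha =>
    obtain ⟨μ, rfl⟩ := ha
    induction μ with
    | nil => rw [wd_nil, ← h.one]; exact hg _
    | cons ζ μ ih =>
      rw [wd_cons, map_mul]
      conv_lhs => rw [hg, ih]
      simp only [mul_add, add_mul, mul_assoc, l.y0x0', l.y0x1', l.y1x0', l.y1x1', mul_zero,
        add_zero, zero_add]

theorem th_x0 (r : A) : θ r * g (0, .x0) = g (0, .x0) * r := by
  have l := h.lv hD
  rw [h.swindle hD r]
  simp [add_mul, mul_assoc, l.y0x0, l.y1x0]

theorem th_x1 (r : A) : θ r * g (0, .x1) = g (0, .x1) * θ r := by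
  have l := h.lv hD
  conv_lhs => rw [h.swindle hD r]
  simp [add_mul, mul_assoc, l.y0x1, l.y1x1]

theorem y0_th (r : A) : g (0, .y0) * θ r = r * g (0, .y0) := by
  have l := h.lv hD
  rw [h.swindle hD r]
  simp [mul_add, mul_assoc, l.y0x0', l.y0x1']

theorem y1_th (r : A) : g (0, .y1) * θ r = θ r * g (0, .y1) := by
  have l := h.lv hD
  conv_lhs => rw [h.swindle hD r]
  simp [mul_add, mul_assoc, l.y1x0', l.y1x1']

end Sys

end Vale.Agent.P193
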