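import Vale.Agent.P193.SysA

/-! Generic operators on the top letter. -/

namespace Vale.Agent.P193

open Sgn

universe u

inductive KF (D : Sgn) (G : Type u) : Type u
  | up (i : ℕ)
  | dn (j : ℕ)
  | cc (s : D.St)
  | cd (x : G) (t s : D.St)
  | dd (x : G) (t : D.St)

variable {D : Sgn} {n : ℕ} {G : Type u}

def KF.isRay : KF D G → Bool
  | .up _ | .dn _ => true
  | _ => false

def KF.valid : KF D G → Prop
  | .cd _ t s => ∀ i, t i = [] ∨ s i = []
  | _ => True

def KF.cost : KF D G → ℕ
  | .cc s => tot s
  | .cd _ _ s => tot s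
  | _ => 0

def KF.dc : KF D G → ℕ
  | .dn j => j + 1
  | _ => 0

variable [Group G]

noncomputable def KW (gen : Fin n → G) : KF D G → List (Z D n)
  | .up i => List.replicate i .x1
  | .dn j => List.replicate (j + 1) .y1
  | .cc s => pushW s ++ [.pC]
  | .cd x t s => lamW (wOf gen x) ++ (popW t ++ .dl :: (pushW s ++ [.pC]))
  | .dd x t => lamW (wOf gen x) ++ (popW t ++ [.pD])

noncomputable def KK (gen : Fin n → G) {A : Type*} [Monoid A] (g : L D n → A) (k : KF D G) : A :=
  wd (fun z => g (0, z)) (KW gen k)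

noncomputable def SA (gen : Fin n → G) {A : Type*} [Monoid A] (g : L D n → A) (c : Lt D G) : A :=
  wd (fun z => g (0, z)) (SW gen c)

open Classical in
noncomputable def kt (gen : Fin n → G) : Z D n → KF D G → Option (KF D G)
  | .one, k => some k
  | .x1, k => some k
  | .y1, k => some k
  | .pC, .cc s => some (.cc s)
  | .push i a, .cc s => some (.cc (Function.update s i (a :: s i)))
  | .dl, .cc s => some (.cd 1 nil s)
  | .pD, .cd x t s => some (.cd x t s)
  | .pD, .dd x t => some (.dd x t)
  | .lam a, .cd x t s => some (.cd (gv gen a * x) t s)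
  | .lam a, .dd x t => some (.dd (gv gen a * x) t)
  | .pop i a, .cd x t s =>
      if s i = [] then some (.cd x (Function.update t i (t i ++ [a])) s)
      else if (s i).head? = some a then some (.cd x t (Function.update s i (s i).tail)) else none
  | .pop i a, .dd x t => some (.dd x (Function.update t i (t i ++ [a])))
  | _, _ => none

theorem kt_spec (gen : Fin n → G) (z : Z D n) (k k' : KF D G) (hk : k.isRay = false)
    (hv : k.valid) (h : kt gen z k = some k') :
    k'.isRay = false ∧ k'.valid ∧ k'.cost ≤ k.cost + wz z := by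
  cases z <;> cases k <;> simp only [kt, reduceCtorEq, Option.some.injEq, KF.isRay] at h hk <;>
    try (subst h; simp [KF.isRay, KF.valid, KF.cost, nil]; done)
  all_goals try (subst h; refine ⟨rfl, hv, ?_⟩; simp [KF.cost]; done)
  · rename_i i a s
    subst h
    have := tot_update s i (a :: s i)
    simp only [List.length_cons] at this
    refine ⟨rfl, trivial, ?_⟩
    simp only [wz, KF.cost]; omega
  · rename_i i a x t s
    split_ifs at h with h1 h2
    · obtain rfl := Option.some.inj h
      refine ⟨rfl, fun j => ?_, by simp [KF.cost]⟩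
      by_cases hj : j = i
      · subst hj; exact Or.inr h1
      · simpa [hj] using hv j
    · obtain rfl := Option.some.inj h
      refine ⟨rfl, fun j => ?_, ?_⟩
      · by_cases hj : j = i
        · subst hj; exact Or.inl ((hv j).resolve_right h1)
        · simpa [hj] using hv j
      · have := tot_update s i (s i).tail
        simp only [List.length_tail] at this
        simp only [KF.cost]; omega

theorem absorb_wd {α A : Type*} [Monoid A] {x : A} {f : α → A} {l : List α}
    (h : ∀ a ∈ l, x * f a = x) : x * wd f l = x := by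
  induction l with
  | nil => simp
  | cons a l ih =>
    rw [wd_cons, ← mul_assoc, h a List.mem_cons_self, ih fun b hb => h b (List.mem_cons_of_mem _ hb)]

theorem popW_nil : (popW nil : List (Z D n)) = [] := by simp [popW, nil]

theorem pushW_nil : (pushW nil : List (Z D n)) = [] := by simp [pushW, nil]

namespace Sys

variable {gen : Fin n → G} {e : ℕ} {A : Type*} [Ring A] {g : L D n → A}
  {θ : A →ₙ+* A} (h : Sys gen e g θ) (hD : D.Good)
include h hD

theorem killC (z : Z D n) (hz : sD z = true) {Y : A} (hY : g (0, .pC) * Y = Y) :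
    g (0, z) * Y = 0 := by
  rw [← hY, ← h.srcD hD z hz, ← mul_assoc, mul_assoc _ _ (g (0, .pC)), h.DC hD]; simp

theorem killD (z : Z D n) (hz : sC z = true) {Y : A} (hY : g (0, .pD) * Y = Y) :
    g (0, z) * Y = 0 := by
  rw [← hY, ← h.srcC hD z hz, ← mul_assoc, mul_assoc _ _ (g (0, .pD)), h.CD hD]; simp

theorem killU (z : Z D n) (hz : sC z = true ∨ sD z = true) {Y : A} (hY : θ 1 * Y = Y) :
    g (0, z) * Y = 0 := by
  rcases hz with hz | hz
  · rw [← hY, ← h.srcC hD z hz, ← mul_assoc, mul_assoc _ _ (θ 1), h.Cu hD]; simp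
  · rw [← hY, ← h.srcD hD z hz, ← mul_assoc, mul_assoc _ _ (θ 1), h.Du hD]; simp

theorem keepC (z : Z D n) (hz : neu z = true) {Y : A} (hY : g (0, .pC) * Y = Y) :
    g (0, z) * Y = Y := by rw [← hY, ← mul_assoc, h.neuC hD z hz]

theorem keepD (z : Z D n) (hz : neu z = true) {Y : A} (hY : g (0, .pD) * Y = Y) :
    g (0, z) * Y = Y := by rw [← hY, ← mul_assoc, h.neuD hD z hz]

theorem thC (r : A) {Y : A} (hY : g (0, .pC) * Y = Y ∨ g (0, .pD) * Y = Y) : θ r * Y = 0 := by
  rw [← mul_one r, map_mul, mul_assoc]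
  rcases hY with hY | hY
  · rw [← hY, ← mul_assoc (θ 1), h.uC hD]; simp
  · rw [← hY, ← mul_assoc (θ 1), h.uD hD]; simp

theorem y0K {Y : A} (hY : g (0, .pC) * Y = Y ∨ g (0, .pD) * Y = Y) : g (0, .y0) * Y = 0 := by
  rcases hY with hY | hY
  · rw [← hY, ← mul_assoc, h.y0C hD]; simp
  · rw [← hY, ← mul_assoc, h.y0D hD]; simp

theorem C_Pu (s : D.St) : Commute (g (0, .pC)) (wd (fun z => g (0, z)) (pushW s)) :=
  commute_wd fun z hz => by
    obtain ⟨i, a, rfl⟩ := Act.pushW_mem hz
    exact (h.C_push hD i a).trans (h.srcC hD _ rfl).symm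

theorem D_Po (s : D.St) : Commute (g (0, .pD)) (wd (fun z => g (0, z)) (popW s)) :=
  commute_wd fun z hz => by
    obtain ⟨i, a, rfl⟩ := Act.popW_mem hz
    exact (h.D_pop hD i a).trans (h.srcD hD _ rfl).symm

theorem D_La (w) : Commute (g (0, .pD)) (wd (fun z => g (0, z)) (lamW w)) :=
  commute_wd fun z hz => by
    obtain ⟨a, -, rfl⟩ := List.mem_map.1 hz
    exact (h.D_lam hD a).trans (h.srcD hD _ rfl).symm

theorem pop_La (i a w) : Commute (g (0, .pop i a)) (wd (fun z => g (0, z)) (lamW w)) :=
  commute_wd fun z hz => by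
    obtain ⟨b, -, rfl⟩ := List.mem_map.1 hz
    exact h.pop_lam hD i a b

theorem La_Po (w) (t : D.St) :
    Commute (wd (fun z => g (0, z)) (lamW w)) (wd (fun z => g (0, z)) (popW t)) :=
  commute_wd fun z hz => by
    obtain ⟨i, a, rfl⟩ := Act.popW_mem hz
    exact (h.pop_La hD i a w).symm

theorem Pu_app (s t : D.St) : wd (fun z => g (0, z)) (pushW s) * wd (fun z => g (0, z)) (pushW t)
    = wd (fun z => g (0, z)) (pushW (app s t)) := by
  simp only [wd_pushW]
  exact PW_app _ (h.push_comm hD) s t

theorem push_Pu (i a) (s : D.St) : g (0, .push i a) * wd (fun z => g (0, z)) (pushW s)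
    = wd (fun z => g (0, z)) (pushW (Function.update s i (a :: s i))) := by
  simp only [wd_pushW]
  exact PW_upd _ (h.push_comm hD) s i a

theorem pop_Po (i a) (t : D.St) : g (0, .pop i a) * wd (fun z => g (0, z)) (popW t)
    = wd (fun z => g (0, z)) (popW (Function.update t i (t i ++ [a]))) := by
  simp only [wd_popW]
  rw [PW_upd (fun i a => g (0, .pop i a)) (h.pop_comm hD)]
  congr 1
  funext j
  by_cases hj : j = i
  · subst hj; simp
  · simp [hj]

theorem pop_Po' (i a) (t : D.St) (ht : t i = []) :
    Commute (g (0, .pop i a)) (wd (fun z => g (0, z)) (popW t)) := by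
  rw [wd_popW]
  refine commute_PW _ fun j b hb => h.pop_comm hD _ _ _ _ ?_
  rintro rfl
  simp [ht] at hb

omit hD in
theorem La_triv (w) (hw : gw gen w = 1) {Y : A} (hY : g (0, .pD) * Y = Y) :
    wd (fun z => g (0, z)) (lamW w) * Y = Y := by
  have := h.base2 (.d1 w hw)
  simp only [wd_l0, wd_append, wd_cons, wd_nil, mul_one] at this
  rw [← hY, ← mul_assoc, this]

theorem La_eq (hs : Function.Surjective (gw gen)) (w w') (hw : gw gen w = gw gen w') {Y : A}
    (hY : g (0, .pD) * Y = Y) :
    wd (fun z => g (0, z)) (lamW w) * Y = wd (fun z => g (0, z)) (lamW w') * Y := by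
  obtain ⟨v, hv⟩ := hs (gw gen w)⁻¹
  have h1 := h.La_triv (v ++ w') (by rw [gw_append, hv, hw, inv_mul_cancel]) hY
  have h2 := h.La_triv (w ++ v) (by rw [gw_append, hv, mul_inv_cancel])
    (Y := wd (fun z => g (0, z)) (lamW w') * Y) (by rw [← mul_assoc, (h.D_La hD w').eq, mul_assoc, hY])
  simp only [lamW, List.map_append, wd_append, mul_assoc] at h1 h2 ⊢
  rw [← h2, h1]

theorem D_cd0 (t : D.St) (Y : A) :
    g (0, .pD) * (wd (fun z => g (0, z)) (popW t) * (g (0, .dl) * Y))
      = wd (fun z => g (0, z)) (popW t) * (g (0, .dl) * Y) := by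
  rw [← mul_assoc, (h.D_Po hD t).eq, mul_assoc, ← mul_assoc (g (0, .pD)), h.D_dl hD]

theorem D_dd0 (t : D.St) :
    g (0, .pD) * (wd (fun z => g (0, z)) (popW t) * g (0, .pD))
      = wd (fun z => g (0, z)) (popW t) * g (0, .pD) := by
  rw [← mul_assoc, (h.D_Po hD t).eq, mul_assoc, h.srcD hD _ rfl]

theorem C_cc (s : D.St) : g (0, .pC) * KK gen g (.cc s) = KK gen g (.cc s) := by
  simp only [KK, KW, wd_append, wd_cons, wd_nil, mul_one]
  rw [← mul_assoc, (h.C_Pu hD s).eq, mul_assoc, h.srcC hD _ rfl]

theorem D_cd (x : G) (t s : D.St) : g (0, .pD) * KK gen g (.cd x t s) = KK gen g (.cd x t s) := by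
  simp only [KK, KW, wd_append, wd_cons, wd_nil, mul_one]
  rw [← mul_assoc, (h.D_La hD _).eq, mul_assoc, h.D_cd0 hD]

theorem D_dd (x : G) (t : D.St) : g (0, .pD) * KK gen g (.dd x t) = KK gen g (.dd x t) := by
  simp only [KK, KW, wd_append, wd_cons, wd_nil, mul_one]
  rw [← mul_assoc, (h.D_La hD _).eq, mul_assoc, h.D_dd0 hD]

theorem K_CD (k : KF D G) (hk : k.isRay = false) :
    g (0, .pC) * KK gen g k = KK gen g k ∨ g (0, .pD) * KK gen g k = KK gen g k := by
  cases k <;> simp only [KF.isRay, reduceCtorEq] at hk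
  · exact Or.inl (h.C_cc hD _)
  · exact Or.inr (h.D_cd hD _ _ _)
  · exact Or.inr (h.D_dd hD _ _)

variable (hs : Function.Surjective (gw gen))
include hs

theorem lam_La (a) (x : G) {Y : A} (hY : g (0, .pD) * Y = Y) :
    g (0, .lam a) * (wd (fun z => g (0, z)) (lamW (wOf gen x)) * Y)
      = wd (fun z => g (0, z)) (lamW (wOf gen (gv gen a * x))) * Y := by
  rw [← h.La_eq hD hs (a :: wOf gen x) (wOf gen (gv gen a * x)) (by simp [gw_wOf hs]) hY]
  simp [lamW, mul_assoc]

theorem kt_eq (z : Z D n) (hz : isTop z = true) (k : KF D G) (hk : k.isRay = false)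
    (hv : k.valid) : g (0, z) * KK gen g k = (kt gen z k).elim 0 (KK gen g) := by
  cases k <;> simp only [KF.isRay, reduceCtorEq] at hk
  · rename_i s
    have hC := h.C_cc hD s
    cases z <;> simp only [isTop, reduceCtorEq] at hz <;> simp only [kt, Option.elim] <;>
      first | exact h.keepC hD _ rfl hC | exact h.killC hD _ rfl hC | exact hC | skip
    · simp only [KK, KW, wd_append, wd_cons, wd_nil, mul_one, popW_nil, one_mul]
      rw [h.La_triv _ (gw_wOf hs 1)]
      rw [← mul_assoc, h.D_dl hD]
    · simp only [KK, KW, wd_append, wd_cons, wd_nil, mul_one]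
      rw [← mul_assoc, h.push_Pu hD]
  · rename_i x t s
    have hC := h.D_cd hD x t s
    cases z <;> simp only [isTop, reduceCtorEq] at hz <;> simp only [kt] <;>
      first | exact h.keepD hD _ rfl hC | exact h.killD hD _ rfl hC | exact hC | skip
    · simp only [KK, KW, wd_append, wd_cons, wd_nil, mul_one, Option.elim]
      exact h.lam_La hD hs _ _ (h.D_cd0 hD _ _)
    · rename_i i a
      have e1 : g (0, .pop i a) * KK gen g (.cd x t s) = wd (fun z => g (0, z)) (lamW (wOf gen x)) *
          (g (0, .pop i a) * wd (fun z => g (0, z)) (popW t) *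
            (g (0, .dl) * (wd (fun z => g (0, z)) (pushW s) * g (0, .pC)))) := by
        simp only [KK, KW, wd_append, wd_cons, wd_nil, mul_one]
        rw [← mul_assoc, (h.pop_La hD _ _ _).eq]
        simp only [mul_assoc]
      rw [e1]
      rcases hsi : s i with _ | ⟨b, l⟩
      · rw [if_pos rfl, h.pop_Po hD]
        simp only [KK, KW, wd_append, wd_cons, wd_nil, mul_one, Option.elim]
      · have ht : t i = [] := (hv i).resolve_right (by simp [hsi])
        have e2 : wd (fun z => g (0, z)) (pushW s) = g (0, .push i b) *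
            wd (fun z => g (0, z)) (pushW (Function.update s i l)) := by
          rw [h.push_Pu hD]
          simp [← hsi]
        rw [if_neg (by simp), (h.pop_Po' hD i a t ht).eq, e2]
        by_cases hab : b = a
        · subst hab
          have := h.pop_dl_push hD i b
          simp only [KK, KW, wd_append, wd_cons, wd_nil, mul_one, Option.elim, List.head?_cons,
            if_true, List.tail_cons, mul_assoc]
          rw [← mul_assoc (g (0, .dl)), ← mul_assoc (g (0, .pop i b)), this]
        · have := h.pop_dl_push' hD i a b hab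
          rw [if_neg (by simpa using hab)]
          simp only [mul_assoc]
          rw [← mul_assoc (g (0, .dl)), ← mul_assoc (g (0, .pop i a)), this]
          simp
  · rename_i x t
    have hC := h.D_dd hD x t
    cases z <;> simp only [isTop, reduceCtorEq] at hz <;> simp only [kt] <;>
      first | exact h.keepD hD _ rfl hC | exact h.killD hD _ rfl hC | exact hC | skip
    · simp only [KK, KW, wd_append, wd_cons, wd_nil, mul_one, Option.elim]
      exact h.lam_La hD hs _ _ (h.D_dd0 hD _)
    · simp only [KK, KW, wd_append, wd_cons, wd_nil, mul_one, Option.elim]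
      rw [← mul_assoc, (h.pop_La hD _ _ _).eq, mul_assoc, ← mul_assoc (g (0, .pop _ _)), h.pop_Po hD]

open Classical in
theorem aD_cd (x : G) (t s : D.St) (hv : ∀ i, t i = [] ∨ s i = []) :
    g (0, .aD) * KK gen g (.cd x t s) = if x = 1 ∧ s = nil then Sst gen g (.conf t) else 0 := by
  simp only [KK, KW, wd_append, wd_cons, wd_nil, mul_one]
  by_cases hx : x = 1
  · subst hx
    rw [h.La_triv _ (gw_wOf hs 1) (h.D_cd0 hD _ _)]
    by_cases hs0 : s = nil
    · subst hs0
      simp [Sst, SstW, pushW_nil, h.srcC hD .dl rfl]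
    · obtain ⟨i, hi⟩ : ∃ i, s i ≠ [] := by
        by_contra hh
        push Not at hh
        exact hs0 (funext hh)
      obtain ⟨b, l, hsi⟩ := List.exists_cons_of_ne_nil hi
      have e2 : wd (fun z => g (0, z)) (pushW s) = g (0, .push i b) *
          wd (fun z => g (0, z)) (pushW (Function.update s i l)) := by
        rw [h.push_Pu hD]
        simp [← hsi]
      have := h.base1 (.d3 t i b ((hv i).resolve_right hi))
      simp only [wd_l0, wd_append, wd_cons, wd_nil, mul_one, List.cons_append] at this
      rw [if_neg (by simp [hs0]), e2]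
      calc _ = g (0, .aD) * (wd (fun z => g (0, z)) (popW t) * (g (0, .dl) * g (0, .push i b))) *
          (wd (fun z => g (0, z)) (pushW (Function.update s i l)) * g (0, .pC)) := by
            simp only [mul_assoc]
        _ = 0 := by rw [this, zero_mul]
  · have := h.base1 (.d2 (wOf gen x) t (by rw [gw_wOf hs]; exact hx))
    simp only [wd_l0, wd_append, wd_cons, wd_nil, mul_one, List.cons_append, mul_assoc] at this
    rw [if_neg (by simp [hx])]
    calc _ = g (0, .aD) * (wd (fun z => g (0, z)) (lamW (wOf gen x)) *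
          (wd (fun z => g (0, z)) (popW t) * g (0, .dl))) *
          (wd (fun z => g (0, z)) (pushW s) * g (0, .pC)) := by
            simp only [mul_assoc]
        _ = 0 := by rw [this, zero_mul]

omit hs in
theorem aD_dd (x : G) (t : D.St) : g (0, .aD) * KK gen g (.dd x t) = Sst gen g (.dis x⁻¹ t) := by
  simp only [KK, KW, Sst, SstW, wd_append, wd_cons, wd_nil, mul_one, List.cons_append, inv_inv]
  rw [← (h.D_Po hD t).eq, ← mul_assoc (wd _ _), ← (h.D_La hD _).eq, mul_assoc, ← mul_assoc,
    h.srcD hD _ rfl, (h.La_Po hD _ _).eq]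

end Sys

end Vale.Agent.P193
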