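import Vale.Agent.P193.SysB

/-! Reduction of the evaluators and the action in the ring. -/

namespace Vale.Agent.P193

open Sgn

universe u

inductive An (D : Sgn) (G : Type u) : Type u
  | sc (c : Lt D G)
  | tj (j : ℕ)
  | t1
  | gn (q : D.Q) (u : D.St)

variable {D : Sgn} {n : ℕ} {G : Type u}

def An.ok (e : ℕ) : An D G → Prop
  | .gn q u => D.Gen e (q, u)
  | _ => True

variable [Group G]

noncomputable def annV (gen : Fin n → G) {A : Type*} [Monoid A] (g : L D n → A) : An D G → A
  | .sc c => Sst gen g c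
  | .tj j => wd g (tj j)
  | .t1 => g (0, .T D.q0) * g (0, .push D.inp D.hash)
  | .gn q u => g (0, .T q) * wd (fun z => g (0, z)) (pushW u)

namespace Sys

variable {gen : Fin n → G} {e : ℕ} {A : Type*} [Ring A] {g : L D n → A}
  {θ : A →ₙ+* A} (h : Sys gen e g θ) (hD : D.Good)
include h hD

theorem T_rtg {c c' : D.Cfg} (hst : Relation.ReflTransGen (D.Step e) c c') :
    g (0, .T c.1) * wd (fun z => g (0, z)) (pushW c.2)
      = g (0, .T c'.1) * wd (fun z => g (0, z)) (pushW c'.2) := by
  induction hst with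
  | refl => rfl
  | tail _ h2 ih =>
    obtain ⟨ρ, s, rfl, rfl⟩ := h2
    have := h.base2 (.rule ρ)
    simp only [wd_l0, wd_cons] at this
    rw [ih, ← h.Pu_app hD, ← h.Pu_app hD, ← mul_assoc, this, mul_assoc]

theorem T0_Pu (u : D.St) : g (0, .T D.q0) * wd (fun z => g (0, z)) (pushW u)
    = g (0, .T D.q0) * wd (fun z => g (0, z)) (inW (u D.inp)) := by
  have h1 : u = app (Function.update u D.inp []) (Function.update (fun _ => []) D.inp (u D.inp)) := by
    funext i
    by_cases hi : i = D.inp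
    · subst hi; simp [app]
    · simp [app, hi]
  conv_lhs => rw [h1]
  rw [← h.Pu_app hD, ← mul_assoc, absorb_wd (x := g (0, .T D.q0)), wd_pushW, PW_single, inW, wd_map]
  intro z hz
  simp only [pushW, List.mem_flatMap, List.mem_map] at hz
  obtain ⟨i, -, a, ha, rfl⟩ := hz
  refine h.t0 hD i a ?_
  rintro rfl
  simp at ha

omit h hD in
theorem tj_succ (j : ℕ) : wd g (tj j) * g (0, .push D.inp D.th) = wd g (tj (j + 1)) := by
  simp [tj, wd_l0, inW, pow_succ, mul_assoc]

omit hD in
theorem tj_inI (j : ℕ) (i : Fin 8) : wd g (tj j) * g (0, .push D.inp (D.inI i))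
    = evP g (shP j ((mI i).map l0)) * wd g (tj j) := by
  have := h.base _ (.e1 j i)
  rw [evP_cons, evP_map_append] at this
  simpa using h.eq_of_add this

theorem tj_other (j : ℕ) {o : D.Sg} (h1 : o ≠ D.th) (h2 : ∀ i, o ≠ D.inI i) (l : List D.Sg) :
    wd g (tj j) * (g (0, .push D.inp o) * wd (fun z => g (0, z)) (inW l))
      = g (j, .one) * (g (0, .T D.q0) * g (0, .push D.inp D.hash)) := by
  have := h.base2 (.e2 j o h1 h2)
  simp only [wd_append, wd_cons, wd_nil, mul_one, wd_l0] at this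
  rw [← mul_assoc, this, mul_assoc, absorb_wd]
  intro z hz
  obtain ⟨a, -, rfl⟩ := List.mem_map.1 hz
  rw [mul_assoc, h.t1 hD]

theorem tj_vC (l : List D.Sg) (j : ℕ) :
    wd g (tj j) * (wd (fun z => g (0, z)) (inW l) * g (0, .vC)) = θ^[j] (evP g (ev l)) := by
  induction l generalizing j with
  | nil =>
    have := h.base2 (.e4 j)
    simpa [inW, ev, iter_g' h.th_g] using this
  | cons a l ih =>
    rw [inW, List.map_cons, wd_cons, ← inW]
    by_cases h2 : ∃ i, a = D.inI i
    · obtain ⟨i, rfl⟩ := h2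
      rw [mul_assoc, ← mul_assoc, h.tj_inI, mul_assoc, ih, ev_inI hD, evP_mulP, Act.iter_mul,
        iter_evP' h.th_g j ((mI i).map l0)]
      intro μ hμ
      obtain ⟨ν, hν, rfl⟩ := List.mem_map.1 hμ
      exact l0_ne_nil (mI_wt i ν hν).2
    · by_cases h1 : a = D.th
      · subst h1
        rw [mul_assoc, ← mul_assoc, tj_succ, ih, ev_th hD,
          ← th_evP' h.th_g _ fun μ hμ => (ev_wt _ μ hμ).2, Function.iterate_succ_apply]
      · push Not at h2
        rw [← mul_assoc, h.tj_other hD j h1 h2, ev_other h1 h2, mul_assoc, mul_assoc, h.e5 hD]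
        simp [iter_g' h.th_g]

theorem tj_red (l : List D.Sg) (j : ℕ) : ∃ (P : Poly (L D n)) (x : An D G),
    (∀ μ ∈ P, wtW μ ≤ l.length) ∧ x.ok e ∧
      wd g (tj j) * wd (fun z => g (0, z)) (inW l) = evP g P * annV gen g x := by
  induction l generalizing j with
  | nil => exact ⟨[[]], .tj j, by simp, trivial, by simp [inW, annV]⟩
  | cons a l ih =>
    rw [inW, List.map_cons, wd_cons, ← inW]
    by_cases h2 : ∃ i, a = D.inI i
    · obtain ⟨i, rfl⟩ := h2
      obtain ⟨P, x, h1, h2, h3⟩ := ih j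
      refine ⟨mulP (shP j ((mI i).map l0)) P, x, ?_, h2, ?_⟩
      · intro μ hμ
        simp only [mulP, shP, List.mem_flatMap, List.mem_map] at hμ
        obtain ⟨_, ⟨_, ⟨ν, hν, rfl⟩, rfl⟩, ν', hν', rfl⟩ := hμ
        have := wtW_l0_le ν 1 (mI_wt _ ν hν).1
        have := h1 ν' hν'
        simp only [wtW_append, wtW_sh, List.length_cons]; omega
      · rw [← mul_assoc, h.tj_inI, mul_assoc, h3, evP_mulP, mul_assoc]
    · by_cases h1 : a = D.th
      · subst h1
        obtain ⟨P, x, h1, h2, h3⟩ := ih (j + 1)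
        exact ⟨P, x, fun μ hμ => (h1 μ hμ).trans (Nat.le_succ _), h2, by
          rw [← mul_assoc, tj_succ, h3]⟩
      · push Not at h2
        exact ⟨[[(j, .one)]], .t1, by simp [wz], trivial, by
          rw [h.tj_other hD j h1 h2]; simp [annV]⟩

theorem T_red (q : D.Q) (s : D.St) : ∃ (P : Poly (L D n)) (x : An D G),
    (∀ μ ∈ P, wtW μ ≤ tot s) ∧ x.ok e ∧
      g (0, .T q) * wd (fun z => g (0, z)) (pushW s) = evP g P * annV gen g x := by
  have h1 := h.T_rtg hD (orig_spec (e := e) hD (q, s)).1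
  have h2 := (orig_spec (e := e) hD (q, s)).2
  have h3 := orig_size (e := e) hD (q, s)
  simp only at h1 h3
  rw [← h1]
  generalize orig e (q, s) = o at h2 h3
  obtain ⟨q', u⟩ := o
  by_cases hq : q' = D.q0
  · subst hq
    obtain ⟨P, x, h4, h5, h6⟩ := h.tj_red hD (u D.inp) 0
    refine ⟨P, x, fun μ hμ => (h4 μ hμ).trans h3, h5, ?_⟩
    rw [h.T0_Pu hD, ← h6]
    simp [tj, l0, inW]
  · by_cases hr : D.Reach e (q', u)
    · obtain ⟨v, hv⟩ := hr
      exact ⟨[], .t1, by simp, trivial, by rw [h.T_rtg hD hv, h.Tacc]; simp⟩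
    · exact ⟨[[]], .gn q' u, by simp, ⟨h2, hq, hr⟩, by simp [annV]⟩

theorem T_vC (q : D.Q) (s : D.St) :
    g (0, .T q) * (wd (fun z => g (0, z)) (pushW s) * g (0, .vC)) = evP g (val e q s) := by
  have h1 := h.T_rtg hD (orig_spec (e := e) hD (q, s)).1
  have h2 := (orig_spec (e := e) hD (q, s)).2
  simp only at h1
  rw [← mul_assoc, ← h1, val]
  generalize orig e (q, s) = o at h2
  obtain ⟨q', u⟩ := o
  split_ifs with hq hr
  · simp only at hq
    subst hq
    have := h.tj_vC hD (u D.inp) 0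
    rw [h.T0_Pu hD, mul_assoc]
    simpa [tj, l0, inW] using this
  · obtain ⟨v, hv⟩ := hr
    rw [h.T_rtg hD hv, h.Tacc]; simp
  · have := h.base2 (.b4 q' u ⟨h2, hq, hr⟩)
    simpa [wd_l0, mul_assoc] using this

theorem th_x1p (r : A) (m : ℕ) : θ r * g (0, .x1) ^ m = g (0, .x1) ^ m * θ r :=
  (Commute.pow_right (h.th_x1 hD r) m).eq

theorem th_y1p (r : A) (m : ℕ) : θ r * g (0, .y1) ^ m = g (0, .y1) ^ m * θ r :=
  (Commute.pow_right (h.y1_th hD r).symm m).eq

theorem SA_conf (s : D.St) : SA gen g (.conf s) = KK gen g (.cc s) * g (0, .vC) := by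
  simp [SA, SW, KK, KW, mul_assoc, h.C_vC hD]

theorem SA_dis (x : G) (s : D.St) : SA gen g (.dis x s) = KK gen g (.cd x nil s) * g (0, .vC) := by
  simp [SA, SW, KK, KW, mul_assoc, h.C_vC hD, popW_nil]

theorem th_ray (r : A) (m : ℕ) : θ r * SA gen g (.ray m) = SA gen g (.ray m) * r := by
  simp only [SA, SW, wd_append, wd_replicate, wd_cons, wd_nil, mul_one]
  rw [← mul_assoc, h.th_x1p hD, mul_assoc, h.th_x0 hD, mul_assoc]

theorem act (hs : Function.Surjective (gw gen)) : Act gen e g (SA gen g) θ where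
  two := h.two
  one := h.one
  th_g := h.th_g
  cre0 := by simp [SA, SW]
  creC := by simp [SA, SW, pushW_nil]
  top z c hz := by
    have l := h.lv hD
    cases c with
    | ray m =>
      have hu : θ 1 * SA gen g (.ray m) = SA gen g (.ray m) := by rw [h.th_ray hD, mul_one]
      cases z <;> simp only [isTop, reduceCtorEq] at hz <;>
        first | exact h.killU hD _ (Or.inl rfl) hu | exact h.killU hD _ (Or.inr rfl) hu | skip
      · simp [tf, h.one]
      · simp [tf, SA, SW, pow_succ', mul_assoc]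
      · cases m <;> simp [tf, SA, SW, pow_succ', mul_assoc, l.y1x0, l.y1x1']
    | conf s =>
      rw [h.SA_conf hD, ← mul_assoc, h.kt_eq hD hs z hz (.cc s) rfl trivial]
      cases z <;> simp [kt, tf, h.SA_conf hD, h.SA_dis hD]
    | dis x s =>
      rw [h.SA_dis hD, ← mul_assoc, h.kt_eq hD hs z hz (.cd x nil s) rfl fun _ => Or.inl rfl]
      cases z <;> simp only [kt, tf, h.SA_dis hD, Option.elim, zero_mul]
      rename_i i a
      by_cases hi : s i = []
      · have h1 := h.base1 (.d4 s i a hi)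
        have h2 := h.pop_Po hD i a nil
        simp only [wd_l0, wd_cons, wd_append, wd_nil, mul_one, List.cons_append] at h1
        simp only [popW_nil, wd_nil, mul_one] at h2
        simp only [hi, if_true, KK, KW, wd_append, wd_cons, wd_nil, mul_one, ← h2, mul_assoc,
          h.C_vC hD, h1]
        simp [hi]
      · rw [if_neg hi]
        split_ifs
        · simp [h.SA_dis hD]
        · simp
  ann0 c := by
    have l := h.lv hD
    cases c with
    | ray m => cases m <;> simp [SA, SW, pow_succ', mul_assoc, l.y0x0, l.y0x1']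
    | conf s => rw [h.SA_conf hD, ← mul_assoc, h.y0K hD (h.K_CD hD _ rfl)]; simp
    | dis x s => rw [h.SA_dis hD, ← mul_assoc, h.y0K hD (h.K_CD hD _ rfl)]; simp
  annD c := by
    cases c with
    | ray m => rw [h.killU hD _ (Or.inr rfl) (by rw [h.th_ray hD, mul_one])]; simp
    | conf s => rw [h.SA_conf hD, ← mul_assoc, h.killC hD _ rfl (h.C_cc hD s)]; simp
    | dis x s =>
      rw [h.SA_dis hD, ← mul_assoc, h.aD_cd hD hs x nil s fun _ => Or.inl rfl]
      by_cases hh : x = 1 ∧ s = nil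
      · rw [if_pos hh, if_pos (by simpa using hh)]
        simp [Sst, SstW, popW_nil, mul_assoc, h.aD_dl_vC hD]
      · rw [if_neg hh, if_neg (by simpa using hh), zero_mul]
  th_S r c := by
    cases c with
    | ray m => exact h.th_ray hD r m
    | conf s => rw [h.SA_conf hD, ← mul_assoc, h.thC hD r (h.K_CD hD _ rfl)]; simp [Lt.isRay]
    | dis x s => rw [h.SA_dis hD, ← mul_assoc, h.thC hD r (h.K_CD hD _ rfl)]; simp [Lt.isRay]
  T_S q c := by
    cases c with
    | ray m => rw [h.killU hD _ (Or.inl rfl) (by rw [h.th_ray hD, mul_one])]; rfl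
    | dis x s => rw [h.SA_dis hD, ← mul_assoc, h.killD hD _ rfl (h.D_cd hD _ _ _)]; simp [vT]
    | conf s => simpa [SA, SW, vT] using h.T_vC hD q s

end Sys

end Vale.Agent.P193
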